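import Vale.Agent.P061.Basic

/-!
Matrix lemmas: rank one updates, the theorem of Kiefer and Wolfowitz, balancing weights.

Plan. `lev M v = v ⬝ M⁻¹ v`. `det_update`: `Matrix.det_add_replicateCol_mul_replicateRow`.
`lev_le`: test with `y = M⁻¹ v`. `sq_le_lev`: Cauchy-Schwarz for the form of `M` (discriminant).
`kw`: put `K = 2 n + 1`, maximise `det (η • 1 + gram c v) / 2 ^ (∑ c)` over the finite box
`c : ι → ℕ`, `c i ≤ K`. Decreasing `c i ≥ 1` by one gives `2 (1 - lev) ≤ 1`; since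
`∑ c i lev (v i) = trace (M⁻¹ gram) = n - η trace M⁻¹ ≤ n` we get `∑ c ≤ 2 n < K`, so increasing
is allowed and gives `1 + lev ≤ 2`. `weights`: choose `θ ∈ (0, 1)` with `p² θ < 2 p - 1`, `p θ < 1`, put
`ρ = 1 - θ`, `σ = 1 - p θ`, so `σ² < ρ`. `G w = det (gram 1 o + gram w u)`,
`ψ n = G (ρ ^ n) / σ ^ (∑ n)` for `n : E → ℕ`. For `0 < w ≤ 1`: `G w ≥ c ∏_{e ∈ B i} w e` with
`c = min (G 1_{B i}) > 0` (change one coordinate at a time with `det_update`, all matrices are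
`PD`), so `G w ^ 2 ≥ c² ∏ e, w e` and `ψ n → ∞`. Hence some `n` has `ψ n ≤ ψ (n + single e 1)` for all `e`
(otherwise build `n` with `∑ n` arbitrarily large and `ψ n ≤ ψ 0`), which says
`w e * lev ≤ p`; conclude with `sq_le_lev`.
-/

namespace Vale.Agent.P061

open Finset Function Matrix

variable {ι n : Type} [Fintype ι] [DecidableEq ι] [Fintype n] [DecidableEq n]

/-- The leverage score. -/
noncomputable def lev (M : Matrix n n ℝ) (v : n → ℝ) : ℝ := v ⬝ᵥ M⁻¹ *ᵥ v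

theorem gram_symm (w : ι → ℝ) (v : ι → n → ℝ) : (gram w v).IsSymm := by
  ext i j
  simp only [gram, Matrix.transpose_apply, Matrix.sum_apply, Matrix.smul_apply, vecMulVec_apply]
  exact Finset.sum_congr rfl fun k _ => by rw [mul_comm (v k j)]

omit [DecidableEq n] in
theorem mat_quad_one (v y : n → ℝ) : y ⬝ᵥ vecMulVec v v *ᵥ y = (v ⬝ᵥ y) ^ 2 := by
  rw [vecMulVec_mulVec, dotProduct_smul, dotProduct_comm y v]
  simp [sq]

theorem gram_quad (w : ι → ℝ) (v : ι → n → ℝ) (y : n → ℝ) :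
    y ⬝ᵥ gram w v *ᵥ y = ∑ i, w i * (v i ⬝ᵥ y) ^ 2 := by
  rw [gram, Matrix.sum_mulVec, dotProduct_sum]
  refine Finset.sum_congr rfl fun i _ => ?_
  rw [Matrix.smul_mulVec, dotProduct_smul, mat_quad_one, smul_eq_mul]

theorem gram_update (w : ι → ℝ) (v : ι → n → ℝ) (i : ι) (s : ℝ) :
    gram (update w i s) v = gram w v + (s - w i) • vecMulVec (v i) (v i) := by
  unfold gram
  rw [← Finset.add_sum_erase _ _ (mem_univ i), ← Finset.add_sum_erase _ _ (mem_univ i),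
    update_self, sub_smul]
  have h : ∑ x ∈ univ.erase i, update w i s x • vecMulVec (v x) (v x) =
      ∑ x ∈ univ.erase i, w x • vecMulVec (v x) (v x) :=
    Finset.sum_congr rfl fun x hx => by rw [update_of_ne (Finset.ne_of_mem_erase hx)]
  rw [h]
  abel

omit [DecidableEq n] in
theorem PD.posDef {M : Matrix n n ℝ} (h : PD M) : M.PosDef := by
  refine Matrix.PosDef.of_dotProduct_mulVec_pos ?_ fun y hy => ?_
  · exact Matrix.isHermitian_iff_isSymm.2 h.1
  · simpa using h.2 y hy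

omit [DecidableEq n] in
theorem PD.nonneg {M : Matrix n n ℝ} (h : PD M) (y : n → ℝ) : 0 ≤ y ⬝ᵥ M *ᵥ y := by
  by_cases hy : y = 0
  · simp [hy]
  · exact (h.2 y hy).le

theorem PD.det_pos {M : Matrix n n ℝ} (h : PD M) : 0 < M.det := by
  exact h.posDef.det_pos

theorem PD.mul_inv_vec {M : Matrix n n ℝ} (h : PD M) (v : n → ℝ) : M *ᵥ (M⁻¹ *ᵥ v) = v := by
  rw [Matrix.mulVec_mulVec, Matrix.mul_nonsing_inv _ h.det_pos.ne'.isUnit, Matrix.one_mulVec]

theorem PD.inv_dot {M : Matrix n n ℝ} (h : PD M) (v y : n → ℝ) :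
    (M⁻¹ *ᵥ v) ⬝ᵥ M *ᵥ y = v ⬝ᵥ y := by
  rw [Matrix.dotProduct_mulVec, ← Matrix.mulVec_transpose, h.1.eq, h.mul_inv_vec]

theorem PD.det_update {M : Matrix n n ℝ} (h : PD M) (v : n → ℝ) (s : ℝ) :
    (M + s • vecMulVec v v).det = M.det * (1 + s * lev M v) := by
  have e : s • vecMulVec v v = replicateCol Unit (s • v) * replicateRow Unit v := by
    rw [← vecMulVec_eq, smul_vecMulVec]
  rw [e, det_add_replicateCol_mul_replicateRow h.det_pos.ne'.isUnit]
  congr 1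
  rw [det_unique, Matrix.add_apply, Matrix.one_apply_eq, Matrix.mul_assoc, ← replicateCol_mulVec,
    replicateRow_mul_replicateCol_apply, Matrix.mulVec_smul, dotProduct_smul, smul_eq_mul, lev]

theorem PD.lev_nonneg {M : Matrix n n ℝ} (h : PD M) (v : n → ℝ) : 0 ≤ lev M v := by
  rw [lev, ← h.inv_dot v (M⁻¹ *ᵥ v)]
  exact h.nonneg _

theorem PD.lev_le {M : Matrix n n ℝ} (h : PD M) {v : n → ℝ} {κ : ℝ} (hκ : 0 ≤ κ)
    (hv : ∀ y, (v ⬝ᵥ y) ^ 2 ≤ κ * (y ⬝ᵥ M *ᵥ y)) : lev M v ≤ κ := by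
  have h1 := hv (M⁻¹ *ᵥ v)
  rw [h.inv_dot] at h1
  change lev M v ^ 2 ≤ κ * lev M v at h1
  by_contra hc
  have h2 := not_le.1 hc
  nlinarith

theorem PD.sq_le_lev {M : Matrix n n ℝ} (h : PD M) (v y : n → ℝ) :
    (v ⬝ᵥ y) ^ 2 ≤ lev M v * (y ⬝ᵥ M *ᵥ y) := by
  have h1 : ∀ t : ℝ, 0 ≤ lev M v * (t * t) + (2 * (v ⬝ᵥ y)) * t + y ⬝ᵥ M *ᵥ y := by
    intro t
    have h2 := h.nonneg (y + t • M⁻¹ *ᵥ v)
    rw [Matrix.mulVec_add, Matrix.mulVec_smul, h.mul_inv_vec, add_dotProduct, dotProduct_add,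
      dotProduct_add, smul_dotProduct, smul_dotProduct, dotProduct_smul, dotProduct_smul,
      h.inv_dot, dotProduct_comm y v, dotProduct_comm _ v] at h2
    simp only [smul_eq_mul] at h2
    unfold lev
    linarith
  have h3 := discrim_le_zero h1
  unfold discrim at h3
  linarith

theorem PD.update {M : Matrix n n ℝ} (h : PD M) {v : n → ℝ} {s : ℝ}
    (hd : 0 < (M + s • vecMulVec v v).det) : PD (M + s • vecMulVec v v) := by
  rw [h.det_update] at hd
  have h1 : 0 < 1 + s * lev M v := (mul_pos_iff_of_pos_left h.det_pos).1 hd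
  refine ⟨h.1.add (Matrix.IsSymm.smul ?_ s), fun y hy => ?_⟩
  · ext i j
    simp [vecMulVec_apply, mul_comm]
  · rw [Matrix.add_mulVec, dotProduct_add, Matrix.smul_mulVec, dotProduct_smul, mat_quad_one,
      smul_eq_mul]
    have h2 := h.2 y hy
    have h3 := h.sq_le_lev v y
    by_cases hs : 0 ≤ s
    · have := mul_nonneg hs (sq_nonneg (v ⬝ᵥ y))
      linarith
    · have hs' := not_le.1 hs
      nlinarith [mul_pos h1 h2]

theorem det_nonneg_of_psd {M : Matrix n n ℝ} (h : M.IsSymm) (h0 : ∀ y, 0 ≤ y ⬝ᵥ M *ᵥ y) :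
    0 ≤ M.det := by
  refine Matrix.PosSemidef.det_nonneg (Matrix.PosSemidef.of_dotProduct_mulVec_nonneg ?_ fun y => ?_)
  · exact Matrix.isHermitian_iff_isSymm.2 h
  · simpa using h0 y

theorem mat_kw_quad (v : ι → n → ℝ) (η : ℝ) (c : ι → ℝ) (y : n → ℝ) :
    y ⬝ᵥ (η • (1 : Matrix n n ℝ) + gram c v) *ᵥ y = η * (y ⬝ᵥ y) + ∑ j, c j * (v j ⬝ᵥ y) ^ 2 := by
  rw [Matrix.add_mulVec, dotProduct_add, gram_quad, Matrix.smul_mulVec, Matrix.one_mulVec,
    dotProduct_smul, smul_eq_mul]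

theorem mat_kw_pd (v : ι → n → ℝ) {η : ℝ} (hη : 0 < η) {c : ι → ℝ} (hc : ∀ i, 0 ≤ c i) :
    PD (η • (1 : Matrix n n ℝ) + gram c v) := by
  refine ⟨(Matrix.isSymm_one.smul η).add (gram_symm c v), fun y hy => ?_⟩
  rw [mat_kw_quad]
  have h1 : 0 < y ⬝ᵥ y := by
    refine lt_of_le_of_ne (Finset.sum_nonneg fun i _ => mul_self_nonneg _) fun h0 => hy ?_
    exact dotProduct_self_eq_zero.1 h0.symm
  exact add_pos_of_pos_of_nonneg (mul_pos hη h1)
    (Finset.sum_nonneg fun j _ => mul_nonneg (hc j) (sq_nonneg _))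

theorem mat_kw_trace (v : ι → n → ℝ) {η : ℝ} (hη : 0 < η) {c : ι → ℝ} (hc : ∀ i, 0 ≤ c i) :
    ∑ i, c i * lev (η • (1 : Matrix n n ℝ) + gram c v) (v i) ≤ Fintype.card n := by
  have hM := mat_kw_pd v hη hc
  generalize hMe : η • (1 : Matrix n n ℝ) + gram c v = M at hM
  have h1 : ∑ i, c i * lev M (v i) = (M⁻¹ * gram c v).trace := by
    rw [gram, Finset.mul_sum, Matrix.trace_sum]
    refine Finset.sum_congr rfl fun i _ => ?_
    rw [Matrix.mul_smul, Matrix.trace_smul, mul_vecMulVec, trace_vecMulVec, smul_eq_mul, lev,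
      dotProduct_comm]
  have h2 : gram c v = M - η • 1 := by
    rw [← hMe]
    abel
  have h3 : 0 ≤ (M⁻¹).trace := hM.posDef.inv.posSemidef.trace_nonneg
  rw [h1, h2, Matrix.mul_sub, Matrix.nonsing_inv_mul _ hM.det_pos.ne'.isUnit, Matrix.trace_sub,
    Matrix.trace_one, Matrix.mul_smul, Matrix.mul_one, Matrix.trace_smul, smul_eq_mul]
  have := mul_nonneg hη.le h3
  linarith

omit [Fintype ι] in
theorem mat_cast_update (c : ι → ℕ) (i : ι) (m : ℕ) :
    (fun j => ((update c i m j : ℕ) : ℝ)) = update (fun j => (c j : ℝ)) i (m : ℝ) := by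
  funext j
  by_cases hj : j = i
  · subst hj
    simp
  · simp [update_of_ne hj]

theorem mat_sum_update (c : ι → ℕ) (i : ι) (m : ℕ) :
    ∑ j, update c i m j + c i = ∑ j, c j + m := by
  rw [Finset.sum_update_of_mem (mem_univ i), ← Finset.add_sum_erase _ c (mem_univ i),
    Finset.sdiff_singleton_eq_erase]
  ring

theorem kw (v : ι → n → ℝ) {η : ℝ} (hη : 0 < η) : ∃ c : ι → ℝ, (∀ i, 0 ≤ c i) ∧
    ∑ i, c i ≤ 2 * Fintype.card n ∧
    ∀ i y, (v i ⬝ᵥ y) ^ 2 ≤ η * (y ⬝ᵥ y) + ∑ j, c j * (v j ⬝ᵥ y) ^ 2 := by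
  let A : (ι → ℕ) → Matrix n n ℝ := fun c => η • (1 : Matrix n n ℝ) + gram (fun j => (c j : ℝ)) v
  have hA : ∀ c, PD (A c) := fun c => mat_kw_pd v hη fun i => Nat.cast_nonneg _
  have hup : ∀ c i m, (A (update c i m)).det =
      (A c).det * (1 + ((m : ℝ) - c i) * lev (A c) (v i)) := by
    intro c i m
    rw [← (hA c).det_update]
    simp only [A]
    rw [mat_cast_update, gram_update, add_assoc]
  obtain ⟨c, hc, hmax⟩ := Finset.exists_max_image
    (Fintype.piFinset fun _ : ι => range (2 * Fintype.card n + 2))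
    (fun c => (A c).det / 2 ^ (∑ j, c j)) ⟨0, by simp⟩
  have hc' : ∀ i, c i < 2 * Fintype.card n + 2 := fun i =>
    Finset.mem_range.1 (Fintype.mem_piFinset.1 hc i)
  have hmem : ∀ i m, m < 2 * Fintype.card n + 2 →
      update c i m ∈ Fintype.piFinset fun _ : ι => range (2 * Fintype.card n + 2) := by
    intro i m hm
    refine Fintype.mem_piFinset.2 fun j => Finset.mem_range.2 ?_
    by_cases hj : j = i
    · subst hj
      simpa using hm
    · rw [update_of_ne hj]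
      exact hc' j
  have hd := (hA c).det_pos
  have h1 : ∀ i, (c i : ℝ) * (1 / 2) ≤ c i * lev (A c) (v i) := by
    intro i
    rcases Nat.eq_zero_or_pos (c i) with h0 | h0
    · simp [h0]
    · refine mul_le_mul_of_nonneg_left ?_ (Nat.cast_nonneg _)
      obtain ⟨m, hm⟩ : ∃ m, c i = m + 1 := ⟨c i - 1, by omega⟩
      have h2 := hmax _ (hmem i m (by have := hc' i; omega))
      have h3 := mat_sum_update c i m
      have h4 : ∑ j, c j = ∑ j, update c i m j + 1 := by omega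
      rw [hup, h4, pow_succ, div_le_div_iff₀ (by positivity) (by positivity), hm] at h2
      push_cast at h2
      have h5 : (0 : ℝ) < (A c).det * 2 ^ ∑ j, update c i m j := by positivity
      by_contra hcon
      have h6 := not_le.1 hcon
      nlinarith
  have h2 : ∑ i, (c i : ℝ) ≤ 2 * Fintype.card n := by
    have h3 := (Finset.sum_le_sum fun i (_ : i ∈ univ) => h1 i).trans
      (mat_kw_trace v hη (c := fun j => (c j : ℝ)) fun i => Nat.cast_nonneg _)
    rw [← Finset.sum_mul] at h3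
    linarith
  refine ⟨fun j => (c j : ℝ), fun i => Nat.cast_nonneg _, h2, fun i y => ?_⟩
  have h3 : c i ≤ 2 * Fintype.card n := by
    have h4 : (c i : ℝ) ≤ ∑ i, (c i : ℝ) :=
      Finset.single_le_sum (f := fun j => (c j : ℝ)) (fun j _ => Nat.cast_nonneg _) (mem_univ i)
    exact_mod_cast h4.trans h2
  have h4 : lev (A c) (v i) ≤ 1 := by
    have h5 := hmax _ (hmem i (c i + 1) (by omega))
    have h6 := mat_sum_update c i (c i + 1)
    have h7 : ∑ j, update c i (c i + 1) j = ∑ j, c j + 1 := by omega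
    rw [hup, h7, pow_succ, div_le_div_iff₀ (by positivity) (by positivity)] at h5
    push_cast at h5
    have h8 : (0 : ℝ) < (A c).det * 2 ^ ∑ j, c j := by positivity
    by_contra hcon
    have h9 := not_le.1 hcon
    nlinarith
  rw [← mat_kw_quad]
  refine ((hA c).sq_le_lev (v i) y).trans ?_
  exact mul_le_of_le_one_left ((hA c).nonneg y) h4

theorem mat_w_quad {O : Type} [Fintype O] (o : O → n → ℝ) (u : ι → n → ℝ) (w : ι → ℝ)
    (y : n → ℝ) : y ⬝ᵥ (gram (fun _ => 1) o + gram w u) *ᵥ y =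
      ∑ i, (o i ⬝ᵥ y) ^ 2 + ∑ f, w f * (u f ⬝ᵥ y) ^ 2 := by
  classical
  rw [Matrix.add_mulVec, dotProduct_add, gram_quad, gram_quad]
  simp only [one_mul]

theorem mat_w_pd {O : Type} [Fintype O] {o : O → n → ℝ} {u : ι → n → ℝ} {B : Finset ι}
    (h : ∀ y, (∀ i, o i ⬝ᵥ y = 0) → (∀ e ∈ B, u e ⬝ᵥ y = 0) → y = 0) {w : ι → ℝ}
    (h0 : ∀ e, 0 ≤ w e) (h1 : ∀ e ∈ B, 0 < w e) : PD (gram (fun _ => 1) o + gram w u) := by
  classical
  refine ⟨(gram_symm _ o).add (gram_symm w u), fun y hy => ?_⟩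
  rw [mat_w_quad]
  have a1 : ∀ i ∈ (univ : Finset O), 0 ≤ (o i ⬝ᵥ y) ^ 2 := fun i _ => sq_nonneg _
  have a2 : ∀ f ∈ (univ : Finset ι), 0 ≤ w f * (u f ⬝ᵥ y) ^ 2 := fun f _ =>
    mul_nonneg (h0 f) (sq_nonneg _)
  have b1 := Finset.sum_nonneg a1
  have b2 := Finset.sum_nonneg a2
  by_contra hc
  have c1 : ∑ i, (o i ⬝ᵥ y) ^ 2 = 0 := by linarith
  have c2 : ∑ f, w f * (u f ⬝ᵥ y) ^ 2 = 0 := by linarith
  rw [Finset.sum_eq_zero_iff_of_nonneg a1] at c1
  rw [Finset.sum_eq_zero_iff_of_nonneg a2] at c2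
  refine hy (h y (fun i => pow_eq_zero_iff two_ne_zero |>.1 (c1 i (mem_univ i))) fun e he => ?_)
  exact pow_eq_zero_iff two_ne_zero |>.1
    ((mul_eq_zero.1 (c2 e (mem_univ e))).resolve_left (h1 e he).ne')

theorem mat_w_low {O : Type} [Fintype O] {o : O → n → ℝ} {u : ι → n → ℝ} {B : Finset ι}
    (h : ∀ y, (∀ i, o i ⬝ᵥ y = 0) → (∀ e ∈ B, u e ⬝ᵥ y = 0) → y = 0) :
    ∃ c : ℝ, 0 < c ∧ ∀ w : ι → ℝ, (∀ e, 0 < w e) → (∀ e, w e ≤ 1) →
      c * ∏ e ∈ B, w e ≤ (gram (fun _ => 1) o + gram w u).det := by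
  have i0 : ∀ e, 0 ≤ ind B e := fun e => by
    unfold ind
    split_ifs <;> norm_num
  have i1 : ∀ e ∈ B, ind B e = 1 := fun e he => if_pos he
  refine ⟨_, (mat_w_pd h i0 fun e he => by rw [i1 e he]; exact one_pos).det_pos,
    fun w hw hw1 => ?_⟩
  have key : ∀ S : Finset ι, (gram (fun _ => 1) o + gram (ind B) u).det * ∏ e ∈ S ∩ B, w e ≤
      (gram (fun _ => 1) o + gram (S.piecewise w (ind B)) u).det := by
    intro S
    induction S using Finset.induction_on with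
    | empty => simp
    | insert e S he ih =>
      have x0 : ∀ f, 0 ≤ S.piecewise w (ind B) f := fun f => by
        by_cases hf : f ∈ S
        · rw [Finset.piecewise_eq_of_mem _ _ _ hf]
          exact (hw f).le
        · rw [Finset.piecewise_eq_of_notMem _ _ _ hf]
          exact i0 f
      have x1 : ∀ f ∈ B, 0 < S.piecewise w (ind B) f := fun f hB => by
        by_cases hf : f ∈ S
        · rw [Finset.piecewise_eq_of_mem _ _ _ hf]
          exact hw f
        · rw [Finset.piecewise_eq_of_notMem _ _ _ hf, i1 f hB]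
          exact one_pos
      have hM := mat_w_pd h x0 x1
      have hl := hM.lev_nonneg (u e)
      have hdet := hM.det_pos
      rw [Finset.piecewise_insert, gram_update, ← add_assoc, hM.det_update,
        Finset.piecewise_eq_of_notMem _ _ _ he]
      by_cases heB : e ∈ B
      · have hl1 : lev (gram (fun _ => 1) o + gram (S.piecewise w (ind B)) u) (u e) ≤ 1 := by
          refine hM.lev_le zero_le_one fun y => ?_
          rw [one_mul, mat_w_quad]
          have a1 : 0 ≤ ∑ i, (o i ⬝ᵥ y) ^ 2 := Finset.sum_nonneg fun i _ => sq_nonneg _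
          have a2 := Finset.single_le_sum
            (f := fun f => S.piecewise w (ind B) f * (u f ⬝ᵥ y) ^ 2)
            (fun f _ => mul_nonneg (x0 f) (sq_nonneg _)) (mem_univ e)
          rw [Finset.piecewise_eq_of_notMem _ _ _ he, i1 e heB, one_mul] at a2
          linarith
        rw [Finset.insert_inter_of_mem heB,
          Finset.prod_insert fun hc => he (Finset.mem_inter.1 hc).1, i1 e heB, mul_comm (w e),
          ← mul_assoc]
        refine mul_le_mul ih ?_ (hw e).le hdet.le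
        nlinarith [mul_nonneg (sub_nonneg.2 (hw1 e)) (sub_nonneg.2 hl1)]
      · rw [Finset.insert_inter_of_notMem heB]
        have i2 : ind B e = 0 := if_neg heB
        rw [i2, sub_zero]
        refine ih.trans (le_mul_of_one_le_right hdet.le ?_)
        have := mul_nonneg (hw e).le hl
        linarith
  have h2 := key univ
  rwa [Finset.univ_inter, Finset.piecewise_univ] at h2

theorem weights {O : Type} [Fintype O] (o : O → n → ℝ) (u : ι → n → ℝ) {B₁ B₂ : Finset ι}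
    (hB : Disjoint B₁ B₂)
    (h₁ : ∀ y, (∀ i, o i ⬝ᵥ y = 0) → (∀ e ∈ B₁, u e ⬝ᵥ y = 0) → y = 0)
    (h₂ : ∀ y, (∀ i, o i ⬝ᵥ y = 0) → (∀ e ∈ B₂, u e ⬝ᵥ y = 0) → y = 0) {p : ℝ} (hp : 1 / 2 < p) :
    ∃ w : ι → ℝ, (∀ e, 0 < w e) ∧ ∀ e y, w e * (u e ⬝ᵥ y) ^ 2 ≤
      p * (∑ i, (o i ⬝ᵥ y) ^ 2 + ∑ f, w f * (u f ⬝ᵥ y) ^ 2) := by
  obtain ⟨c₁, hc₁, k₁⟩ := mat_w_low h₁
  obtain ⟨c₂, hc₂, k₂⟩ := mat_w_low h₂
  have hp0 : 0 < p := by linarith
  obtain ⟨θ, t0, t1, t2, t3⟩ : ∃ θ : ℝ, 0 < θ ∧ θ < 1 ∧ p * θ < 1 ∧ p ^ 2 * θ < 2 * p - 1 := by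
    refine ⟨(2 * p - 1) / (2 * p ^ 2), div_pos (by linarith) (by positivity), ?_, ?_, ?_⟩
    · rw [div_lt_one (by positivity)]
      nlinarith [sq_nonneg (p - 1)]
    · rw [← mul_div_assoc, div_lt_one (by positivity)]
      nlinarith
    · rw [← mul_div_assoc, div_lt_iff₀ (by positivity)]
      nlinarith [mul_pos (pow_pos hp0 2) (show 0 < 2 * p - 1 by linarith)]
  have r0 : 0 < 1 - θ := by linarith
  have s0 : 0 < 1 - p * θ := by linarith
  have rs : (1 - p * θ) ^ 2 < 1 - θ := by nlinarith [mul_lt_mul_of_pos_right t3 t0]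
  let W : (ι → ℕ) → ι → ℝ := fun m e => (1 - θ) ^ m e
  have W0 : ∀ m e, 0 < W m e := fun m e => pow_pos r0 _
  have W1 : ∀ m e, W m e ≤ 1 := fun m e => pow_le_one₀ r0.le (by linarith)
  let A : (ι → ℕ) → Matrix n n ℝ := fun m => gram (fun _ => 1) o + gram (W m) u
  have hA : ∀ m, PD (A m) := fun m => mat_w_pd h₁ (fun e => (W0 m e).le) fun e _ => W0 m e
  let ψ : (ι → ℕ) → ℝ := fun m => (A m).det / (1 - p * θ) ^ (∑ e, m e)
  have ψ0 : ∀ m, 0 < ψ m := fun m => div_pos (hA m).det_pos (pow_pos s0 _)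
  have low : ∀ m, c₁ * c₂ * ((1 - θ) / (1 - p * θ) ^ 2) ^ (∑ e, m e) ≤ ψ m ^ 2 := by
    intro m
    have a1 := k₁ (W m) (W0 m) (W1 m)
    have a2 := k₂ (W m) (W0 m) (W1 m)
    have a3 : (1 - θ) ^ (∑ e, m e) ≤ (∏ e ∈ B₁, W m e) * ∏ e ∈ B₂, W m e := by
      rw [← Finset.prod_union hB, Finset.prod_pow_eq_pow_sum]
      exact pow_le_pow_of_le_one r0.le (by linarith)
        (Finset.sum_le_sum_of_subset (Finset.subset_univ _))
    have a4 := mul_le_mul a1 a2
      (mul_nonneg hc₂.le (Finset.prod_nonneg fun e _ => (W0 m e).le)) (hA m).det_pos.le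
    simp only [ψ]
    rw [div_pow, div_pow, ← pow_mul, ← pow_mul, mul_comm 2, ← mul_div_assoc]
    refine div_le_div_of_nonneg_right ?_ (pow_pos s0 _).le
    calc c₁ * c₂ * (1 - θ) ^ (∑ e, m e)
        ≤ c₁ * c₂ * ((∏ e ∈ B₁, W m e) * ∏ e ∈ B₂, W m e) :=
          mul_le_mul_of_nonneg_left a3 (mul_pos hc₁ hc₂).le
      _ = (c₁ * ∏ e ∈ B₁, W m e) * (c₂ * ∏ e ∈ B₂, W m e) := by ring
      _ ≤ _ := by rw [sq]; exact a4
  have hsum : ∀ (m : ι → ℕ) e, ∑ j, update m e (m e + 1) j = ∑ j, m j + 1 := by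
    intro m e
    have := mat_sum_update m e (m e + 1)
    omega
  obtain ⟨m, hm⟩ : ∃ m : ι → ℕ, ∀ e, ψ m ≤ ψ (update m e (m e + 1)) := by
    by_contra hcon
    push Not at hcon
    have b1 : ∀ N : ℕ, ∃ m : ι → ℕ, ∑ e, m e = N ∧ ψ m ≤ ψ 0 := by
      intro N
      induction N with
      | zero => exact ⟨0, by simp, le_rfl⟩
      | succ N ih =>
        obtain ⟨m, b2, b3⟩ := ih
        obtain ⟨e, he⟩ := hcon m
        exact ⟨_, by rw [hsum, b2], he.le.trans b3⟩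
    obtain ⟨N, hN⟩ := pow_unbounded_of_one_lt (ψ 0 ^ 2 / (c₁ * c₂))
      ((one_lt_div (pow_pos s0 2)).2 rs)
    obtain ⟨m, b2, b3⟩ := b1 N
    have b4 := low m
    rw [b2] at b4
    rw [div_lt_iff₀ (mul_pos hc₁ hc₂)] at hN
    have b5 : ψ m ^ 2 ≤ ψ 0 ^ 2 := pow_le_pow_left₀ (ψ0 m).le b3 2
    linarith
  refine ⟨W m, W0 m, fun e y => ?_⟩
  have hW : W (update m e (m e + 1)) = update (W m) e (W m e * (1 - θ)) := by
    funext j
    by_cases hj : j = e
    · subst hj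
      simp [W, pow_succ]
    · simp [W, update_of_ne hj]
  have hdet : (A (update m e (m e + 1))).det =
      (A m).det * (1 + (W m e * (1 - θ) - W m e) * lev (A m) (u e)) := by
    rw [← (hA m).det_update]
    simp only [A]
    rw [hW, gram_update, add_assoc]
  have h3 := hm e
  simp only [ψ] at h3
  rw [hdet, hsum, pow_succ, div_le_div_iff₀ (pow_pos s0 _) (mul_pos (pow_pos s0 _) s0)] at h3
  have h4 : 0 < (A m).det * (1 - p * θ) ^ (∑ e, m e) := mul_pos (hA m).det_pos (pow_pos s0 _)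
  have h5 : W m e * lev (A m) (u e) ≤ p := by
    by_contra hcon
    have h6 := mul_pos h4 (mul_pos t0 (sub_pos.2 (not_le.1 hcon)))
    nlinarith
  rw [← mat_w_quad]
  calc W m e * (u e ⬝ᵥ y) ^ 2 ≤ W m e * (lev (A m) (u e) * (y ⬝ᵥ A m *ᵥ y)) :=
        mul_le_mul_of_nonneg_left ((hA m).sq_le_lev (u e) y) (W0 m e).le
    _ = W m e * lev (A m) (u e) * (y ⬝ᵥ A m *ᵥ y) := by ring
    _ ≤ _ := mul_le_mul_of_nonneg_right h5 ((hA m).nonneg y)

end Vale.Agent.P061
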