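import Vale.Agent.P061.Stab
import Vale.Agent.P061.Mat

/-!
The barrier argument (Marcus-Spielman-Srivastava, Anari-Oveis Gharan) for multiaffine functions.

Plan. Variables: `inl e` is `w e`, `inr (inl e)` is `z e`, `inr (inr j)` is `x j`.
`psi_empty`: `Psi ∅ = gen g w * det (gram x b + gram z a)`, stable by `SR.mul`, `SR.comp`, `SR.det`
(write both grams as one gram over `E ⊕ J`). `psi_insert`: split the sum over `B` by `e ∈ B`.
`psi_sr`: induction on `U` with `contr`, `spec`. `barrier`: invariant `Inv U`: at all points `y` with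
`w e ≥ 1 - s`, `z e ≥ -r` for `e ∉ U` and `x j ≥ x₀`: `0 < Psi U y`, and for `e ∉ U` the slopes in `w e`,
`z e` are at most `φ Psi`, `ε / (x₀ - r) Psi`. Start: `gram x b + gram z a ⪰ (x₀ - r) gram 1 b`,
`PD.det_update`, `PD.lev_le`. Step for `e`: at the base point `w e = 1 - s`, `z e = -r` write
`Psi U = A + B α + C β + D α β` in the increments; `B, C, D ≥ 0` since `Psi U > 0` on the region,
`A D ≤ B C` (`rayleigh`), the new value is `q = A + B s + C r + D (s r - 1) > 0`. For another
variable `y` with slope coefficients `A₁, B₁, C₁, D₁` use `rayleigh` for the pairs `(w e, y)`, `(z e, y)`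
at the points with increments `(t s, t r)`, `t` real, and `barrier_alg`.
-/

namespace Vale.Agent.P061

open Finset Function Matrix Sum

variable {E J m : Type} [Fintype E] [DecidableEq E] [Fintype J] [DecidableEq J] [Fintype m]
  [DecidableEq m]

/-- The partially contracted mixed characteristic polynomial. -/
noncomputable def Psi (b : J → m → ℝ) (a : E → m → ℝ) (U : Finset E) (g : Finset E → ℝ)
    (y : E ⊕ E ⊕ J → ℝ) : ℝ :=
  ∑ B, g B * (∏ e ∈ B \ U, y (inl e)) * (gram (fun j => y (inr (inr j))) b +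
    gram (fun e => if e ∈ U then (if e ∈ B then -1 else 0) else y (inr (inl e))) a).det

theorem barrier_alg {A B C D A₁ B₁ C₁ D₁ s r : ℝ} (hA : 0 < A) (hD : 0 ≤ D) (hs : 0 < s)
    (hr : 0 < r) (hsr : s * r ≤ 1) (hτ0 : 0 ≤ B * s + C * r) (hτ : B * s + C * r ≤ A * (s * r))
    (h₁ : ∀ t, (A + B * (t * s) + C * (t * r) + D * (t * s) * (t * r)) * (B₁ + D₁ * (t * r)) ≤
      (B + D * (t * r)) * (A₁ + B₁ * (t * s) + C₁ * (t * r) + D₁ * (t * s) * (t * r)))
    (h₂ : ∀ t, (A + B * (t * s) + C * (t * r) + D * (t * s) * (t * r)) * (C₁ + D₁ * (t * s)) ≤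
      (C + D * (t * s)) * (A₁ + B₁ * (t * s) + C₁ * (t * r) + D₁ * (t * s) * (t * r))) :
    A * (A₁ + B₁ * s + C₁ * r + D₁ * (s * r - 1)) ≤ A₁ * (A + B * s + C * r + D * (s * r - 1)) := by
  have hσ : 0 < s * r := mul_pos hs hr
  have hW : ∀ t, 0 ≤ ((B * s + C * r) * A₁ - A * (B₁ * s + C₁ * r)) +
      2 * (s * r) * t * (D * A₁ - A * D₁) +
      (s * r) * t ^ 2 * (D * (B₁ * s + C₁ * r) - (B * s + C * r) * D₁) := by
    intro t
    have e1 := mul_le_mul_of_nonneg_left (h₁ t) hs.le
    have e2 := mul_le_mul_of_nonneg_left (h₂ t) hr.le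
    linarith
  have hrel : A * (D * (B₁ * s + C₁ * r) - (B * s + C * r) * D₁) =
      (B * s + C * r) * (D * A₁ - A * D₁) -
        D * ((B * s + C * r) * A₁ - A * (B₁ * s + C₁ * r)) := by ring
  have hgoal : A₁ * (A + B * s + C * r + D * (s * r - 1)) -
      A * (A₁ + B₁ * s + C₁ * r + D₁ * (s * r - 1)) =
      ((B * s + C * r) * A₁ - A * (B₁ * s + C₁ * r)) - (1 - s * r) * (D * A₁ - A * D₁) := by ring
  generalize (B * s + C * r) * A₁ - A * (B₁ * s + C₁ * r) = u at hW hrel hgoal
  generalize D * (B₁ * s + C₁ * r) - (B * s + C * r) * D₁ = w at hW hrel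
  generalize D * A₁ - A * D₁ = v at hW hrel hgoal
  generalize B * s + C * r = τ at hτ0 hτ hrel
  generalize s * r = σ at hσ hsr hτ hW hgoal
  have hu : 0 ≤ u := by simpa using hW 0
  suffices H : (1 - σ) * v ≤ u by linarith
  rcases le_or_gt v 0 with hv | hv
  · have := mul_nonpos_of_nonneg_of_nonpos (sub_nonneg.2 hsr) hv
    linarith
  · have h1 : A * w ≤ A * (σ * v) := by
      have a1 := mul_nonneg hD hu
      have a2 := mul_le_mul_of_nonneg_right hτ hv.le
      linarith
    have h2 : w ≤ σ * v := le_of_mul_le_mul_left h1 hA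
    have h3 := hW (-σ⁻¹)
    have h4 : 2 * σ * -σ⁻¹ * v = -2 * v := by field_simp
    have h5 : σ * (-σ⁻¹) ^ 2 * w = w / σ := by field_simp
    have h6 : w / σ ≤ v := by rw [div_le_iff₀ hσ]; linarith
    have h7 := mul_pos hσ hv
    rw [h4, h5] at h3
    linarith

theorem psi_insert (b : J → m → ℝ) (a : E → m → ℝ) {U : Finset E} {e : E} (he : e ∉ U)
    (g : Finset E → ℝ) (y : E ⊕ E ⊕ J → ℝ) : Psi b a (insert e U) g y =
    Psi b a U g (update (update y (inl e) 0) (inr (inl e)) 0) +
      slr (inl e) (Psi b a U g) (update y (inr (inl e)) (-1)) := by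
  unfold slr Psi
  rw [← Finset.sum_sub_distrib, ← Finset.sum_add_distrib]
  refine Finset.sum_congr rfl fun B _ => ?_
  have hx : ∀ (t u : ℝ), (fun j => update (update y (inr (inl e)) u) (inl e) t (inr (inr j))) =
      fun j => y (inr (inr j)) := by
    intro t u
    funext j
    simp
  have hx' : (fun j => update (update y (inl e) 0) (inr (inl e)) 0 (inr (inr j))) =
      fun j => y (inr (inr j)) := by
    funext j
    simp
  rw [hx, hx, hx']
  by_cases hB : e ∈ B
  · have hz : ∀ t : ℝ, (fun f => if f ∈ U then (if f ∈ B then (-1 : ℝ) else 0) else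
        update (update y (inr (inl e)) (-1)) (inl e) t (inr (inl f))) =
        fun f => if f ∈ insert e U then (if f ∈ B then (-1 : ℝ) else 0) else y (inr (inl f)) := by
      intro t
      funext f
      by_cases hf : f = e
      · subst hf
        simp [he, hB]
      · simp [hf]
    have hmem : e ∈ B \ U := Finset.mem_sdiff.2 ⟨hB, he⟩
    have hset : B \ insert e U = (B \ U).erase e := by
      ext f
      simp only [Finset.mem_sdiff, Finset.mem_insert, Finset.mem_erase]
      tauto
    have p0 : ∏ f ∈ B \ U, update (update y (inl e) 0) (inr (inl e)) 0 (inl f) = 0 :=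
      Finset.prod_eq_zero hmem (by simp)
    have p1 : ∏ f ∈ B \ U, update (update y (inr (inl e)) (-1)) (inl e) 0 (inl f) = 0 :=
      Finset.prod_eq_zero hmem (by simp)
    have p2 : ∏ f ∈ B \ U, update (update y (inr (inl e)) (-1)) (inl e) 1 (inl f) =
        ∏ f ∈ B \ insert e U, y (inl f) := by
      rw [hset, ← Finset.mul_prod_erase _ _ hmem, update_self, one_mul]
      refine Finset.prod_congr rfl fun f hf => ?_
      have := (Finset.mem_erase.1 hf).1
      simp [this]
    rw [hz, hz, p0, p1, p2]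
    ring
  · have hz : (fun f => if f ∈ U then (if f ∈ B then (-1 : ℝ) else 0) else
        update (update y (inl e) 0) (inr (inl e)) 0 (inr (inl f))) =
        fun f => if f ∈ insert e U then (if f ∈ B then (-1 : ℝ) else 0) else y (inr (inl f)) := by
      funext f
      by_cases hf : f = e
      · subst hf
        simp [he, hB]
      · simp [hf]
    have hz' : ∀ t : ℝ, (fun f => if f ∈ U then (if f ∈ B then (-1 : ℝ) else 0) else
        update (update y (inr (inl e)) (-1)) (inl e) t (inr (inl f))) =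
        fun f => if f ∈ U then (if f ∈ B then (-1 : ℝ) else 0) else
          update y (inr (inl e)) (-1) (inr (inl f)) := by
      intro t
      funext f
      simp
    have hset : B \ insert e U = B \ U := by
      ext f
      simp only [Finset.mem_sdiff, Finset.mem_insert]
      constructor
      · tauto
      · rintro ⟨h1, h2⟩
        exact ⟨h1, fun h => h.elim (fun h => hB (h ▸ h1)) h2⟩
    have hne : ∀ f ∈ B \ U, f ≠ e := fun f hf h => hB (h ▸ (Finset.mem_sdiff.1 hf).1)
    have p0 : ∏ f ∈ B \ U, update (update y (inl e) 0) (inr (inl e)) 0 (inl f) =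
        ∏ f ∈ B \ U, y (inl f) :=
      Finset.prod_congr rfl fun f hf => by simp [hne f hf]
    have p1 : ∀ t : ℝ, ∏ f ∈ B \ U, update (update y (inr (inl e)) (-1)) (inl e) t (inl f) =
        ∏ f ∈ B \ U, y (inl f) := fun t =>
      Finset.prod_congr rfl fun f hf => by simp [hne f hf]
    rw [hz, hz', hz', hset, p0, p1, p1]
    ring

omit [DecidableEq J] in
theorem psi_empty (b : J → m → ℝ) (a : E → m → ℝ) (g : Finset E → ℝ) (y : E ⊕ E ⊕ J → ℝ) :
    Psi b a ∅ g y = gen g (fun e => y (inl e)) *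
      (gram (fun j => y (inr (inr j))) b + gram (fun e => y (inr (inl e))) a).det := by
  simp [Psi, gen, Finset.sum_mul]

section Abstract

variable {ι : Type} [DecidableEq ι] {F : (ι → ℝ) → ℝ} {i j : ι}

/-- A point with two prescribed coordinates. -/
def barPt (i j : ι) (y : ι → ℝ) (α β : ℝ) : ι → ℝ := update (update y i α) j β

/-- The contraction of a pair of variables. -/
def barT (i j : ι) (F : (ι → ℝ) → ℝ) (y : ι → ℝ) : ℝ :=
  F (barPt i j y 0 0) + (F (barPt i j y 1 (-1)) - F (barPt i j y 0 (-1)))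

theorem barPt_i (hij : i ≠ j) (y : ι → ℝ) (α β t : ℝ) :
    update (barPt i j y α β) i t = barPt i j y t β := by
  unfold barPt
  rw [update_comm hij.symm, update_idem]

theorem barPt_j (y : ι → ℝ) (α β t : ℝ) : update (barPt i j y α β) j t = barPt i j y α t := by
  unfold barPt
  rw [update_idem]

theorem barPt_k {k : ι} (hi : k ≠ i) (hj : k ≠ j) (y : ι → ℝ) (α β t : ℝ) :
    barPt i j (update y k t) α β = update (barPt i j y α β) k t := by
  unfold barPt
  rw [update_comm hi, update_comm hj]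

theorem bar_slr_T {k : ι} (hi : k ≠ i) (hj : k ≠ j) (F : (ι → ℝ) → ℝ) (y : ι → ℝ) :
    slr k (barT i j F) y = barT i j (slr k F) y := by
  simp only [slr, barT, barPt_k hi hj]
  ring

theorem bar_slopes (hij : i ≠ j) {y : ι → ℝ} {w z A B C D : ℝ}
    (h : ∀ α β, F (barPt i j y (w + α) (z + β)) = A + B * α + C * β + D * α * β) (α β : ℝ) :
    slr i F (barPt i j y (w + α) (z + β)) = B + D * β ∧
      slr j F (barPt i j y (w + α) (z + β)) = C + D * α ∧
      slr i (slr j F) (barPt i j y (w + α) (z + β)) = D := by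
  have h' : ∀ u v, F (barPt i j y u v) =
      A + B * (u - w) + C * (v - z) + D * (u - w) * (v - z) := by
    intro u v
    rw [← h, add_sub_cancel, add_sub_cancel]
  simp only [slr, barPt_i hij, barPt_j, h']
  refine ⟨by ring, by ring, by ring⟩

theorem bar_T {y : ι → ℝ} {w z A B C D : ℝ}
    (h : ∀ α β, F (barPt i j y (w + α) (z + β)) = A + B * α + C * β + D * α * β) :
    barT i j F y = A + B * (1 - w) + C * (-z) + D * ((1 - w) * (-z) - 1) := by
  have h' : ∀ u v, F (barPt i j y u v) =
      A + B * (u - w) + C * (v - z) + D * (u - w) * (v - z) := by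
    intro u v
    rw [← h, add_sub_cancel, add_sub_cancel]
  simp only [barT, h']
  ring

theorem bar_nonneg_slope {A B : ℝ} (h : ∀ t, 0 ≤ t → 0 < A + B * t) : 0 ≤ B := by
  by_contra hB
  have hB' : B < 0 := not_le.1 hB
  have hA : 0 < A := by simpa using h 0 le_rfl
  have h1 := h (A / -B) (div_nonneg hA.le (by linarith))
  have h2 : B * (A / -B) = -A := by
    have := hB'.ne
    field_simp
  linarith

variable [Fintype ι]

theorem bar_expand (hF : SR F) (hij : i ≠ j) (y : ι → ℝ) (w z : ℝ) :
    ∃ A B C D : ℝ, ∀ α β, F (barPt i j y (w + α) (z + β)) = A + B * α + C * β + D * α * β := by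
  have hi : ∀ u v, F (barPt i j y u v) =
      F (barPt i j y 0 v) + u * (F (barPt i j y 1 v) - F (barPt i j y 0 v)) := by
    intro u v
    have := hF.aff (barPt i j y 0 v) i u
    simpa only [slr, barPt_i hij] using this
  have hj : ∀ u v, F (barPt i j y u v) =
      F (barPt i j y u 0) + v * (F (barPt i j y u 1) - F (barPt i j y u 0)) := by
    intro u v
    have := hF.aff (barPt i j y u 0) j v
    simpa only [slr, barPt_j] using this
  obtain ⟨p, hp⟩ : ∃ p, p = F (barPt i j y 0 0) := ⟨_, rfl⟩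
  obtain ⟨q, hq⟩ : ∃ q, q = F (barPt i j y 1 0) := ⟨_, rfl⟩
  obtain ⟨p', hp'⟩ : ∃ p', p' = F (barPt i j y 0 1) := ⟨_, rfl⟩
  obtain ⟨q', hq'⟩ : ∃ q', q' = F (barPt i j y 1 1) := ⟨_, rfl⟩
  refine ⟨p + w * (q - p) + z * (p' - p) + w * z * (q' - q - p' + p),
    q - p + z * (q' - q - p' + p), p' - p + w * (q' - q - p' + p), q' - q - p' + p,
    fun α β => ?_⟩
  rw [hi, hj 0 (z + β), hj 1 (z + β), ← hp, ← hq, ← hp', ← hq']
  ring

theorem bar_step (hF : SR F) (hij : i ≠ j) (y : ι → ℝ) {s r φ ψ : ℝ} (hs : 0 < s) (hr : 0 < r)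
    (hsr : s * r ≤ 1) (h : s * φ + r * ψ ≤ s * r)
    (hpos : ∀ α β, 0 ≤ α → 0 ≤ β → 0 < F (barPt i j y (1 - s + α) (-r + β)))
    (hB : slr i F (barPt i j y (1 - s) (-r)) ≤ φ * F (barPt i j y (1 - s) (-r)))
    (hC : slr j F (barPt i j y (1 - s) (-r)) ≤ ψ * F (barPt i j y (1 - s) (-r))) :
    0 < barT i j F y ∧ ∀ k, k ≠ i → k ≠ j → ∀ κ,
      slr k F (barPt i j y (1 - s) (-r)) ≤ κ * F (barPt i j y (1 - s) (-r)) →
      slr k (barT i j F) y ≤ κ * barT i j F y := by
  obtain ⟨A, B, C, D, hx⟩ := bar_expand hF hij y (1 - s) (-r)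
  have hA0 : F (barPt i j y (1 - s) (-r)) = A := by simpa using hx 0 0
  have s0 := bar_slopes hij hx 0 0
  simp only [add_zero, mul_zero] at s0
  simp only [hx] at hpos
  have hA : 0 < A := by simpa using hpos 0 0 le_rfl le_rfl
  have hB0 : 0 ≤ B := bar_nonneg_slope (A := A) fun t ht => by simpa using hpos t 0 ht le_rfl
  have hC0 : 0 ≤ C := bar_nonneg_slope (A := A) fun t ht => by simpa using hpos 0 t le_rfl ht
  have hD0 : 0 ≤ D := by
    refine bar_nonneg_slope (A := B + 1) fun β hβ => ?_
    have : 0 ≤ B + D * β := bar_nonneg_slope (A := A + C * β) fun t ht => by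
      have := hpos t β ht hβ
      linarith
    linarith
  have hray := hF.rayleigh (barPt i j y (1 - s) (-r)) hij
  rw [s0.1, hA0] at hB
  rw [s0.2.1, hA0] at hC
  rw [s0.1, s0.2.1, s0.2.2, hA0] at hray
  have hσ : 0 < s * r := mul_pos hs hr
  have hτ0 : 0 ≤ B * s + C * r := by positivity
  have hτ : B * s + C * r ≤ A * (s * r) := by
    have a1 := mul_le_mul_of_nonneg_right hB hs.le
    have a2 := mul_le_mul_of_nonneg_right hC hr.le
    have a3 := mul_le_mul_of_nonneg_left h hA.le
    linarith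
  have hT : barT i j F y = A + B * s + C * r + D * (s * r - 1) := by
    rw [bar_T hx]
    ring
  have hq : 0 < A + B * s + C * r + D * (s * r - 1) := by
    have a1 : 4 * (B * s * (C * r)) ≤ (B * s + C * r) ^ 2 := by
      nlinarith [sq_nonneg (B * s - C * r)]
    have a2 : (B * s + C * r) ^ 2 ≤ (A * (s * r)) ^ 2 := pow_le_pow_left₀ hτ0 hτ 2
    have a3 : A * (s * r) * (4 * D) ≤ A * (s * r) * (A * (s * r)) := by
      have := mul_le_mul_of_nonneg_right hray hσ.le
      linarith
    have a4 : 4 * D ≤ A * (s * r) := le_of_mul_le_mul_left a3 (mul_pos hA hσ)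
    have a5 : A * (s * r) ≤ A := by
      have := mul_le_mul_of_nonneg_left hsr hA.le
      linarith
    have a6 := mul_nonneg hD0 hσ.le
    linarith
  refine ⟨hT ▸ hq, fun k hi hj κ hκ => ?_⟩
  obtain ⟨A₁, B₁, C₁, D₁, hx₁⟩ := bar_expand (hF.slope k) hij y (1 - s) (-r)
  have hA₁ : slr k F (barPt i j y (1 - s) (-r)) = A₁ := by simpa using hx₁ 0 0
  have hT₁ : barT i j (slr k F) y = A₁ + B₁ * s + C₁ * r + D₁ * (s * r - 1) := by
    rw [bar_T hx₁]
    ring
  have key := barrier_alg (A₁ := A₁) (B₁ := B₁) (C₁ := C₁) (D₁ := D₁) hA hD0 hs hr hsr hτ0 hτ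
    (fun t => by
      have := hF.rayleigh (barPt i j y (1 - s + t * s) (-r + t * r)) hi.symm
      rwa [(bar_slopes hij hx₁ _ _).1, (bar_slopes hij hx _ _).1, hx, hx₁] at this)
    (fun t => by
      have := hF.rayleigh (barPt i j y (1 - s + t * s) (-r + t * r)) hj.symm
      rwa [(bar_slopes hij hx₁ _ _).2.1, (bar_slopes hij hx _ _).2.1, hx, hx₁] at this)
  rw [hA₁, hA0] at hκ
  rw [bar_slr_T hi hj, hT₁, hT]
  refine le_of_mul_le_mul_left (key.trans ?_) hA
  have := mul_le_mul_of_nonneg_right hκ hq.le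
  linarith

end Abstract

theorem psi_insert_T (b : J → m → ℝ) (a : E → m → ℝ) {U : Finset E} {e : E} (he : e ∉ U)
    (g : Finset E → ℝ) (y : E ⊕ E ⊕ J → ℝ) :
    Psi b a (insert e U) g y = barT (inl e) (inr (inl e)) (Psi b a U g) y := by
  have hij : (inr (inl e) : E ⊕ E ⊕ J) ≠ inl e := inr_ne_inl
  rw [psi_insert b a he, slr, update_comm hij, update_comm hij]
  rfl

theorem psi_sr (b : J → m → ℝ) (a : E → m → ℝ) {g : Finset E → ℝ} (hg : SR (gen g))
    (U : Finset E) : SR (Psi b a U g) := by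
  induction U using Finset.induction_on with
  | empty =>
    have h1 := SR.comp (κ := E ⊕ E ⊕ J) hg (φ := inl) inl_injective
    have h2 := SR.comp (κ := E ⊕ E ⊕ J)
      (SR.det (A := (0 : Matrix m m ℝ)) Matrix.isSymm_zero (Sum.elim a b)) (φ := inr) inr_injective
    have h3 := SR.mul h1 h2 (by
      rintro (e | k)
      · exact Or.inr fun x => by simp [slr]
      · exact Or.inl fun x => by simp [slr])
    have h4 : Psi b a ∅ g = fun x => gen g (fun i => x (inl i)) *
        ((0 : Matrix m m ℝ) + gram (fun i => x (inr i)) (Sum.elim a b)).det := by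
      funext x
      rw [psi_empty, zero_add]
      congr 2
      simp only [gram, Fintype.sum_sum_type, Sum.elim_inl, Sum.elim_inr]
      exact add_comm _ _
    rw [h4]
    exact h3
  | insert e U he ih =>
    have hij : (inl e : E ⊕ E ⊕ J) ≠ inr (inl e) := inl_ne_inr
    have h1 := ((ih.contr hij).spec (inr (inl e)) 0).spec (inl e) 1
    have h2 : Psi b a (insert e U) g = fun x =>
        Psi b a U g (update (update x (inl e) 1) (inr (inl e)) 0) -
          slr (inl e) (slr (inr (inl e)) (Psi b a U g))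
            (update (update x (inl e) 1) (inr (inl e)) 0) := by
      funext x
      obtain ⟨A, B, C, D, h⟩ := bar_expand ih hij x 0 0
      have e1 := (bar_slopes hij h 1 0).2.2
      have e2 := h 1 0
      rw [psi_insert_T b a he, bar_T h]
      simp only [zero_add, barPt] at e1 e2
      rw [e1, e2]
      ring
    rw [h2]
    exact h1

theorem barrier (b : J → m → ℝ) (a : E → m → ℝ) {g : Finset E → ℝ} (hg : SR (gen g))
    {φ ε s r x₀ : ℝ}
    (hG : ∀ w, (∀ e, 1 - s ≤ w e) → 0 < gen g w ∧ ∀ e, slr e (gen g) w ≤ φ * gen g w)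
    (hb : ∀ y, (∀ j, b j ⬝ᵥ y = 0) → y = 0)
    (ha : ∀ y, ∑ e, (a e ⬝ᵥ y) ^ 2 ≤ ∑ j, (b j ⬝ᵥ y) ^ 2)
    (hε : ∀ e y, (a e ⬝ᵥ y) ^ 2 ≤ ε * ∑ j, (b j ⬝ᵥ y) ^ 2)
    (hs : 0 < s) (hs1 : s < 1) (hr : 0 < r) (hr1 : r ≤ 1) (hx : r < x₀) (hφ : 0 ≤ φ) (hε0 : 0 ≤ ε)
    (h : s * φ + r * (ε / (x₀ - r)) ≤ s * r) (y : E ⊕ E ⊕ J → ℝ)
    (hy : ∀ j, x₀ ≤ y (inr (inr j))) : 0 < Psi b a univ g y := by
  have hxr : 0 < x₀ - r := sub_pos.2 hx
  have inv : ∀ U : Finset E, ∀ y : E ⊕ E ⊕ J → ℝ, (∀ e, e ∉ U → 1 - s ≤ y (inl e)) →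
      (∀ e, e ∉ U → -r ≤ y (inr (inl e))) → (∀ j, x₀ ≤ y (inr (inr j))) →
      0 < Psi b a U g y ∧ ∀ e, e ∉ U → slr (inl e) (Psi b a U g) y ≤ φ * Psi b a U g y ∧
        slr (inr (inl e)) (Psi b a U g) y ≤ ε / (x₀ - r) * Psi b a U g y := by
    intro U
    induction U using Finset.induction_on with
    | empty =>
      intro y hw hz hy
      obtain ⟨M, hM⟩ : ∃ M, M = gram (fun j => y (inr (inr j))) b +
        gram (fun e => y (inr (inl e))) a := ⟨_, rfl⟩
      have hquad : ∀ v, (x₀ - r) * ∑ j, (b j ⬝ᵥ v) ^ 2 ≤ v ⬝ᵥ M *ᵥ v := by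
        intro v
        rw [hM, Matrix.add_mulVec, dotProduct_add, gram_quad, gram_quad]
        have a1 : x₀ * ∑ j, (b j ⬝ᵥ v) ^ 2 ≤ ∑ j, y (inr (inr j)) * (b j ⬝ᵥ v) ^ 2 := by
          rw [Finset.mul_sum]
          exact Finset.sum_le_sum fun j _ => mul_le_mul_of_nonneg_right (hy j) (sq_nonneg _)
        have a2 : -r * ∑ e, (a e ⬝ᵥ v) ^ 2 ≤ ∑ e, y (inr (inl e)) * (a e ⬝ᵥ v) ^ 2 := by
          rw [Finset.mul_sum]
          exact Finset.sum_le_sum fun e _ =>
            mul_le_mul_of_nonneg_right (hz e (Finset.notMem_empty e)) (sq_nonneg _)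
        have a3 := mul_le_mul_of_nonneg_left (ha v) hr.le
        linarith
      have hPD : PD M := by
        refine ⟨hM ▸ (gram_symm _ _).add (gram_symm _ _), fun v hv => lt_of_lt_of_le ?_ (hquad v)⟩
        refine mul_pos hxr (lt_of_le_of_ne (Finset.sum_nonneg fun j _ => sq_nonneg _) fun h0 => ?_)
        refine hv (hb v fun j => ?_)
        have := (Finset.sum_eq_zero_iff_of_nonneg fun j _ => sq_nonneg (b j ⬝ᵥ v)).1 h0.symm j
          (Finset.mem_univ j)
        exact pow_eq_zero_iff two_ne_zero |>.1 this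
      have hdet := hPD.det_pos
      obtain ⟨hG1, hG2⟩ := hG (fun e => y (inl e)) fun e => hw e (Finset.notMem_empty e)
      refine ⟨by rw [psi_empty, ← hM]; exact mul_pos hG1 hdet, fun e _ => ⟨?_, ?_⟩⟩
      · have e1 : ∀ t : ℝ, Psi b a ∅ g (update y (inl e) t) =
            gen g (update (fun e => y (inl e)) e t) * M.det := by
          intro t
          rw [psi_empty, hM]
          congr 2
          · funext f
            by_cases hf : f = e
            · subst hf
              simp
            · simp [hf]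
        have a1 := mul_le_mul_of_nonneg_right (hG2 e) hdet.le
        rw [slr, e1, e1, psi_empty, ← hM]
        rw [slr] at a1
        linarith
      · have e1 : ∀ t : ℝ, Psi b a ∅ g (update y (inr (inl e)) t) =
            gen g (fun e => y (inl e)) * (M.det * (1 + (t - y (inr (inl e))) * lev M (a e))) := by
          intro t
          have b1 : (fun f => update y (inr (inl e)) t (inr (inl f))) =
              update (fun f => y (inr (inl f))) e t := by
            funext f
            by_cases hf : f = e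
            · subst hf
              simp
            · simp [hf]
          rw [psi_empty, b1, gram_update, ← hPD.det_update, hM, add_assoc]
          simp
        have hlev : lev M (a e) ≤ ε / (x₀ - r) := by
          refine hPD.lev_le (div_nonneg hε0 hxr.le) fun v => (hε e v).trans ?_
          rw [div_mul_eq_mul_div, le_div_iff₀ hxr]
          have := mul_le_mul_of_nonneg_left (hquad v) hε0
          linarith
        have a1 := mul_le_mul_of_nonneg_left hlev (mul_pos hG1 hdet).le
        rw [slr, e1, e1, psi_empty, ← hM]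
        linarith
    | insert e U he ih =>
      intro y hw hz hy
      have hij : (inl e : E ⊕ E ⊕ J) ≠ inr (inl e) := inl_ne_inr
      have reg : ∀ α β : ℝ, 0 ≤ α → 0 ≤ β → _ := fun α β hα hβ =>
        ih (barPt (inl e) (inr (inl e)) y (1 - s + α) (-r + β))
          (fun f hf => by
            by_cases hfe : f = e
            · subst hfe
              simp [barPt, hα]
            · simpa [barPt, hfe] using hw f (by simp [hfe, hf]))
          (fun f hf => by
            by_cases hfe : f = e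
            · subst hfe
              simp [barPt, hβ]
            · simpa [barPt, hfe] using hz f (by simp [hfe, hf]))
          (fun j => by simpa [barPt] using hy j)
      have r0 := (reg 0 0 le_rfl le_rfl).2
      rw [add_zero, add_zero] at r0
      have hsr : s * r ≤ 1 := mul_le_one₀ hs1.le hr.le hr1
      obtain ⟨h1, h2⟩ := bar_step (psi_sr b a hg U) hij y hs hr hsr h
        (fun α β hα hβ => (reg α β hα hβ).1) (r0 e he).1 (r0 e he).2
      have hfun : Psi b a (insert e U) g = barT (inl e) (inr (inl e)) (Psi b a U g) :=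
        funext (psi_insert_T b a he g)
      rw [hfun]
      refine ⟨h1, fun f hf => ?_⟩
      rw [Finset.mem_insert, not_or] at hf
      exact ⟨h2 _ (by simpa using hf.1) inl_ne_inr _ (r0 f hf.2).1,
        h2 _ inr_ne_inl (by simpa using hf.1) _ (r0 f hf.2).2⟩
  exact (inv univ y (fun e he => absurd (Finset.mem_univ e) he)
    (fun e he => absurd (Finset.mem_univ e) he) hy).1

end Vale.Agent.P061
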