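import Mathlib

/-!
Internal definitions (see notes/P061.md). A multigraph is given by endpoint maps `a b : E → V`.
-/

namespace Vale.Agent.P061

open Finset Function

variable {V E : Type}

open Classical in
/-- Edges of `A` whose endpoints lie in different classes of `P`. -/
noncomputable def cross (a b : E → V) (A : Finset E) (P : Setoid V) : Finset E :=
  A.filter fun e => ¬ P (a e) (b e)

/-- The number of classes. -/
noncomputable def nc (P : Setoid V) : ℕ := Nat.card (Quotient P)

/-- Partition connectivity. -/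
def PC (a b : E → V) (A : Finset E) (k : ℕ) : Prop :=
  ∀ P : Setoid V, k * nc P ≤ (cross a b A P).card + k

/-- Edges of `A` leaving `S`. -/
def cutS [DecidableEq V] (a b : E → V) (A : Finset E) (S : Finset V) : Finset E :=
  A.filter fun e => ¬ (a e ∈ S ↔ b e ∈ S)

/-- `A` is a connected spanning subgraph. -/
def Conn [Fintype V] [DecidableEq V] (a b : E → V) (A : Finset E) : Prop :=
  ∀ S : Finset V, S.Nonempty → S ≠ univ → (cutS a b A S).Nonempty

/-- A monotone choice of partitions minimising `card (cross A P) - k * nc P`. -/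
structure Canon [Fintype E] (a b : E → V) (k : ℕ) (Pm : Finset E → Setoid V) : Prop where
  mono : ∀ A B, A ⊆ B → Pm A ≤ Pm B
  few : ∀ A, (cross a b A (Pm A)).card + k ≤ k * nc (Pm A)
  conn : ∀ A x y, Pm A x y →
    Relation.EqvGen (fun u v => Pm A u v ∧ ∃ e ∈ A, a e = u ∧ b e = v) x y
  greedy : ∀ (l : E → ℝ) (F : Finset E),
    (∀ e, ¬ Pm (univ.filter fun f => l f < l e) (a e) (b e) → e ∈ F) → PC a b F k

/-- Pseudometrics. -/
structure IsPm (d : V → V → ℝ) : Prop where
  refl : ∀ x, d x x = 0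
  symm : ∀ x y, d x y = d y x
  tri : ∀ x y z, d x z ≤ d x y + d y z

theorem IsPm.nonneg {d : V → V → ℝ} (h : IsPm d) (x y : V) : 0 ≤ d x y := by
  have := h.tri x y x
  rw [h.refl, h.symm y x] at this
  linarith

/-- A skeleton: a graph `Γ` on `Y`, connected and `r`-dense in each class of `P`. -/
structure Skel (d : V → V → ℝ) (P : Setoid V) (r β : ℝ) (Y : Finset V) (Γ : Finset (V × V)) :
    Prop where
  mem : ∀ p ∈ Γ, p.1 ∈ Y ∧ p.2 ∈ Y ∧ P p.1 p.2 ∧ d p.1 p.2 ≤ β
  conn : ∀ x ∈ Y, ∀ y ∈ Y, P x y → Relation.EqvGen (fun u v => (u, v) ∈ Γ) x y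
  dense : ∀ v, ∃ y ∈ Y, P v y ∧ d v y ≤ r

/-- The energy of `x` in the network with conductances `c`. -/
def en [Fintype V] (c : V × V → ℝ) (x : V → ℝ) : ℝ := ∑ p, c p * (x p.1 - x p.2) ^ 2

/-- The effective resistance between `u` and `v` is at most `ε`. -/
def Dom [Fintype V] (c : V × V → ℝ) (ε : ℝ) (u v : V) : Prop :=
  ∀ x : V → ℝ, (x u - x v) ^ 2 ≤ ε * en c x

/-- The indicator vector of a set. -/
def ind [DecidableEq V] (S : Finset V) (v : V) : ℝ := if v ∈ S then 1 else 0

/-- The slope of a real function in the variable `i`. -/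
def slr {ι : Type} [DecidableEq ι] (i : ι) (f : (ι → ℝ) → ℝ) (x : ι → ℝ) : ℝ :=
  f (update x i 1) - f (update x i 0)

/-- The multiaffine polynomial with coefficients `g`. -/
def gen {ι : Type} [Fintype ι] (g : Finset ι → ℝ) (w : ι → ℝ) : ℝ := ∑ B, g B * ∏ e ∈ B, w e

/-- The weighted sum of rank one matrices. -/
def gram {ι n : Type} [Fintype ι] (w : ι → ℝ) (v : ι → n → ℝ) : Matrix n n ℝ :=
  ∑ i, w i • Matrix.vecMulVec (v i) (v i)

/-- Symmetric positive definite matrices. -/
def PD {n : Type} [Fintype n] (M : Matrix n n ℝ) : Prop :=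
  M.IsSymm ∧ ∀ y, y ≠ 0 → 0 < y ⬝ᵥ M.mulVec y

end Vale.Agent.P061
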