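import Vale.Agent.P061.Part

/-!
The canonical partitions.

Plan. `ψ A P = card (cross A P) - k * nc P : ℤ`. `Setoid V` is finite. `ψ A` is submodular
(`cross A (P ⊓ Q) = cross A P ∪ cross A Q`, `cross A (P ⊔ Q) ⊆ cross A P ∩ cross A Q`, `nc_submod`).
KEY: if `A ⊆ B` and `P` minimises `ψ A`, then `ψ B (Q ⊔ P) ≤ ψ B Q` for all `Q` (submodularity on `A`;
on `B \ A` coarsening decreases `cross`). Let `Pm A` be a maximal minimiser of `ψ A`.
`mono`: `Pm B ⊔ Pm A` minimises `ψ B`. `few`: compare with `⊤`. `conn`: the setoid `Q` generated by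
the non-crossing edges of `A` satisfies `Q ≤ Pm A` and `cross A Q = cross A (Pm A)`, so `Q < Pm A`
contradicts minimality (`nc_lt`, `1 ≤ k`). `greedy`: show by `Finset.induction_on_min_value l` on
`D ⊆ Fᶜ` that `-k ≤ ψ Dᶜ Q` for all `Q`: inserting `e` of minimal length, `B = (insert e D)ᶜ`
contains `A = {f | l f < l e}`, `e` does not cross `Pm A`, so
`ψ B Q ≥ ψ B (Q ⊔ Pm A) = ψ Dᶜ (Q ⊔ Pm A) ≥ -k`.
-/

namespace Vale.Agent.P061

open Finset Function

variable {V E : Type} [Fintype V] [DecidableEq V] [Fintype E] [DecidableEq E] {a b : E → V}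

/-- The function to be minimised. -/
noncomputable def psiC (a b : E → V) (k : ℕ) (A : Finset E) (P : Setoid V) : ℤ :=
  (cross a b A P).card - k * nc P

omit [Fintype V] [DecidableEq V] [Fintype E] [DecidableEq E] in
theorem mem_cross_canon {A : Finset E} {P : Setoid V} {e : E} :
    e ∈ cross a b A P ↔ e ∈ A ∧ ¬ P (a e) (b e) := by
  simp [cross]

omit [Fintype E] in
theorem psiC_submod (k : ℕ) (A : Finset E) (P Q : Setoid V) :
    psiC a b k A (P ⊓ Q) + psiC a b k A (P ⊔ Q) ≤ psiC a b k A P + psiC a b k A Q := by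
  have h1 : cross a b A (P ⊓ Q) ⊆ cross a b A P ∪ cross a b A Q := by
    intro e he
    simp only [mem_union, mem_cross_canon, Setoid.inf_iff_and] at he ⊢
    tauto
  have h2 : cross a b A (P ⊔ Q) ⊆ cross a b A P ∩ cross a b A Q := by
    intro e he
    simp only [mem_inter, mem_cross_canon] at he ⊢
    exact ⟨⟨he.1, fun h => he.2 ((le_sup_left : P ≤ P ⊔ Q) h)⟩,
      ⟨he.1, fun h => he.2 ((le_sup_right : Q ≤ P ⊔ Q) h)⟩⟩
  have h3 := card_union_add_card_inter (cross a b A P) (cross a b A Q)
  have h4 := card_le_card h1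
  have h5 := card_le_card h2
  have h6 := Nat.mul_le_mul_left k (nc_submod P Q)
  unfold psiC
  zify at h3 h4 h5 h6
  linarith

omit [Fintype E] in
theorem psiC_key {k : ℕ} {A B : Finset E} (hAB : A ⊆ B) {P : Setoid V}
    (hP : ∀ Q, psiC a b k A P ≤ psiC a b k A Q) (Q : Setoid V) :
    psiC a b k B (Q ⊔ P) ≤ psiC a b k B Q := by
  have hs : ∀ R : Setoid V, (cross a b B R).card =
      (cross a b A R).card + (cross a b (B \ A) R).card := by
    intro R
    rw [← card_union_of_disjoint]
    · congr 1
      ext e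
      simp only [mem_union, mem_cross_canon, mem_sdiff]
      have := @hAB e
      tauto
    · rw [disjoint_left]
      intro e h1 h2
      exact (mem_sdiff.1 (mem_cross_canon.1 h2).1).2 (mem_cross_canon.1 h1).1
  have h1 := psiC_submod (a := a) (b := b) k A Q P
  have h2 := hP (Q ⊓ P)
  have h3 : cross a b (B \ A) (Q ⊔ P) ⊆ cross a b (B \ A) Q := by
    intro e he
    simp only [mem_cross_canon] at he ⊢
    exact ⟨he.1, fun h => he.2 ((le_sup_left : Q ≤ Q ⊔ P) h)⟩
  have h4 := card_le_card h3
  unfold psiC at h1 h2 ⊢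
  rw [hs, hs Q]
  zify at h4
  push_cast
  linarith

theorem exists_canon [Nonempty V] {k : ℕ} (hk : 1 ≤ k) (h : PC a b univ k) :
    ∃ Pm, Canon a b k Pm := by
  have : Finite (Setoid V) :=
    Finite.of_injective (fun P : Setoid V => P.r) fun P Q e => Setoid.ext fun x y => by
      have := congrFun (congrFun e x) y
      exact Iff.of_eq this
  have ex : ∀ A : Finset E, ∃ P : Setoid V, (∀ Q, psiC a b k A P ≤ psiC a b k A Q) ∧
      ∀ P', (∀ Q, psiC a b k A P' ≤ psiC a b k A Q) → nc P ≤ nc P' := by
    intro A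
    obtain ⟨P, hP, hm⟩ := Set.exists_min_image {P | ∀ Q, psiC a b k A P ≤ psiC a b k A Q} nc
      (Set.toFinite _) (Finite.exists_min (psiC a b k A))
    exact ⟨P, hP, hm⟩
  choose Pm hmin hmax using ex
  refine ⟨Pm, fun A B hAB => ?_, fun A => ?_, fun A x y hxy => ?_, fun l F hF => ?_⟩
  · have h1 := hmax B (Pm B ⊔ Pm A) fun Q => (psiC_key hAB (hmin A) (Pm B)).trans (hmin B Q)
    by_contra hn
    exact absurd h1 (not_le.2 (nc_lt (left_lt_sup.2 hn)))
  · have h1 := hmin A ⊤
    have h2 : cross a b A ⊤ = ∅ := by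
      ext e; simp [mem_cross_canon]
    unfold psiC at h1
    rw [h2, nc_top] at h1
    zify
    simp only [card_empty, Nat.cast_zero, Nat.cast_one] at h1
    linarith
  · let Q : Setoid V := Relation.EqvGen.setoid fun u v => Pm A u v ∧ ∃ e ∈ A, a e = u ∧ b e = v
    have hle : Q ≤ Pm A := Setoid.eqvGen_le fun u v h => h.1
    have hc : cross a b A Q = cross a b A (Pm A) := by
      ext e
      simp only [mem_cross_canon, and_congr_right_iff]
      intro he
      exact ⟨fun h1 h2 => h1 (Relation.EqvGen.rel _ _ ⟨h2, e, he, rfl, rfl⟩),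
        fun h1 h2 => h1 (hle h2)⟩
    rcases hle.eq_or_lt with e | hlt
    · have : Q x y := by rw [e]; exact hxy
      exact this
    · exfalso
      have h1 := hmin A Q
      have h2 := nc_lt hlt
      unfold psiC at h1
      rw [hc] at h1
      zify at h2 hk
      nlinarith
  · have key : ∀ D : Finset E, D ⊆ Fᶜ → ∀ Q, -(k : ℤ) ≤ psiC a b k Dᶜ Q := by
      intro D
      induction D using Finset.induction_on_min_value l with
      | empty =>
        intro _ Q
        have := h Q
        unfold psiC
        rw [compl_empty]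
        zify at this
        linarith
      | insert e D he hm ih =>
        intro hD Q
        have heF : e ∉ F := mem_compl.1 (hD (mem_insert_self _ _))
        have h1 : Pm (univ.filter fun f => l f < l e) (a e) (b e) := by
          by_contra hn
          exact heF (hF e hn)
        have h2 : (univ.filter fun f => l f < l e) ⊆ (insert e D)ᶜ := by
          intro f hf
          have hf' := (mem_filter.1 hf).2
          rw [mem_compl, mem_insert]
          rintro (rfl | h3)
          · exact lt_irrefl _ hf'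
          · exact absurd (hm f h3) (not_le.2 hf')
        refine le_trans ?_ (psiC_key h2 (hmin _) Q)
        refine (ih ((subset_insert _ _).trans hD)
          (Q ⊔ Pm (univ.filter fun f => l f < l e))).trans (le_of_eq ?_)
        unfold psiC
        congr 3
        ext f
        simp only [mem_cross_canon, mem_compl, mem_insert, not_or]
        refine ⟨fun h3 => ⟨⟨?_, h3.1⟩, h3.2⟩, fun h3 => ⟨h3.1.2, h3.2⟩⟩
        rintro rfl
        exact h3.2 ((le_sup_right : Pm _ ≤ Q ⊔ Pm _) h1)
    intro Q
    have := key Fᶜ subset_rfl Q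
    unfold psiC at this
    rw [compl_compl] at this
    zify
    linarith

end Vale.Agent.P061
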