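import Mathlib

namespace Vale.Agent.P061

variable {V E : Type} [Fintype V] [DecidableEq V] [Fintype E] [DecidableEq E]

/-- A multigraph has a vertex type `V`, a type `E` of edge copies and an endpoint map `ends`.
`cut ends T S` is the set of edge copies in `T` with exactly one endpoint in `S`. -/
def cut (ends : E → Sym2 V) (T : Finset E) (S : Finset V) : Finset E :=
  T.filter fun e => ∃ u ∈ S, ∃ v ∉ S, ends e = s(u, v)

/-- `k`-edge-connectivity: every nonempty proper vertex set is left by at least `k` edge copies. -/
def EdgeConnected (ends : E → Sym2 V) (k : ℕ) : Prop :=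
  ∀ S : Finset V, S.Nonempty → S ≠ Finset.univ → k ≤ (cut ends Finset.univ S).card

/-- `T` is a set of `n - 1` pairwise non-parallel edge copies forming a tree on `V`. -/
def IsSpanningTree (ends : E → Sym2 V) (T : Finset E) : Prop :=
  T.card + 1 = Fintype.card V ∧ Set.InjOn ends T ∧ (SimpleGraph.fromEdgeSet (ends '' T)).IsTree

end Vale.Agent.P061
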