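import Vale.Agent.P061.Geo
import Vale.Agent.P061.Canon
import Vale.Agent.P371.Brouwer

/-!
The extraction lemma.

Plan. Suppose not. DUALITY: for each `F` with `PC F k`, the convex set of vectors
`S ↦ en c (ind S) - card (cutS univ S)` (`S` nonempty and proper; `c ≥ 0` with `Dom c ε` on `F`; nonempty: put
`1 / ε` on the edges) misses the open convex set `{v | ∀ S, v S < 0}`. `geometric_hahn_banach_open` gives
`ν ≥ 0`, `ν ≠ 0`; `d u v = ∑ S, ν S * (ind S u - ind S v) ^ 2` is a pseudometric with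
`∑ e, d (a e) (b e) > 0` (each cut has an edge: `nwt`) and `∑ p, c p * d p.1 p.2 ≥ ∑ e, d (a e) (b e)` for
all such `c`. Normalise, call it `dF F`. BROUWER on `V → V → ℝ`: with `l d e = |d (a e) (b e)|`,
`ψ F d = ∏ e ∈ F, ∏ A with Pm A (a e) (b e), ∑ f ∈ A, max 0 (l d f - l d e / 2 + τ)` is continuous,
nonnegative, positive for the greedy set of `l d` (`Canon.greedy`, `Canon.mono`), and
`d ↦ (∑ F, ψ F d)⁻¹ • ∑ F, ψ F d • dF F` (sums over `F` with `PC F k`) is bounded. At a fixed point `d`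
take `c` from `geo`; if `ψ F d > 0` all `e ∈ F` satisfy the hypothesis of `geo`, so
`∑ c * dF F ≥ 1`; average: `∑ c * d ≥ 1`, a contradiction.
-/

namespace Vale.Agent.P061

open Finset Function

variable {V E : Type} [Fintype V] [DecidableEq V] [Fintype E] [DecidableEq E] {a b : E → V}

theorem ex_dual {ι : Type} [Fintype ι] [DecidableEq ι] {t : Set (ι → ℝ)} (ht : Convex ℝ t)
    (hne : t.Nonempty) (h : ∀ v ∈ t, ∃ i, 0 ≤ v i) :
    ∃ ν : ι → ℝ, (∀ i, 0 ≤ ν i) ∧ (∃ i, 0 < ν i) ∧ ∀ v ∈ t, 0 ≤ ∑ i, ν i * v i := by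
  have hs1 : Convex ℝ (Set.pi Set.univ fun _ : ι => Set.Iio (0 : ℝ)) :=
    convex_pi fun _ _ => convex_Iio 0
  have hs2 : IsOpen (Set.pi Set.univ fun _ : ι => Set.Iio (0 : ℝ)) :=
    isOpen_set_pi Set.finite_univ fun _ _ => isOpen_Iio
  obtain ⟨f, u, h1, h2⟩ := geometric_hahn_banach_open hs1 hs2 ht (by
    rw [Set.disjoint_left]
    intro v hv hv'
    obtain ⟨i, hi⟩ := h v hv'
    exact absurd (hv i trivial) (not_lt.2 hi))
  have hf : ∀ v, f v = ∑ i, f (Pi.single i 1) * v i := by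
    intro v
    conv_lhs => rw [pi_eq_sum_univ' v]
    rw [map_sum]
    refine sum_congr rfl fun i _ => ?_
    rw [map_smul, smul_eq_mul, mul_comm]
  set M := f (fun _ => 1) with hM
  have hu : 0 ≤ u := by
    by_contra hu
    have hu' : 0 < -u := by linarith [not_le.1 hu]
    have hpos : 0 < |M| + 1 := by positivity
    have h3 := h1 ((u / (|M| + 1)) • fun _ => 1) fun i _ => by
      simpa using div_neg_of_neg_of_pos (not_le.1 hu) hpos
    rw [map_smul, smul_eq_mul, ← hM, div_mul_eq_mul_div, div_lt_iff₀ hpos] at h3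
    nlinarith [le_abs_self M]
  have hν : ∀ i, 0 ≤ f (Pi.single i 1) := by
    intro i
    by_contra hi
    have hi' : f (Pi.single i 1) < 0 := not_le.1 hi
    have hT : (|u + M| + 1) / f (Pi.single i 1) < 0 := div_neg_of_pos_of_neg (by positivity) hi'
    have h3 := h1 (((|u + M| + 1) / f (Pi.single i 1)) • Pi.single i 1 - fun _ => 1) fun j _ => by
      by_cases hj : j = i
      · subst hj
        simp only [Pi.sub_apply, Pi.smul_apply, Pi.single_eq_same, smul_eq_mul, Set.mem_Iio]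
        linarith
      · simp [hj]
    rw [map_sub, map_smul, smul_eq_mul, ← hM, div_mul_cancel₀ _ hi'.ne] at h3
    linarith [le_abs_self (u + M)]
  refine ⟨fun i => f (Pi.single i 1), hν, ?_, fun v hv => ?_⟩
  · by_contra hcon
    have h0 : ∀ v, f v = 0 := fun v => by
      rw [hf]
      refine sum_eq_zero fun i _ => ?_
      have e : f (Pi.single i 1) = 0 := le_antisymm (not_lt.1 fun e => hcon ⟨i, e⟩) (hν i)
      rw [e, zero_mul]
    obtain ⟨v, hv⟩ := hne
    have h3 := h1 (fun _ => -1) fun i _ => by simp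
    have h4 := h2 v hv
    rw [h0] at h3 h4
    linarith
  · rw [← hf]
    exact hu.trans (h2 v hv)

omit [DecidableEq V] in
theorem ex_en_lin (c c' : V × V → ℝ) (α β : ℝ) (x : V → ℝ) :
    en (α • c + β • c') x = α * en c x + β * en c' x := by
  simp only [en, Pi.add_apply, Pi.smul_apply, smul_eq_mul, mul_sum, ← sum_add_distrib]
  exact sum_congr rfl fun p _ => by ring

omit [Fintype V] [DecidableEq E] in
theorem ex_cut (S : Finset V) :
    ∑ e, (ind S (a e) - ind S (b e)) ^ 2 = ((cutS a b univ S).card : ℝ) := by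
  rw [cutS, card_filter]
  push_cast
  refine sum_congr rfl fun e _ => ?_
  unfold ind
  by_cases h1 : a e ∈ S <;> by_cases h2 : b e ∈ S <;> simp [h1, h2]

omit [DecidableEq E] in
theorem ex_metric {ε : ℝ} (hε : 0 < ε) (hc : Conn a b univ) (F : Finset E)
    (h : ∀ c : V × V → ℝ, (∀ p, 0 ≤ c p) → (∀ e ∈ F, Dom c ε (a e) (b e)) →
      ∃ S, ((cutS a b univ S).card : ℝ) < en c (ind S)) :
    ∃ d : V → V → ℝ, IsPm d ∧ ∑ e, d (a e) (b e) = 1 ∧ ∀ c : V × V → ℝ, (∀ p, 0 ≤ c p) →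
      (∀ e ∈ F, Dom c ε (a e) (b e)) → 1 ≤ ∑ p, c p * d p.1 p.2 := by
  classical
  let Φ : (V × V → ℝ) → {S : Finset V // S.Nonempty ∧ S ≠ univ} → ℝ :=
    fun c S => en c (ind S.1) - (cutS a b univ S.1).card
  obtain ⟨ν, hν0, ⟨S0, hS0⟩, hν⟩ := ex_dual
    (t := Φ '' {c | (∀ p, 0 ≤ c p) ∧ ∀ e ∈ F, Dom c ε (a e) (b e)}) (by
      rintro _ ⟨c, ⟨hc1, hc2⟩, rfl⟩ _ ⟨c', ⟨hc1', hc2'⟩, rfl⟩ α β hα hβ hαβ
      refine ⟨α • c + β • c', ⟨fun p => add_nonneg (mul_nonneg hα (hc1 p)) (mul_nonneg hβ (hc1' p)),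
        fun e he x => ?_⟩, ?_⟩
      · rw [ex_en_lin]
        have h1 := mul_le_mul_of_nonneg_left (hc2 e he x) hα
        have h2 := mul_le_mul_of_nonneg_left (hc2' e he x) hβ
        have h3 : (x (a e) - x (b e)) ^ 2 = (α + β) * (x (a e) - x (b e)) ^ 2 := by
          rw [hαβ, one_mul]
        linarith
      · funext S
        simp only [Φ, ex_en_lin, Pi.add_apply, Pi.smul_apply, smul_eq_mul]
        linear_combination ((cutS a b univ S.1).card : ℝ) * hαβ)
    ⟨_, fun _ => ε⁻¹, ⟨fun _ => by positivity, fun e _ x => by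
      rw [en, ← mul_sum, mul_inv_cancel_left₀ hε.ne']
      exact single_le_sum (f := fun p : V × V => (x p.1 - x p.2) ^ 2) (fun _ _ => sq_nonneg _)
        (mem_univ (a e, b e))⟩, rfl⟩ (by
      rintro _ ⟨c, ⟨hc1, hc2⟩, rfl⟩
      obtain ⟨S, hS⟩ := h c hc1 hc2
      have h0 : (0 : ℝ) ≤ (cutS a b univ S).card := Nat.cast_nonneg _
      refine ⟨⟨S, ?_, ?_⟩, by simp only [Φ]; linarith⟩
      · rw [nonempty_iff_ne_empty]
        rintro rfl
        simp [en, ind] at hS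
        linarith
      · rintro rfl
        simp [en, ind] at hS
        linarith)
  set Z : ℝ := ∑ S, ν S * (cutS a b univ S.1).card with hZ
  have hZ0 : 0 < Z := by
    refine sum_pos' (fun S _ => mul_nonneg (hν0 S) (Nat.cast_nonneg _)) ⟨S0, mem_univ _, ?_⟩
    exact mul_pos hS0 (Nat.cast_pos.2 (hc S0.1 S0.2.1 S0.2.2).card_pos)
  refine ⟨fun u v => Z⁻¹ * ∑ S, ν S * (ind S.1 u - ind S.1 v) ^ 2, ⟨fun x => by simp,
    fun x y => ?_, fun x y z => ?_⟩, ?_, fun c hc1 hc2 => ?_⟩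
  · congr 1
    exact sum_congr rfl fun S _ => by ring
  · rw [← mul_add, ← sum_add_distrib]
    refine mul_le_mul_of_nonneg_left (sum_le_sum fun S _ => ?_) (by positivity)
    rw [← mul_add]
    refine mul_le_mul_of_nonneg_left ?_ (hν0 S)
    unfold ind
    split_ifs <;> norm_num
  · rw [← mul_sum, sum_comm]
    simp only [← mul_sum, ex_cut]
    exact inv_mul_cancel₀ hZ0.ne'
  · have h1 := hν _ ⟨c, ⟨hc1, hc2⟩, rfl⟩
    simp only [Φ, mul_sub, sum_sub_distrib] at h1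
    have h2 : ∑ p : V × V, c p * (Z⁻¹ * ∑ S, ν S * (ind S.1 p.1 - ind S.1 p.2) ^ 2) =
        Z⁻¹ * ∑ S, ν S * en c (ind S.1) := by
      simp only [en, mul_sum]
      rw [sum_comm]
      exact sum_congr rfl fun S _ => sum_congr rfl fun p _ => by ring
    rw [h2, ← inv_mul_cancel₀ hZ0.ne']
    exact mul_le_mul_of_nonneg_left (by linarith) (by positivity)

theorem ex_fix {X ι : Type} [NormedAddCommGroup X] [NormedSpace ℝ X] [FiniteDimensional ℝ X]
    [Fintype ι] (y : ι → X) {ψ : ι → X → ℝ} (hc : ∀ i, Continuous (ψ i)) (h0 : ∀ i x, 0 ≤ ψ i x)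
    (hp : ∀ x, ∃ i, 0 < ψ i x) : ∃ (x : X) (w : ι → ℝ), (∀ i, 0 ≤ w i) ∧ ∑ i, w i = 1 ∧
      (∀ i, w i ≠ 0 → ψ i x ≠ 0) ∧ x = ∑ i, w i • y i := by
  have hs : ∀ x, 0 < ∑ i, ψ i x := fun x => by
    obtain ⟨i, hi⟩ := hp x
    exact sum_pos' (fun i _ => h0 i x) ⟨i, mem_univ _, hi⟩
  obtain ⟨x, hx⟩ := P371.brouwer_bounded (f := fun x => ∑ i, (ψ i x / ∑ i, ψ i x) • y i)
    (continuous_finsetSum _ fun i _ => ((hc i).div (continuous_finsetSum _ fun i _ => hc i)
      fun x => (hs x).ne').smul continuous_const) (C := ∑ i, ‖y i‖) fun x => by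
      refine (norm_sum_le _ _).trans (sum_le_sum fun i _ => ?_)
      rw [norm_smul, Real.norm_of_nonneg (div_nonneg (h0 i x) (hs x).le)]
      refine mul_le_of_le_one_left (norm_nonneg _) ((div_le_one (hs x)).2 ?_)
      exact single_le_sum (f := fun i => ψ i x) (fun i _ => h0 i x) (mem_univ i)
  refine ⟨x, fun i => ψ i x / ∑ i, ψ i x, fun i => div_nonneg (h0 i x) (hs x).le, ?_,
    fun i hi e => hi (by simp [e]), hx.symm⟩
  rw [← sum_div, div_self (hs x).ne']

theorem extract [Nonempty V] {k j : ℕ} (hk : 1 ≤ k) (hj : 0 < j) (hPC : PC a b univ (k + j))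
    {Λ ε : ℝ} (hΛ : 10 ≤ Λ) (hε : 3 * (12 / Λ + 8 * k / (j * Λ ^ 2) + 4096 * Λ ^ 5 / j) < ε) :
    ∃ (F : Finset E) (c : V × V → ℝ), PC a b F k ∧ (∀ p, 0 ≤ c p) ∧
      (∀ S, en c (ind S) ≤ (cutS a b univ S).card) ∧ ∀ e ∈ F, Dom c ε (a e) (b e) := by
  classical
  by_contra hcon
  have hε0 : 0 < ε := lt_of_le_of_lt (by positivity) hε
  have hPk : PC a b univ k := fun P => by
    have h1 := hPC P
    have : Nonempty (Quotient P) := ⟨Quotient.mk P (Classical.arbitrary V)⟩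
    have h2 : 0 < nc P := Nat.card_pos
    nlinarith
  obtain ⟨T, hT1, -, hT2⟩ := nwt hPk
  have hconn : Conn a b univ := fun S h1 h2 =>
    (hT2 ⟨0, hk⟩ S h1 h2).mono (filter_subset_filter _ (subset_univ _))
  obtain ⟨Pm, hP⟩ := exists_canon hk hPk
  obtain ⟨τ, hτ, hgeo⟩ := geo hj hPC hP hΛ hε
  have hd : ∀ F : {F : Finset E // PC a b F k}, ∃ d : V → V → ℝ, IsPm d ∧
      ∑ e, d (a e) (b e) = 1 ∧ ∀ c : V × V → ℝ, (∀ p, 0 ≤ c p) →
      (∀ e ∈ F.1, Dom c ε (a e) (b e)) → 1 ≤ ∑ p, c p * d p.1 p.2 := fun F =>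
    ex_metric hε0 hconn F.1 fun c h1 h2 => by
      by_contra h3
      exact hcon ⟨F.1, c, F.2, h1, fun S => not_lt.1 fun e => h3 ⟨S, e⟩, h2⟩
  choose dF hF1 hF2 hF3 using hd
  obtain ⟨d, w, hw0, hw1, hwψ, hdw⟩ := ex_fix dF
    (ψ := fun F d => ∏ e ∈ F.1, ∏ A ∈ univ.filter (fun A => Pm A (a e) (b e)),
      ∑ f ∈ A, max 0 (|d (a f) (b f)| - |d (a e) (b e)| / 2 + τ))
    (fun F => by fun_prop)
    (fun F d => prod_nonneg fun e _ => prod_nonneg fun A _ => sum_nonneg fun f _ => le_max_left _ _)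
    (fun d => by
      refine ⟨⟨univ.filter fun e => ¬ Pm (univ.filter fun f => |d (a f) (b f)| < |d (a e) (b e)|)
        (a e) (b e), hP.greedy (fun e => |d (a e) (b e)|) _ fun e he => by simpa using he⟩, ?_⟩
      refine prod_pos fun e he => prod_pos fun A hA => ?_
      have he' := (mem_filter.1 he).2
      have hA' := (mem_filter.1 hA).2
      have : ∃ f ∈ A, |d (a e) (b e)| ≤ |d (a f) (b f)| := by
        by_contra h3
        refine he' (hP.mono A _ (fun f hf => mem_filter.2 ⟨mem_univ _, ?_⟩) hA')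
        exact not_le.1 fun e => h3 ⟨f, hf, e⟩
      obtain ⟨f, hf, hle⟩ := this
      refine sum_pos' (fun f _ => le_max_left _ _) ⟨f, hf, lt_max_of_lt_right ?_⟩
      linarith [abs_nonneg (d (a e) (b e))])
  have hda : ∀ u v, d u v = ∑ F, w F * dF F u v := fun u v => by
    rw [hdw]
    simp only [Finset.sum_apply, Pi.smul_apply, smul_eq_mul]
  have hpm : IsPm d := by
    refine ⟨fun x => ?_, fun x y => ?_, fun x y z => ?_⟩
    · simp [hda, (hF1 _).refl]
    · rw [hda, hda]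
      exact sum_congr rfl fun F _ => by rw [(hF1 F).symm]
    · rw [hda, hda, hda, ← sum_add_distrib]
      refine sum_le_sum fun F _ => ?_
      rw [← mul_add]
      exact mul_le_mul_of_nonneg_left ((hF1 F).tri x y z) (hw0 F)
  have hsum : ∑ e, d (a e) (b e) = 1 := by
    simp only [hda]
    rw [sum_comm]
    simp only [← mul_sum, hF2, mul_one, hw1]
  obtain ⟨c, hc0, hc1, hc2⟩ := hgeo d hpm hsum
  have h1 : ∑ p : V × V, c p * d p.1 p.2 = ∑ F, w F * ∑ p : V × V, c p * dF F p.1 p.2 := by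
    simp only [hda, mul_sum]
    rw [sum_comm]
    exact sum_congr rfl fun F _ => sum_congr rfl fun p _ => by ring
  refine absurd hc1 (not_lt.2 ?_)
  rw [h1, ← hw1]
  refine sum_le_sum fun F _ => ?_
  by_cases hw : w F = 0
  · simp [hw]
  · refine le_mul_of_one_le_right (hw0 F) (hF3 F c hc0 fun e he => hc2 e fun hA => ?_)
    refine hwψ F hw (prod_eq_zero he (prod_eq_zero (mem_filter.2 ⟨mem_univ _, hA⟩) ?_))
    refine sum_eq_zero fun f hf => max_eq_left ?_
    have := (mem_filter.1 hf).2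
    rw [abs_of_nonneg (hpm.nonneg _ _), abs_of_nonneg (hpm.nonneg _ _)]
    linarith

end Vale.Agent.P061
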