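import Vale.Agent.P061.Skel
import Vale.Agent.P061.Mat

/-!
The geometric lemma: a short network which makes all greedy edges have small resistance.

Plan. `ℓ e = d (a e) (b e)`, `t i = 4 τ Λ ^ i`, `A i = {f | ℓ f ≤ t i / 4}`, `P i = Pm (A i)`, `m i = nc (P i)`.
COUNT: `j (m i - 1) ≤ card {f | t i / 4 < ℓ f}` (`hPC`, `few`), so `∑ i < I, t i (m i - 1) ≤ 8 / j`.
An eligible edge with `t i < ℓ e ≤ t (i + 1)` crosses `P i` (`mono`). It is enough to find a network with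
`(x (a e) - x (b e))² ≤ 3 en c x` and cost less than `ε / 3`, then scale by `3 / ε`.
Edges with `ℓ e ≤ t 0`, and edges of scale `i` crossing `P (i + 3)` (at most `k (m (i + 3) - 1)`, by `few`) get
conductance one. For the set `B i` of the other eligible edges of scale `i` let `Z i` be a maximal
`6 r i`-separated set of endpoints, `r i = t i / Λ`, `h u ∈ Z i` within `6 r i` of the endpoint `u`.
SCALE NET: conductance one on `(u, h u)`; `kw` on the type `Z i` for the vectors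
`single (h (a e)) 1 - single (h (b e)) 1` gives conductances of total at most `2 card (Z i)` on pairs of length at
most `2 Λ² r i`, and `η` on the pairs `(z, z₀)` (test with `x z - x z₀`), of cost as small as we wish.
POTENTIAL: `g i` = least length of a skeleton for `(P i, r i, t i)` (`Y = univ`, `Γ` = non-crossing
edges of `A i` is one, of length at most `card E * t i`); `skel_step` with `l = t (i + 1)`,
`R = t (i + 3) / 4` gives `g (i + 3) + r i card (Z i) / 32 ≤ g i + 4 Λ³ t i (m i - 1)`; telescope.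
Total: `12 / Λ + 8 k / (j Λ²) + 4096 Λ⁵ / j + O(τ) + small`.
-/

namespace Vale.Agent.P061

open Finset Function

variable {V E : Type} [Fintype V] [DecidableEq V] [Fintype E] [DecidableEq E] {a b : E → V}

theorem exists_net {κ : Type} (s : Finset κ) {w : κ → ℝ} (hw : ∀ k, 0 ≤ w k) (p : κ → V × V) :
    ∃ c : V × V → ℝ, (∀ q, 0 ≤ c q) ∧ ∀ F : V × V → ℝ, ∑ q, c q * F q = ∑ k ∈ s, w k * F (p k) := by
  refine ⟨fun q => ∑ k ∈ s, if p k = q then w k else 0,
    fun q => sum_nonneg fun k _ => by split_ifs; exacts [hw k, le_rfl], fun F => ?_⟩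
  simp only [sum_mul, ite_mul, zero_mul]
  rw [sum_comm]
  simp

/-- A network of cost at most `C` in which the edges of `S` have resistance at most three. -/
def Good (d : V → V → ℝ) (a b : E → V) (S : Set E) (C : ℝ) : Prop :=
  ∃ c : V × V → ℝ, (∀ p, 0 ≤ c p) ∧ ∑ p, c p * d p.1 p.2 ≤ C ∧ ∀ e ∈ S, Dom c 3 (a e) (b e)

variable {d : V → V → ℝ}

omit [DecidableEq V] in
theorem en_nonneg_geo {c : V × V → ℝ} (h : ∀ p, 0 ≤ c p) (x : V → ℝ) : 0 ≤ en c x :=
  sum_nonneg fun p _ => mul_nonneg (h p) (sq_nonneg _)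

omit [DecidableEq V] [Fintype E] [DecidableEq E] in
theorem Good.mono {S S' : Set E} {C C' : ℝ} (h : Good d a b S C) (h1 : S' ⊆ S) (h2 : C ≤ C') :
    Good d a b S' C' :=
  let ⟨c, c0, c1, c2⟩ := h
  ⟨c, c0, c1.trans h2, fun e he => c2 e (h1 he)⟩

omit [DecidableEq V] [Fintype E] [DecidableEq E] in
theorem Good.add {S S' : Set E} {C C' : ℝ} (h : Good d a b S C) (h' : Good d a b S' C') :
    Good d a b (S ∪ S') (C + C') := by
  obtain ⟨c, c0, c1, c2⟩ := h
  obtain ⟨c', c0', c1', c2'⟩ := h'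
  refine ⟨c + c', fun p => add_nonneg (c0 p) (c0' p), ?_, fun e he x => ?_⟩
  · simp only [Pi.add_apply, add_mul, sum_add_distrib]
    exact add_le_add c1 c1'
  · have e1 : en (c + c') x = en c x + en c' x := by
      simp only [en, Pi.add_apply, add_mul, sum_add_distrib]
    have := en_nonneg_geo c0 x
    have := en_nonneg_geo c0' x
    rcases he with he | he
    · linarith [c2 e he x]
    · linarith [c2' e he x]

omit [DecidableEq V] [Fintype E] [DecidableEq E] in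
theorem Good.sum {S : ℕ → Set E} {C : ℕ → ℝ} (h : ∀ i, Good d a b (S i) (C i)) (I : ℕ) :
    Good d a b {e | ∃ i < I, e ∈ S i} (∑ i ∈ range I, C i) := by
  induction I with
  | zero => exact ⟨0, fun _ => le_rfl, by simp, fun e ⟨i, hi, _⟩ => absurd hi (by omega)⟩
  | succ I ih =>
    refine (ih.add (h I)).mono (fun e ⟨i, hi, he⟩ => ?_) (sum_range_succ _ _).ge
    rcases Nat.lt_succ_iff_lt_or_eq.1 hi with h | rfl
    exacts [.inl ⟨i, h, he⟩, .inr he]

omit [Fintype E] [DecidableEq E] in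
theorem good_direct (S : Finset E) {l : ℝ} (h : ∀ e ∈ S, d (a e) (b e) ≤ l) :
    Good d a b S (S.card * l) := by
  obtain ⟨c, c0, c1⟩ := exists_net S (w := fun _ => 1) (fun _ => zero_le_one) fun e => (a e, b e)
  refine ⟨c, c0, ?_, fun e he x => ?_⟩
  · rw [c1 fun p => d p.1 p.2, ← nsmul_eq_mul]
    exact sum_le_card_nsmul _ _ _ fun e he => by simpa using h e he
  · have h1 := single_le_sum (f := fun e => 1 * (x (a e) - x (b e)) ^ 2)
      (fun _ _ => by positivity) he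
    rw [en, c1 fun p => (x p.1 - x p.2) ^ 2]
    nlinarith [sq_nonneg (x (a e) - x (b e))]

omit [Fintype E] in
theorem good_scale [Nonempty V] (hd : IsPm d) (B : Finset E) (Z : Finset V) {ρ l δ : ℝ}
    (hρ : 0 ≤ ρ) (hl0 : 0 ≤ l) (hδ : 0 < δ) (hl : ∀ e ∈ B, d (a e) (b e) ≤ l)
    (hZ : ∀ u ∈ B.image a ∪ B.image b, ∃ z ∈ Z, d u z ≤ ρ) :
    Good d a b B (2 * ρ * B.card + 2 * Z.card * (l + 2 * ρ) + δ) := by
  choose! h h1 h2 using hZ
  have ha : ∀ e ∈ B, a e ∈ B.image a ∪ B.image b := fun e he =>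
    mem_union_left _ (mem_image_of_mem _ he)
  have hb : ∀ e ∈ B, b e ∈ B.image a ∪ B.image b := fun e he =>
    mem_union_right _ (mem_image_of_mem _ he)
  obtain ⟨z₀⟩ := ‹Nonempty V›
  have hs : 0 ≤ ∑ z : Z, d z z₀ := sum_nonneg fun z _ => hd.nonneg _ _
  have hη : 0 < δ / (1 + ∑ z : Z, d z z₀) := by positivity
  obtain ⟨w, w0, w1, w2⟩ := kw (fun e : B => (Pi.single (⟨h (a e), h1 _ (ha e e.2)⟩ : Z) 1 -
    Pi.single (⟨h (b e), h1 _ (hb e e.2)⟩ : Z) 1 : Z → ℝ)) hη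
  obtain ⟨c₁, p1, q1⟩ := exists_net B (w := fun _ => 1) (fun _ => zero_le_one)
    fun e => (a e, h (a e))
  obtain ⟨c₂, p2, q2⟩ := exists_net B (w := fun _ => 1) (fun _ => zero_le_one)
    fun e => (b e, h (b e))
  obtain ⟨c₃, p3, q3⟩ := exists_net univ w0 fun e : B => (h (a e), h (b e))
  obtain ⟨c₄, p4, q4⟩ := exists_net univ (w := fun _ => δ / (1 + ∑ z : Z, d z z₀))
    (fun _ => hη.le) fun z : Z => (z.1, z₀)
  refine ⟨c₁ + c₂ + c₃ + c₄, fun p => add_nonneg (add_nonneg (add_nonneg (p1 p) (p2 p)) (p3 p))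
    (p4 p), ?_, fun e he x => ?_⟩
  · simp only [Pi.add_apply, add_mul, sum_add_distrib, q1 fun p => d p.1 p.2,
      q2 fun p => d p.1 p.2, q3 fun p => d p.1 p.2, q4 fun p => d p.1 p.2, one_mul]
    have a1 := sum_le_card_nsmul B (fun e => d (a e) (h (a e))) ρ fun e he => h2 _ (ha e he)
    have a2 := sum_le_card_nsmul B (fun e => d (b e) (h (b e))) ρ fun e he => h2 _ (hb e he)
    have a3 : ∑ e : B, w e * d (h (a e)) (h (b e)) ≤ 2 * Z.card * (l + 2 * ρ) := by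
      rw [Fintype.card_coe] at w1
      refine le_trans ?_ (mul_le_mul_of_nonneg_right w1 (by positivity))
      rw [sum_mul]
      refine sum_le_sum fun e _ => mul_le_mul_of_nonneg_left ?_ (w0 e)
      linarith [hd.tri (h (a e)) (a e) (h (b e)), hd.tri (a e) (b e) (h (b e)),
        hd.symm (h (a e)) (a e), h2 _ (ha e e.2), h2 _ (hb e e.2), hl e e.2]
    have a4 : ∑ z : Z, δ / (1 + ∑ z : Z, d z z₀) * d z z₀ ≤ δ := by
      rw [← mul_sum, div_mul_eq_mul_div, div_le_iff₀ (by positivity)]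
      exact mul_le_mul_of_nonneg_left (by linarith) hδ.le
    rw [nsmul_eq_mul] at a1 a2
    linarith
  · have a1 := single_le_sum (f := fun e => (x (a e) - x (h (a e))) ^ 2)
      (fun _ _ => sq_nonneg _) he
    have a2 := single_le_sum (f := fun e => (x (b e) - x (h (b e))) ^ 2)
      (fun _ _ => sq_nonneg _) he
    have a3 := w2 ⟨e, he⟩ fun z => x z - x z₀
    simp only [sub_dotProduct, single_dotProduct, one_mul, sub_sub_sub_cancel_right] at a3
    simp only [dotProduct, ← pow_two, mul_sum] at a3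
    simp only [en, Pi.add_apply, add_mul, sum_add_distrib, q1 fun p => (x p.1 - x p.2) ^ 2,
      q2 fun p => (x p.1 - x p.2) ^ 2, q3 fun p => (x p.1 - x p.2) ^ 2,
      q4 fun p => (x p.1 - x p.2) ^ 2, one_mul]
    nlinarith [sq_nonneg (x (a e) - x (h (a e)) - (x (h (a e)) - x (h (b e)))),
      sq_nonneg (x (a e) - x (h (a e)) + (x (b e) - x (h (b e)))),
      sq_nonneg (x (h (a e)) - x (h (b e)) + (x (b e) - x (h (b e))))]

omit [Fintype V] in
theorem exists_sep (hd : IsPm d) {ρ : ℝ} (hρ : 0 ≤ ρ) (U : Finset V) : ∃ Z ⊆ U,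
    (∀ z ∈ Z, ∀ z' ∈ Z, z ≠ z' → ρ ≤ d z z') ∧ ∀ u ∈ U, ∃ z ∈ Z, d u z ≤ ρ := by
  induction U using Finset.induction_on with
  | empty => exact ⟨∅, subset_rfl, by simp, by simp⟩
  | insert u U _ ih =>
    obtain ⟨Z, h1, h2, h3⟩ := ih
    by_cases h : ∃ z ∈ Z, d u z ≤ ρ
    · exact ⟨Z, h1.trans (subset_insert _ _), h2, forall_mem_insert _ _ _ |>.2 ⟨h, h3⟩⟩
    push Not at h
    refine ⟨insert u Z, insert_subset_insert _ h1, ?_, forall_mem_insert _ _ _ |>.2
      ⟨⟨u, mem_insert_self _ _, (hd.refl u).trans_le hρ⟩, fun v hv =>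
        (h3 v hv).imp fun z hz => ⟨mem_insert_of_mem hz.1, hz.2⟩⟩⟩
    simp only [forall_mem_insert]
    exact ⟨⟨fun e => absurd rfl e, fun z hz _ => (h z hz).le⟩,
      fun z hz => ⟨fun _ => (h z hz).le.trans_eq (hd.symm _ _), h2 z hz⟩⟩

omit [DecidableEq E] in
theorem exists_min_skel (hd : IsPm d) {A : Finset E} {P : Setoid V} {r β : ℝ} (hr : 0 ≤ r)
    (hβ : 0 ≤ β) (hA : ∀ e ∈ A, d (a e) (b e) ≤ β) (hc : ∀ x y, P x y →
      Relation.EqvGen (fun u v => P u v ∧ ∃ e ∈ A, a e = u ∧ b e = v) x y) :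
    ∃ g : ℝ, 0 ≤ g ∧ g ≤ Fintype.card E * β ∧
      (∃ Y Γ, Skel d P r β Y Γ ∧ ∑ p ∈ Γ, d p.1 p.2 = g) ∧
      ∀ Y Γ, Skel d P r β Y Γ → g ≤ ∑ p ∈ Γ, d p.1 p.2 := by
  classical
  have h0 : Skel d P r β univ ((A.filter fun e => P (a e) (b e)).image fun e => (a e, b e)) := by
    refine ⟨fun p hp => ?_, fun x _ y _ h => (hc x y h).mono ?_,
      fun v => ⟨v, mem_univ _, P.refl' v, (hd.refl v).trans_le hr⟩⟩
    · obtain ⟨e, he, rfl⟩ := mem_image.1 hp
      exact ⟨mem_univ _, mem_univ _, (mem_filter.1 he).2, hA e (mem_filter.1 he).1⟩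
    · rintro _ _ ⟨h, e, he, rfl, rfl⟩
      exact mem_image_of_mem _ (mem_filter.2 ⟨he, h⟩)
  obtain ⟨q, h1, h2⟩ := Set.exists_min_image
    {q : Finset V × Finset (V × V) | Skel d P r β q.1 q.2} (fun q => ∑ p ∈ q.2, d p.1 p.2)
    (Set.toFinite _) ⟨(_, _), h0⟩
  refine ⟨_, sum_nonneg fun p _ => hd.nonneg _ _, (h2 (_, _) h0).trans ?_, ⟨_, _, h1, rfl⟩,
    fun Y Γ h => h2 (Y, Γ) h⟩
  refine (sum_le_card_nsmul _ _ β fun p hp => (h0.mem p hp).2.2.2).trans ?_
  rw [nsmul_eq_mul]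
  exact mul_le_mul_of_nonneg_right (Nat.cast_le.2 (card_image_le.trans (card_le_univ _))) hβ

theorem tele_three {g u w : ℕ → ℝ} (h : ∀ i, g (i + 3) + u i ≤ g i + w i) (I : ℕ) :
    ∑ i ∈ range I, u i + (g I + g (I + 1) + g (I + 2)) ≤ g 0 + g 1 + g 2 + ∑ i ∈ range I, w i := by
  induction I with
  | zero => simp
  | succ I ih =>
    rw [sum_range_succ, sum_range_succ]
    linarith [h I]

theorem geom_ite {t : ℕ → ℝ} (h0 : ∀ i, 0 ≤ t i) (h : ∀ i, 2 * t i ≤ t (i + 1)) {x : ℝ}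
    (hx : 0 ≤ x) (I : ℕ) : ∑ i ∈ range I, (if t i / 4 < x then t i else 0) ≤ 8 * x := by
  have h1 : ∀ I, ∑ i ∈ range I, (if t i / 4 < x then t i else 0) ≤ t I := fun I => by
    induction I with
    | zero => simpa using h0 0
    | succ I ih =>
      rw [sum_range_succ]
      split_ifs <;> linarith [h I, h0 I]
  induction I with
  | zero => simpa using hx
  | succ I ih =>
    rw [sum_range_succ]
    split_ifs <;> linarith [h1 I]

theorem exists_scale {t : ℕ → ℝ} {x : ℝ} (h0 : t 0 < x) {I : ℕ} (h : x ≤ t I) :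
    ∃ i < I, t i < x ∧ x ≤ t (i + 1) := by
  induction I with
  | zero => exact absurd h0 (not_lt.2 h)
  | succ I ih =>
    rcases le_or_gt x (t I) with h1 | h1
    · exact (ih h1).imp fun i hi => ⟨by omega, hi.2⟩
    · exact ⟨I, by omega, h1, h⟩

omit [Fintype V] [DecidableEq V] in
theorem geo_count {k j : ℕ} (hPC : PC a b univ (k + j)) {Pm : Finset E → Setoid V}
    (hP : Canon a b k Pm) {l : E → ℝ} (hl : ∀ e, 0 ≤ l e) (hl1 : ∑ e, l e = 1) {t : ℕ → ℝ}
    (h0 : ∀ i, 0 ≤ t i) (h : ∀ i, 2 * t i ≤ t (i + 1)) (I : ℕ) :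
    j * ∑ i ∈ range I, t i * ((nc (Pm (univ.filter fun f => l f ≤ t i / 4)) : ℝ) - 1) ≤ 8 := by
  classical
  have key : ∀ s : ℝ, (j : ℝ) * ((nc (Pm (univ.filter fun f => l f ≤ s)) : ℝ) - 1) ≤
      ∑ f, if s < l f then 1 else 0 := fun s => by
    have h1 := hPC (Pm (univ.filter fun f => l f ≤ s))
    have h2 := hP.few (univ.filter fun f => l f ≤ s)
    have h3 : (cross a b univ (Pm (univ.filter fun f => l f ≤ s))).card ≤
        (cross a b (univ.filter fun f => l f ≤ s) (Pm (univ.filter fun f => l f ≤ s))).card +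
          (univ.filter fun f => s < l f).card :=
      (card_le_card fun e he => by
        rcases le_or_gt (l e) s with h | h
        · exact mem_union_left _ (by simpa [cross, h] using he)
        · exact mem_union_right _ (by simpa using h)).trans (card_union_le _ _)
    have h4 : j * nc (Pm (univ.filter fun f => l f ≤ s)) ≤
        (univ.filter fun f => s < l f).card + j := by
      rw [add_mul] at h1
      omega
    rw [sum_boole, mul_sub, mul_one, sub_le_iff_le_add]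
    exact_mod_cast h4
  calc _ ≤ ∑ i ∈ range I, ∑ f, (if t i / 4 < l f then t i else 0) := by
        rw [mul_sum]
        refine sum_le_sum fun i _ => ?_
        rw [mul_left_comm]
        refine (mul_le_mul_of_nonneg_left (key _) (h0 i)).trans_eq ?_
        simp only [mul_sum, mul_ite, mul_one, mul_zero]
    _ ≤ ∑ f, 8 * l f := by
        rw [sum_comm]
        exact sum_le_sum fun f _ => geom_ite h0 h (hl f) I
    _ = 8 := by rw [← mul_sum, hl1, mul_one]

omit [DecidableEq V] in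
theorem nc_sub_nonneg [h : Nonempty V] (P : Setoid V) : (0 : ℝ) ≤ nc P - 1 :=
  have := h.map (Quotient.mk P)
  sub_nonneg.2 (by exact_mod_cast Nat.card_pos)

/-- One scale. -/
theorem geo_scale [Nonempty V] (hd : IsPm d) {k : ℕ} {Pm : Finset E → Setoid V}
    (hP : Canon a b k Pm) {Λ r δ g g' : ℝ} (hΛ : 10 ≤ Λ) (hr : 0 < r) (hδ : 0 < δ)
    {A A' : Finset E} (hA : A ⊆ A') (hA' : ∀ e, e ∈ A' ↔ d (a e) (b e) ≤ Λ ^ 4 * r / 4)
    (hg : ∃ Y Γ, Skel d (Pm A) r (Λ * r) Y Γ ∧ ∑ p ∈ Γ, d p.1 p.2 = g)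
    (hg' : ∀ Y Γ, Skel d (Pm A') (Λ ^ 3 * r) (Λ ^ 4 * r) Y Γ → g' ≤ ∑ p ∈ Γ, d p.1 p.2)
    (S : Finset E) (hS : ∀ e ∈ S, Λ * r < d (a e) (b e) ∧ d (a e) (b e) ≤ Λ ^ 2 * r) :
    ∃ u, g' + u ≤ g + 4 * Λ ^ 3 * (Λ * r * (nc (Pm A) - 1)) ∧
      Good d a b {e | e ∈ S ∧ ¬ Pm A (a e) (b e)}
        (k / Λ ^ 2 * (Λ ^ 4 * r * (nc (Pm A') - 1)) + 12 / Λ * ∑ e ∈ S, d (a e) (b e) +
          128 * Λ ^ 2 * u + δ) := by
  classical
  have hΛ0 : 0 < Λ := by linarith
  have p1 : 10 * r ≤ Λ * r := by gcongr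
  have p2 : 10 * (Λ * r) ≤ Λ ^ 2 * r := by rw [pow_two, mul_assoc]; gcongr
  have p3 : 10 * (Λ ^ 2 * r) ≤ Λ ^ 3 * r := by rw [pow_succ' Λ 2, mul_assoc]; gcongr
  have p4 : 10 * (Λ ^ 3 * r) ≤ Λ ^ 4 * r := by rw [pow_succ' Λ 3, mul_assoc]; gcongr
  obtain ⟨B, hB⟩ : ∃ B : Finset E, ∀ e, e ∈ B ↔ e ∈ S ∧ ¬ Pm A (a e) (b e) ∧ Pm A' (a e) (b e) :=
    ⟨S.filter _, fun e => mem_filter⟩
  obtain ⟨Z, z1, z2, z3⟩ := exists_sep hd (ρ := 6 * r) (by linarith) (B.image a ∪ B.image b)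
  obtain ⟨Y, Γ, hs, rfl⟩ := hg
  obtain ⟨Y', Γ', hs', h1⟩ := skel_step hd (hP.mono _ _ hA) hs hr (by linarith) (l := Λ ^ 2 * r)
    (R := Λ ^ 4 * r / 4) (r' := Λ ^ 3 * r) (β' := Λ ^ 4 * r) (by linarith) p3 (by linarith)
    (by linarith) (fun x y h => (hP.conn _ x y h).mono (by
      rintro _ _ ⟨h, e, he, rfl, rfl⟩
      exact ⟨h, (hA' e).1 he⟩)) z2 fun z hz => by
      rcases mem_union.1 (z1 hz) with h | h <;> obtain ⟨e, he, rfl⟩ := mem_image.1 h <;>
        obtain ⟨e1, e2, e3⟩ := (hB e).1 he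
      · exact ⟨b e, e2, e3, (hS e e1).2⟩
      · exact ⟨a e, fun h => e2 ((Pm A).symm' h), (Pm A').symm' e3, hd.symm _ _ ▸ (hS e e1).2⟩
  have hm := nc_sub_nonneg (Pm A)
  refine ⟨r * Z.card / 32, ?_, ?_⟩
  · have := mul_le_mul_of_nonneg_left (show Λ ^ 4 * r + Λ ^ 2 * r ≤ 2 * (Λ ^ 4 * r) by linarith) hm
    linarith [hg' _ _ hs']
  refine ((good_direct (l := Λ ^ 2 * r) (S ∩ cross a b A' (Pm A'))
    fun e he => (hS e (mem_inter.1 he).1).2).add (good_scale hd B Z (ρ := 6 * r) (l := Λ ^ 2 * r)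
      (by linarith) (by linarith) hδ (fun e he => (hS e ((hB e).1 he).1).2) z3)).mono
    (fun e he => ?_) ?_
  · by_cases h : Pm A' (a e) (b e)
    · exact .inr ((hB e).2 ⟨he.1, he.2, h⟩)
    · exact .inl (mem_inter.2 ⟨he.1, mem_filter.2
        ⟨(hA' e).2 (by linarith [(hS e he.1).2]), h⟩⟩)
  have b1 : ((S ∩ cross a b A' (Pm A')).card : ℝ) ≤ k * (nc (Pm A') - 1) := by
    rw [mul_sub, mul_one, le_sub_iff_add_le]
    exact_mod_cast (Nat.add_le_add_right (card_le_card inter_subset_right) k).trans (hP.few A')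
  have b2 : B.card * (Λ * r) ≤ ∑ e ∈ S, d (a e) (b e) := by
    rw [← nsmul_eq_mul]
    exact (card_nsmul_le_sum B _ _ fun e he => (hS e ((hB e).1 he).1).1.le).trans
      (sum_le_sum_of_subset_of_nonneg (fun e he => ((hB e).1 he).1) fun _ _ _ => hd.nonneg _ _)
  have b3 := mul_le_mul_of_nonneg_right b1 (show 0 ≤ Λ ^ 2 * r by linarith)
  have b4 := mul_le_mul_of_nonneg_left b2 (show 0 ≤ 12 / Λ by positivity)
  have b5 := mul_le_mul_of_nonneg_left (show 12 * r ≤ Λ ^ 2 * r by linarith)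
    (Nat.cast_nonneg Z.card)
  rw [show 12 / Λ * (B.card * (Λ * r)) = 12 * r * B.card by field_simp] at b4
  rw [show k / Λ ^ 2 * (Λ ^ 4 * r * (nc (Pm A') - 1)) = k * (nc (Pm A') - 1) * (Λ ^ 2 * r) by
    field_simp]
  linarith

theorem geo [Nonempty V] {k j : ℕ} (hj : 0 < j) (hPC : PC a b univ (k + j))
    {Pm : Finset E → Setoid V} (hP : Canon a b k Pm) {Λ ε : ℝ} (hΛ : 10 ≤ Λ)
    (hε : 3 * (12 / Λ + 8 * k / (j * Λ ^ 2) + 4096 * Λ ^ 5 / j) < ε) :
    ∃ τ > 0, ∀ d : V → V → ℝ, IsPm d → ∑ e, d (a e) (b e) = 1 → ∃ c : V × V → ℝ,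
      (∀ p, 0 ≤ c p) ∧ ∑ p, c p * d p.1 p.2 < 1 ∧ ∀ e,
        ¬ Pm (univ.filter fun f => d (a f) (b f) ≤ d (a e) (b e) / 2 - τ) (a e) (b e) →
          Dom c ε (a e) (b e) := by
  classical
  have hΛ0 : 0 < Λ := by linarith
  have hj0 : (0 : ℝ) < j := by exact_mod_cast hj
  have hε0 : 0 < ε := lt_of_le_of_lt (by positivity) hε
  obtain ⟨σ, hσ, hσε⟩ : ∃ σ > 0,
      3 * (12 / Λ + 8 * k / (j * Λ ^ 2) + 4096 * Λ ^ 5 / j + 2 * σ) < ε :=
    ⟨(ε - 3 * (12 / Λ + 8 * k / (j * Λ ^ 2) + 4096 * Λ ^ 5 / j)) / 12, by linarith, by linarith⟩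
  obtain ⟨K, hK⟩ : ∃ K : ℝ, K = Fintype.card E * (4 + 512 * Λ ^ 2 * (1 + Λ + Λ ^ 2)) := ⟨_, rfl⟩
  have hK0 : 0 ≤ K := by rw [hK]; positivity
  obtain ⟨τ, hτ, hτK⟩ : ∃ τ > 0, τ * K ≤ σ := ⟨σ / (K + 1), by positivity, by
    rw [div_mul_eq_mul_div, div_le_iff₀ (by positivity)]
    exact mul_le_mul_of_nonneg_left (by linarith) hσ.le⟩
  refine ⟨τ, hτ, fun d hd h1 => ?_⟩
  obtain ⟨t, ht⟩ : ∃ t : ℕ → ℝ, ∀ i, t i = 4 * τ * Λ ^ i := ⟨_, fun _ => rfl⟩
  have t0 : ∀ i, 0 < t i := fun i => by rw [ht]; positivity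
  have tm : Monotone t := fun i i' h => by
    rw [ht, ht]
    exact mul_le_mul_of_nonneg_left (pow_le_pow_right₀ (by linarith) h) (by positivity)
  have t1 : ∀ i n, Λ ^ (n + 1) * (t i / Λ) = t (i + n) := fun i n => by
    rw [ht, ht]
    field_simp
    ring
  obtain ⟨A, hA⟩ : ∃ A : ℕ → Finset E, ∀ i, A i = univ.filter fun f => d (a f) (b f) ≤ t i / 4 :=
    ⟨_, fun _ => rfl⟩
  have hA' : ∀ i e, e ∈ A i ↔ d (a e) (b e) ≤ t i / 4 := fun i e => by simp [hA]
  have hcount : ∀ I, ∑ i ∈ range I, t i * ((nc (Pm (A i)) : ℝ) - 1) ≤ 8 / j := fun I => by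
    rw [le_div_iff₀' hj0]
    simp only [hA]
    refine geo_count hPC hP (fun e => hd.nonneg _ _) h1 (fun i => (t0 i).le) (fun i => ?_) I
    rw [ht (i + 1), pow_succ, ← mul_assoc, ← ht, mul_comm]
    exact mul_le_mul_of_nonneg_left (by linarith) (t0 i).le
  choose g g0 g1 g2 g3 using fun i => exists_min_skel hd (r := t i / Λ) (β := t i)
    (div_pos (t0 i) hΛ0).le (t0 i).le (fun e he => ((hA' i e).1 he).trans (by linarith [t0 i]))
    (hP.conn (A i))
  obtain ⟨I, hI⟩ := pow_unbounded_of_one_lt (1 / (4 * τ)) (show 1 < Λ by linarith)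
  rw [div_lt_iff₀' (by positivity), ← ht] at hI
  obtain ⟨S, hS⟩ : ∃ S : ℕ → Finset E, ∀ i e, e ∈ S i ↔
      t i < d (a e) (b e) ∧ d (a e) (b e) ≤ t (i + 1) :=
    ⟨fun i => univ.filter _, fun i e => mem_filter.trans (and_iff_right (mem_univ _))⟩
  have e0 : ∀ i, Λ * (t i / Λ) = t i := fun i => by field_simp
  have e3 : ∀ i, Λ ^ 3 * (t i / Λ) = t (i + 3) / Λ := fun i => by
    rw [← t1 i 3]
    field_simp
    ring
  choose u u1 u2 using fun i => geo_scale hd hP hΛ (div_pos (t0 i) hΛ0)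
    (show 0 < σ / (I + 1) by positivity) (A := A i) (A' := A (i + 3)) (g := g i) (g' := g (i + 3))
    (fun e he => (hA' _ e).2 (((hA' _ e).1 he).trans (by linarith [tm (Nat.le_add_right i 3)])))
    (fun e => by rw [hA', t1]) (by rw [e0]; exact g2 i) (by rw [t1 i 3, e3]; exact g3 (i + 3)) (S i)
    fun e he => by rw [e0, t1]; exact (hS i e).1 he
  simp only [e0, t1 _ 3] at u1 u2
  obtain ⟨c, c0, c1, c2⟩ := (good_direct (d := d) (l := t 0)
    (univ.filter fun e => d (a e) (b e) ≤ t 0) fun e he => (mem_filter.1 he).2).add (Good.sum u2 I)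
  refine ⟨fun p => 3 / ε * c p, fun p => mul_nonneg (by positivity) (c0 p), ?_, fun e he x => ?_⟩
  · simp only [mul_assoc, ← mul_sum]
    rw [div_mul_eq_mul_div, div_lt_one hε0]
    refine lt_of_le_of_lt (mul_le_mul_of_nonneg_left (c1.trans ?_) (by norm_num)) hσε
    simp only [sum_add_distrib, ← mul_sum, sum_const, card_range, nsmul_eq_mul]
    have b1 := tele_three u1 I
    rw [← mul_sum] at b1
    have b2 : ∑ i ∈ range I, t (i + 3) * ((nc (Pm (A (i + 3))) : ℝ) - 1) ≤ 8 / j := by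
      refine le_trans ?_ (hcount (3 + I))
      rw [sum_range_add]
      simp only [add_comm 3]
      exact le_add_of_nonneg_left (sum_nonneg fun i _ => mul_nonneg (t0 i).le (nc_sub_nonneg _))
    have b3 : ∑ i ∈ range I, ∑ e ∈ S i, d (a e) (b e) ≤ 1 := by
      rw [← sum_biUnion, ← h1]
      · exact sum_le_sum_of_subset_of_nonneg (subset_univ _) fun _ _ _ => hd.nonneg _ _
      · refine fun i _ i' _ h => disjoint_left.2 fun e he he' => ?_
        rw [hS] at he he'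
        rcases lt_or_gt_of_ne h with h | h <;> linarith [tm (Nat.succ_le_of_lt h)]
    have b4 : I * (σ / (I + 1)) ≤ σ := by
      rw [mul_div_assoc', div_le_iff₀ (by positivity), mul_comm]
      exact mul_le_mul_of_nonneg_left (by linarith) hσ.le
    have b5 := mul_le_mul_of_nonneg_right (Nat.cast_le.2 (card_le_univ
      (univ.filter fun e => d (a e) (b e) ≤ t 0)) : (_ : ℝ) ≤ _) (t0 0).le
    have b6 := mul_le_mul_of_nonneg_left b2 (show 0 ≤ k / Λ ^ 2 by positivity)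
    have b7 := mul_le_mul_of_nonneg_left b3 (show 0 ≤ 12 / Λ by positivity)
    have b8 := mul_le_mul_of_nonneg_left (hcount I) (show 0 ≤ 4 * Λ ^ 3 by positivity)
    have b9 := mul_le_mul_of_nonneg_left (show ∑ i ∈ range I, u i ≤ Fintype.card E * t 0 +
      Fintype.card E * t 1 + Fintype.card E * t 2 + 4 * Λ ^ 3 * (8 / j) by
        linarith [g0 I, g0 (I + 1), g0 (I + 2), g1 0, g1 1, g1 2])
      (show 0 ≤ 128 * Λ ^ 2 by positivity)
    have b10 : Fintype.card E * t 0 + 128 * Λ ^ 2 * (Fintype.card E * t 0 + Fintype.card E * t 1 +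
        Fintype.card E * t 2 + 4 * Λ ^ 3 * (8 / j)) = τ * K + 4096 * Λ ^ 5 / j := by
      rw [hK, ht, ht, ht]
      ring
    rw [show k / Λ ^ 2 * (8 / j) = 8 * k / (j * Λ ^ 2) by field_simp] at b6
    linarith
  · refine (c2 e ?_ x).trans_eq ?_
    · rcases le_or_gt (d (a e) (b e)) (t 0) with h | h
      · exact .inl (mem_filter.2 ⟨mem_univ _, h⟩)
      obtain ⟨i, hi, h2⟩ := exists_scale h (I := I) (le_trans (h1 ▸ single_le_sum
        (f := fun e => d (a e) (b e)) (fun _ _ => hd.nonneg _ _) (mem_univ e)) hI.le)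
      refine .inr ⟨i, hi, (hS i e).2 h2, fun h3 => he (hP.mono _ _ (fun f hf => ?_) h3)⟩
      have h4 := tm (Nat.zero_le i)
      rw [ht 0, pow_zero] at h4
      exact mem_filter.2 ⟨mem_univ _, by linarith [(hA' i f).1 hf, h2.1]⟩
    · simp only [en, mul_assoc, ← mul_sum]
      field_simp

end Vale.Agent.P061
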