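import Vale.Agent.P061.Sel

/-!
Halving a packing of connected spanning subgraphs.

Plan. If `m = 0` trivial. Let `χ e = Pi.single (a e) 1 - Pi.single (b e) 1`, fix `v₀ : V`. Index set
`n = Fin m × V`; `o i = Pi.single (i, v₀) 1`; `u e (i, v) = χ e v` if `e ∈ T (i, c)` for some `c`, else `0`.
`B₁ = ⋃ T (i, true)`, `B₂ = ⋃ T (i, false)` span (`Conn` with `S = {v | y (i, v) ≠ 0}`). `weights` with
`p = 1/2 + σ`, rescale `u e` by `√(w e)`. Second system: `a' e = χ e` for `e` in some `T i` and `0`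
otherwise; `J = E ⊕ (V × V) ⊕ V` with vectors `a' e`, `√(σ c p) • (single p.1 1 - single p.2 1)`,
`√η • single v 1`, `η = σ / card V`. Apply `sel` with `ε = σ³`, `s = σ`, `r = p (1 + σ) / (1 - σ)`,
`x₀ = r + σ (1 + σ) ≤ 1/2 + 7σ/2`. `T' i = B ∩ (T (i, true) ∪ T (i, false))`; if `S` is not
crossed test with `y (i', v) = if i' = i then ind S v - ind S v₀ else 0`. Cut bound: test with
`ind S`; `η card S ≤ σ ≤ σ card (cutS univ S)` for nonempty proper `S`.
-/

namespace Vale.Agent.P061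

open Finset Function

variable {V E : Type} [Fintype V] [DecidableEq V] [Fintype E] [DecidableEq E] {a b : E → V}

theorem halve_chi (u v : V) (y : V → ℝ) :
    (Pi.single u 1 - Pi.single v 1 : V → ℝ) ⬝ᵥ y = y u - y v := by
  simp [sub_dotProduct]

omit [Fintype V] in
theorem halve_ind_sq (S : Finset V) (u v : V) :
    (ind S u - ind S v) ^ 2 = if ¬ (u ∈ S ↔ v ∈ S) then 1 else 0 := by
  by_cases h : u ∈ S <;> by_cases h' : v ∈ S <;> simp [ind, h, h']

theorem halve_second [Nonempty V] (A : Finset E) {c : V × V → ℝ} (hc0 : ∀ p, 0 ≤ c p) {σ : ℝ}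
    (hσ : 0 < σ) : ∃ (a' : E → V → ℝ) (bb : E ⊕ (V × V) ⊕ V → V → ℝ),
      (∀ e y, a' e ⬝ᵥ y = if e ∈ A then y (a e) - y (b e) else 0) ∧
      (∀ y, (∀ j, bb j ⬝ᵥ y = 0) → y = 0) ∧
      ∀ y, ∑ j, (bb j ⬝ᵥ y) ^ 2 = ∑ e, (a' e ⬝ᵥ y) ^ 2 + σ * en c y +
        σ / Fintype.card V * ∑ v, y v ^ 2 := by
  have hη : 0 < σ / Fintype.card V := div_pos hσ (by exact_mod_cast Fintype.card_pos)
  refine ⟨fun e => if e ∈ A then Pi.single (a e) 1 - Pi.single (b e) 1 else 0,
    Sum.elim (fun e => if e ∈ A then Pi.single (a e) 1 - Pi.single (b e) 1 else 0)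
      (Sum.elim (fun p => √(σ * c p) • (Pi.single p.1 1 - Pi.single p.2 1))
        fun v => √(σ / Fintype.card V) • Pi.single v 1), fun e y => ?_, fun y hy => ?_,
    fun y => ?_⟩
  · by_cases h : e ∈ A
    · simp only [if_pos h, halve_chi]
    · simp only [if_neg h, zero_dotProduct]
  · ext v
    have := hy (.inr (.inr v))
    simp only [Sum.elim_inr, smul_dotProduct, single_dotProduct, one_mul, smul_eq_mul] at this
    exact (mul_eq_zero.1 this).resolve_left (Real.sqrt_pos.2 hη).ne'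
  · simp only [Fintype.sum_sum_type, Sum.elim_inl, Sum.elim_inr, smul_dotProduct, halve_chi,
      single_dotProduct, one_mul, smul_eq_mul, mul_pow, en, mul_sum,
      Real.sq_sqrt (mul_nonneg hσ.le (hc0 _)), Real.sq_sqrt hη.le, add_assoc, mul_assoc]

theorem halve [Nonempty V] {m : ℕ} {T : Fin m × Bool → Finset E} (hd : Pairwise (Disjoint on T))
    (hc : ∀ i, Conn a b (T i)) {c : V × V → ℝ} (hc0 : ∀ p, 0 ≤ c p)
    (hcut : ∀ S, en c (ind S) ≤ (cutS a b univ S).card) {σ : ℝ} (hσ : 0 < σ) (hσ1 : σ ≤ 1 / 10)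
    (hdom : ∀ i, ∀ e ∈ T i, Dom c (σ ^ 4) (a e) (b e)) :
    ∃ T' : Fin m → Finset E, Pairwise (Disjoint on T') ∧ (∀ i, Conn a b (T' i)) ∧
      ∀ S, ((cutS a b (univ.biUnion T') S).card : ℝ) ≤
        (1 + 11 * σ) / 2 * (cutS a b univ S).card := by
  obtain ⟨v₀⟩ := ‹Nonempty V›
  have : Nonempty V := ⟨v₀⟩
  let U : Fin m → Finset E := fun i => T (i, true) ∪ T (i, false)
  have hTU : ∀ i k, T (i, k) ⊆ U i := fun i k => by
    cases k
    exacts [subset_union_right, subset_union_left]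
  have hU : Pairwise (Disjoint on U) := fun i j h => by
    simp only [onFun, U, disjoint_union_left, disjoint_union_right]
    refine ⟨⟨hd ?_, hd ?_⟩, hd ?_, hd ?_⟩ <;> simp [h]
  let o : Fin m → Fin m × V → ℝ := fun i => Pi.single (i, v₀) 1
  let u : E → Fin m × V → ℝ := fun e q =>
    if e ∈ U q.1 then (Pi.single (a e) 1 - Pi.single (b e) 1 : V → ℝ) q.2 else 0
  have ho : ∀ i y, o i ⬝ᵥ y = y (i, v₀) := fun i y => by simp [o]
  have hu : ∀ e y, u e ⬝ᵥ y = ∑ i, if e ∈ U i then y (i, a e) - y (i, b e) else 0 := by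
    intro e y
    rw [dotProduct, Fintype.sum_prod_type]
    refine sum_congr rfl fun i _ => ?_
    split_ifs with h
    · simp only [u, if_pos h]
      exact halve_chi (a e) (b e) fun v => y (i, v)
    · simp [u, h]
  have hu' : ∀ i, ∀ e ∈ U i, ∀ y, u e ⬝ᵥ y = y (i, a e) - y (i, b e) := by
    intro i e he y
    rw [hu, sum_eq_single i (fun j _ hj => if_neg (disjoint_right.1 (hU hj) he)) (by simp),
      if_pos he]
  have hsp : ∀ (k : Bool) (y : Fin m × V → ℝ), (∀ i, o i ⬝ᵥ y = 0) →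
      (∀ e ∈ univ.biUnion fun i => T (i, k), u e ⬝ᵥ y = 0) → y = 0 := by
    intro k y h1 h2
    ext ⟨i, v⟩
    by_contra hv
    obtain ⟨e, he⟩ := hc (i, k) (univ.filter fun v => y (i, v) ≠ 0) ⟨v, by simpa using hv⟩
      fun h => by
        have : v₀ ∈ univ.filter fun v => y (i, v) ≠ 0 := h.symm ▸ mem_univ v₀
        exact (mem_filter.1 this).2 (ho i y ▸ h1 i)
    obtain ⟨h3, h4⟩ := mem_filter.1 he
    have h5 := h2 e (mem_biUnion.2 ⟨i, mem_univ _, h3⟩)
    rw [hu' i e (hTU _ _ h3), sub_eq_zero] at h5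
    simp [h5] at h4
  obtain ⟨w, hw, hw'⟩ := weights o u (B₁ := univ.biUnion fun i => T (i, true))
    (B₂ := univ.biUnion fun i => T (i, false)) (by
      simp only [disjoint_biUnion_left, disjoint_biUnion_right]
      exact fun i _ j _ => hd (by simp)) (hsp true) (hsp false) (p := 1 / 2 + σ) (by linarith)
  obtain ⟨a', bb, h1, h2, h3⟩ := halve_second (a := a) (b := b) (univ.biUnion T) hc0 hσ
  have hen : ∀ y, 0 ≤ en c y := fun y => sum_nonneg fun p _ => mul_nonneg (hc0 p) (sq_nonneg _)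
  have hV : (0 : ℝ) < Fintype.card V := by exact_mod_cast Fintype.card_pos
  have hs : 0 < 1 - σ := by linarith
  have hw0 : ∀ e y, (√(w e) • u e) ⬝ᵥ y = 0 ↔ u e ⬝ᵥ y = 0 := fun e y => by
    rw [smul_dotProduct, smul_eq_zero, or_iff_right (Real.sqrt_pos.2 (hw e)).ne']
  have hr : (1 / 2 + σ) * (1 + σ) / (1 - σ) + σ * (1 + σ) ≤ 1 / 2 + 7 * σ / 2 := by
    rw [← le_sub_iff_add_le, div_le_iff₀ hs]
    nlinarith [mul_pos hσ hσ, mul_pos (mul_pos hσ hσ) hσ]
  obtain ⟨B, hB1, hB2⟩ := sel o (fun e => √(w e) • u e) bb a' (p := 1 / 2 + σ) (ε := σ ^ 3)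
    (s := σ) (r := (1 / 2 + σ) * (1 + σ) / (1 - σ))
    (x₀ := (1 / 2 + σ) * (1 + σ) / (1 - σ) + σ * (1 + σ))
    (fun y k1 k2 => hsp true y k1 fun e _ => (hw0 e y).1 (k2 e))
    (fun e y => by
      simpa only [smul_dotProduct, smul_eq_mul, mul_pow, Real.sq_sqrt (hw _).le] using hw' e y)
    h2 (fun y => by
      rw [h3, add_assoc]
      exact le_add_of_nonneg_right (add_nonneg (mul_nonneg hσ.le (hen y)) (by positivity)))
    (fun e y => by
      have k1 : σ ^ 3 * (σ * en c y) ≤ σ ^ 3 * ∑ j, (bb j ⬝ᵥ y) ^ 2 := by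
        rw [h3]
        gcongr
        have : 0 ≤ σ / Fintype.card V * ∑ v, y v ^ 2 := by positivity
        have : 0 ≤ ∑ e, (a' e ⬝ᵥ y) ^ 2 := by positivity
        linarith
      refine le_trans ?_ k1
      rw [h1]
      split_ifs with he
      · obtain ⟨i, -, hi⟩ := mem_biUnion.1 he
        exact (hdom i e hi y).trans_eq (by ring)
      · simpa using mul_nonneg (pow_pos hσ 3).le (mul_nonneg hσ.le (hen y)))
    hσ (by linarith) (by positivity) (by rw [div_le_one hs]; nlinarith)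
    (lt_add_of_pos_right _ (by positivity)) (by positivity) (by positivity)
    (le_of_eq (by rw [add_sub_cancel_left]; field_simp))
  refine ⟨fun i => B ∩ U i, fun i j h => (hU h).mono inter_subset_right inter_subset_right,
    fun i S hS hS' => ?_, fun S => ?_⟩
  · by_contra hne
    have k := hB1 (fun q => if q.1 = i then ind S q.2 - ind S v₀ else 0)
      (fun j => by rw [ho]; simp) fun e he => (hw0 e _).2 (by
        rw [hu]
        refine sum_eq_zero fun j _ => ?_
        split_ifs with k1 k2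
        · subst k2
          have : a e ∈ S ↔ b e ∈ S := by
            by_contra k3
            exact hne ⟨e, mem_filter.2 ⟨mem_inter.2 ⟨he, k1⟩, k3⟩⟩
          simp [ind, this]
        · simp
        · rfl)
    obtain ⟨x, hx⟩ := hS
    obtain ⟨y, hy⟩ : ∃ y, y ∉ S := by
      by_contra k1
      push Not at k1
      exact hS' (eq_univ_of_forall k1)
    have k1 := congrFun k (i, x)
    have k2 := congrFun k (i, y)
    simp only [if_true, ind, if_pos hx, if_neg hy, Pi.zero_apply] at k1 k2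
    linarith
  · rcases (cutS a b (univ.biUnion fun i => B ∩ U i) S).eq_empty_or_nonempty with h0 | ⟨e, he⟩
    · rw [h0, card_empty, Nat.cast_zero]
      positivity
    have hN : (1 : ℝ) ≤ (cutS a b univ S).card := by
      exact_mod_cast card_pos.2 ⟨e, mem_filter.2 ⟨mem_univ _, (mem_filter.1 he).2⟩⟩
    have k1 : ((cutS a b (univ.biUnion fun i => B ∩ U i) S).card : ℝ) ≤
        ∑ e ∈ B, (a' e ⬝ᵥ ind S) ^ 2 := by
      rw [card_eq_sum_ones, Nat.cast_sum]
      refine (sum_congr rfl fun e he => ?_).trans_le (sum_le_sum_of_subset_of_nonneg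
        (fun e he => ?_) fun _ _ _ => sq_nonneg _)
      · obtain ⟨k1, k2⟩ := mem_filter.1 he
        obtain ⟨i, -, hi⟩ := mem_biUnion.1 k1
        have : e ∈ univ.biUnion T := by
          rcases mem_union.1 (mem_inter.1 hi).2 with h | h
          exacts [mem_biUnion.2 ⟨_, mem_univ _, h⟩, mem_biUnion.2 ⟨_, mem_univ _, h⟩]
        rw [h1, if_pos this, halve_ind_sq, if_pos k2, Nat.cast_one]
      · obtain ⟨i, -, hi⟩ := mem_biUnion.1 (mem_filter.1 he).1
        exact (mem_inter.1 hi).1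
    have k2 : ∑ e, (a' e ⬝ᵥ ind S) ^ 2 ≤ (cutS a b univ S).card := by
      rw [cutS, card_filter, Nat.cast_sum]
      refine sum_le_sum fun e _ => ?_
      rw [h1]
      split_ifs with k1 k2 k2
      · rw [halve_ind_sq, if_neg (not_not.2 k2), Nat.cast_zero]
      · rw [halve_ind_sq, if_pos k2, Nat.cast_one]
      · simp
      · simp
    have k3 : σ / Fintype.card V * ∑ v, ind S v ^ 2 ≤ σ := by
      rw [div_mul_eq_mul_div, div_le_iff₀ hV]
      refine mul_le_mul_of_nonneg_left ((sum_le_card_nsmul _ _ 1 fun v _ => ?_).trans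
        (by simp)) hσ.le
      by_cases h : v ∈ S <;> simp [ind, h]
    have k4 := hB2 (ind S)
    have k5 : ∑ j, (bb j ⬝ᵥ ind S) ^ 2 ≤ (1 + 2 * σ) * (cutS a b univ S).card := by
      rw [h3]
      nlinarith [mul_le_mul_of_nonneg_left (hcut S) hσ.le]
    calc _ ≤ _ := k1.trans k4
      _ ≤ (1 / 2 + 7 * σ / 2) * ((1 + 2 * σ) * (cutS a b univ S).card) :=
        mul_le_mul hr k5 (by positivity) (by positivity)
      _ ≤ _ := by
        rw [← mul_assoc]
        gcongr
        nlinarith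

end Vale.Agent.P061
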