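import Vale.Agent.P061.Defs
import Vale.Agent.P061.Extract
import Vale.Agent.P061.Halve

/-!
Iteration and the final statement.

Plan. `step`: let `σ₀` be small, `j = ⌈σ k⌉₊`, `Λ = 200 / σ⁴`; `extract` with `k - j`, `j`, `ε = σ⁴`
(`j ≥ σ k ≥ σ⁻³¹`), `nwt`, `m = (k - j) / 2`, choose `2 m` of the classes indexed by `Fin m × Bool`,
`halve`, `pc_of_pack`. `thin`: strong induction on `k` (for all edge types; pass to the subtype of
`E'`, transport `PC`, `Conn`, `cutS` along `Finset.map (Embedding.subtype _)`), with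
`σ k = k ^ (-1/32)`, claim `k card (cutS T S) ≤ C exp (-A σ k) card (cutS univ S)`; if `σ k > σ₀` take
`T = univ` (`nwt` gives `Conn`); otherwise `σ m ≥ (1 + 1/64) σ k` as `2 m ≤ k`.
`main`: `a e = (ends e).out.1`, `b e = (ends e).out.2`, `pc_of_cut` with `k / 2` (for `k = 1` take
`T = univ`), `k ≤ 3 (k / 2)`; `SimpleGraph.Connected.exists_isTree_le`, choose one copy for each
edge of the tree, `SimpleGraph.IsTree.card_edgeFinset`.
-/

namespace Vale.Agent.P061

open Finset Function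

theorem main_num {σ k k' j : ℝ} (h0 : 0 < σ) (h1 : σ ≤ 1 / 1000) (hk : 1 ≤ σ ^ 32 * k)
    (hj : σ * k ≤ j) (hk' : k' ≤ k) :
    3 * (12 / (200 / σ ^ 4) + 8 * k' / (j * (200 / σ ^ 4) ^ 2) + 4096 * (200 / σ ^ 4) ^ 5 / j)
      < σ ^ 4 := by
  have hk0 : 0 < k := (mul_pos_iff_of_pos_left (pow_pos h0 32)).1 (lt_of_lt_of_le one_pos hk)
  have hj0 : 0 < j := lt_of_lt_of_le (by positivity) hj
  have h4 : 0 < σ ^ 4 := by positivity
  have e1 : 12 / (200 / σ ^ 4) = 6 / 100 * σ ^ 4 := by field_simp; norm_num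
  have e2 : 8 * k' / (j * (200 / σ ^ 4) ^ 2) ≤ 1 / 100 * σ ^ 4 := by
    rw [div_le_iff₀ (by positivity)]
    have e : 1 / 100 * σ ^ 4 * (j * (200 / σ ^ 4) ^ 2) = 400 * j / σ ^ 4 := by
      field_simp; norm_num
    rw [e, le_div_iff₀ h4]
    have : σ ^ 4 ≤ σ := pow_le_of_le_one h0.le (by linarith) (by norm_num)
    nlinarith [mul_le_mul hk' this h4.le hk0.le]
  have e3 : 4096 * (200 / σ ^ 4) ^ 5 / j ≤ 1 / 100 * σ ^ 4 := by
    rw [div_le_iff₀ hj0, div_pow, ← mul_div_assoc, div_le_iff₀ (by positivity)]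
    have a1 : σ ^ 7 ≤ (1 / 1000) ^ 7 := pow_le_pow_left₀ h0.le h1 7
    have a2 : 1 ≤ σ ^ 7 * (σ ^ 24 * j) := by
      calc 1 ≤ σ ^ 31 * (σ * k) := by rw [← mul_assoc, ← pow_succ]; exact hk
        _ ≤ σ ^ 31 * j := by gcongr
        _ = _ := by ring
    have a3 : σ ^ 7 * (σ ^ 24 * j) ≤ (1 / 1000) ^ 7 * (σ ^ 24 * j) := by gcongr
    have e : 1 / 100 * σ ^ 4 * j * (σ ^ 4) ^ 5 = 1 / 100 * (σ ^ 24 * j) := by ring
    rw [e]
    norm_num at a3 ⊢
    linarith
  rw [e1]
  linarith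

theorem step : ∃ σ₀ > 0, ∀ (V E : Type) [Fintype V] [DecidableEq V] [Fintype E] [DecidableEq E]
    [Nonempty V] (a b : E → V) (k : ℕ) (σ : ℝ), 0 < σ → σ ≤ σ₀ → 1 ≤ σ ^ 32 * k →
    PC a b univ k → ∃ (E' : Finset E) (m : ℕ), 2 * m ≤ k ∧ (1 - 2 * σ) * k ≤ 2 * m ∧
      PC a b E' m ∧ ∀ S, ((cutS a b E' S).card : ℝ) ≤
        (1 + 11 * σ) / 2 * (cutS a b univ S).card := by
  refine ⟨1 / 1000, by norm_num, fun V E _ _ _ _ _ a b k σ h0 h1 hk hPC => ?_⟩
  have hk0 : (0 : ℝ) ≤ k := Nat.cast_nonneg k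
  have hs : 1000 ≤ σ * k := by
    have a1 : σ ^ 31 ≤ σ := pow_le_of_le_one h0.le (by linarith) (by norm_num)
    have a2 : σ ^ 32 * k = σ ^ 31 * (σ * k) := by ring
    have a3 : 0 ≤ σ * k := by positivity
    nlinarith [mul_le_mul_of_nonneg_right (a1.trans h1) a3]
  have hj1 : σ * k ≤ ⌈σ * k⌉₊ := Nat.le_ceil _
  have hj2 : (⌈σ * k⌉₊ : ℝ) < σ * k + 1 := Nat.ceil_lt_add_one (by positivity)
  generalize ⌈σ * k⌉₊ = j at hj1 hj2
  have hj0 : 0 < j := by
    have : (0 : ℝ) < j := by linarith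
    exact_mod_cast this
  have hjk : j + 1 ≤ k := by
    have : (j : ℝ) + 1 ≤ k := by nlinarith
    exact_mod_cast this
  obtain ⟨k', rfl⟩ : ∃ k', k = k' + j := ⟨k - j, by omega⟩
  have h4 : σ ^ 4 ≤ 1 := pow_le_one₀ h0.le (by linarith)
  obtain ⟨F, c, hF, hc0, hcut, hdom⟩ := extract (by omega) hj0 hPC (Λ := 200 / σ ^ 4)
    (by rw [le_div_iff₀ (by positivity)]; linarith)
    (main_num h0 h1 hk hj1 (by push_cast; linarith [Nat.cast_nonneg (α := ℝ) j]))
  obtain ⟨T, hT, hd, hc⟩ := nwt hF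
  obtain ⟨ι⟩ : Nonempty (Fin (k' / 2) × Bool ↪ Fin k') :=
    Function.Embedding.nonempty_of_card_le (by simp; omega)
  obtain ⟨T', hd', hc', hcut'⟩ := halve (T := fun i => T (ι i))
    (fun i i' h => hd (ι.injective.ne h)) (fun i => hc _) hc0 hcut h0 (by linarith)
    fun i e he => hdom e (hT _ he)
  refine ⟨univ.biUnion T', k' / 2, by omega, ?_,
    pc_of_pack (fun i => subset_biUnion_of_mem T' (mem_univ i)) hd' hc', hcut'⟩
  have : (k' : ℝ) ≤ 2 * (k' / 2 : ℕ) + 1 := by
    have : k' ≤ 2 * (k' / 2) + 1 := by omega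
    exact_mod_cast this
  push_cast at hj1 hj2 hs ⊢
  nlinarith

section transport
variable {V E E' : Type} [DecidableEq V] (a b : E → V) (f : E' ↪ E)

theorem cutS_map (T : Finset E') (S : Finset V) :
    cutS a b (T.map f) S = (cutS (a ∘ f) (b ∘ f) T S).map f := by
  rw [cutS, filter_map]
  rfl

omit [DecidableEq V] in
theorem cross_map (T : Finset E') (P : Setoid V) :
    cross a b (T.map f) P = (cross (a ∘ f) (b ∘ f) T P).map f := by
  classical
  rw [cross, filter_map]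
  rfl

theorem cutS_mono {T T' : Finset E} (h : T ⊆ T') (S : Finset V) :
    cutS a b T S ⊆ cutS a b T' S := filter_subset_filter _ h

end transport

theorem thin : ∃ C : ℝ, 0 ≤ C ∧ ∀ (k : ℕ), 1 ≤ k → ∀ (V E : Type) [Fintype V] [DecidableEq V]
    [Fintype E] [DecidableEq E] [Nonempty V] (a b : E → V), PC a b univ k →
    ∃ T, Conn a b T ∧ ∀ S, (k : ℝ) * (cutS a b T S).card ≤ C * (cutS a b univ S).card := by
  obtain ⟨σ₀, hσ₀, hstep⟩ := step
  obtain ⟨s, hs⟩ : ∃ s : ℕ → ℝ, ∀ k : ℕ, 1 ≤ k → 0 < s k ∧ s k ^ 32 * k = 1 := by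
    refine ⟨fun k => ((k : ℝ)⁻¹) ^ ((32 : ℕ) : ℝ)⁻¹, fun k hk => ?_⟩
    have : (0 : ℝ) < k := by exact_mod_cast hk
    exact ⟨by positivity, by
      rw [Real.rpow_inv_natCast_pow (by positivity) (by norm_num), inv_mul_cancel₀ this.ne']⟩
  set σ₁ : ℝ := min σ₀ (1 / 4) with hσ₁
  have h1 : 0 < σ₁ := lt_min hσ₀ (by norm_num)
  set C : ℝ := (σ₁ ^ 32)⁻¹ * Real.exp 960 with hC
  have hC0 : 0 ≤ C := by positivity
  suffices h : ∀ (k : ℕ), 1 ≤ k → ∀ (V E : Type) [Fintype V] [DecidableEq V]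
      [Fintype E] [DecidableEq E] [Nonempty V] (a b : E → V), PC a b univ k →
      ∃ T, Conn a b T ∧ ∀ S, (k : ℝ) * (cutS a b T S).card ≤
        C * Real.exp (-960 * s k) * (cutS a b univ S).card by
    refine ⟨C, hC0, fun k hk V E _ _ _ _ _ a b hPC => ?_⟩
    obtain ⟨T, hT, hc⟩ := h k hk V E a b hPC
    refine ⟨T, hT, fun S => (hc S).trans ?_⟩
    have : Real.exp (-960 * s k) ≤ 1 := Real.exp_le_one_iff.2 (by linarith [(hs k hk).1])
    exact mul_le_mul_of_nonneg_right (mul_le_of_le_one_right hC0 this) (Nat.cast_nonneg _)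
  intro k
  induction k using Nat.strong_induction_on with
  | _ k ih =>
  intro hk V E _ _ _ _ _ a b hPC
  obtain ⟨hs0, hs1⟩ := hs k hk
  have hk1 : (1 : ℝ) ≤ k := by exact_mod_cast hk
  by_cases hσ : s k ≤ σ₁
  · have hq : s k ≤ 1 / 4 := hσ.trans (min_le_right _ _)
    obtain ⟨E', m, hm1, hm2, hPC', hcut⟩ :=
      hstep V E a b k (s k) hs0 (hσ.trans (min_le_left _ _)) hs1.ge hPC
    have hm0 : 1 ≤ m := by
      have : (0 : ℝ) < m := by nlinarith
      exact_mod_cast this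
    have hu : (univ : Finset E').map (Embedding.subtype _) = E' := by
      rw [univ_eq_attach, attach_map_val]
    obtain ⟨T, hT, hc⟩ := ih m (by omega) hm0 V E' (a ∘ Embedding.subtype _)
      (b ∘ Embedding.subtype _) fun P => by
        have := hPC' P
        rwa [← hu, cross_map, card_map] at this
    refine ⟨T.map (Embedding.subtype _), fun S h h' => ?_, fun S => ?_⟩
    · rw [cutS_map]
      exact map_nonempty.2 (hT S h h')
    have hc' := hc S
    rw [← card_map (Embedding.subtype _), ← card_map (Embedding.subtype _), ← cutS_map,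
      ← cutS_map, hu] at hc'
    obtain ⟨ht0, ht1⟩ := hs m hm0
    have hst : 65 / 64 * s k ≤ s m := by
      refine le_of_pow_le_pow_left₀ (n := 32) (by norm_num) ht0.le ?_
      have a1 : (2 * m : ℝ) ≤ k := by exact_mod_cast hm1
      have a2 : (0 : ℝ) < m := by exact_mod_cast hm0
      have a3 : (65 / 64 : ℝ) ^ 32 ≤ 2 := by norm_num
      have a4 : 0 < s k ^ 32 := by positivity
      rw [mul_pow]
      refine le_of_mul_le_mul_right ?_ a2
      rw [ht1]
      nlinarith [mul_le_mul_of_nonneg_right a3 (mul_pos a4 a2).le]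
    have he : Real.exp (-960 * s m) * ((1 + 4 * s k) * (1 + 11 * s k)) ≤
        Real.exp (-960 * s k) := by
      calc _ ≤ Real.exp (-960 * s m) * (Real.exp (4 * s k) * Real.exp (11 * s k)) := by
            gcongr
            · linarith [Real.add_one_le_exp (4 * s k)]
            · linarith [Real.add_one_le_exp (11 * s k)]
        _ ≤ _ := by
            rw [← Real.exp_add, ← Real.exp_add]
            exact Real.exp_le_exp.2 (by linarith)
    have hkm : (k : ℝ) ≤ (1 + 4 * s k) * (2 * m) := by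
      have : 1 ≤ (1 + 4 * s k) * (1 - 2 * s k) := by nlinarith
      calc (k : ℝ) ≤ (1 + 4 * s k) * (1 - 2 * s k) * k := le_mul_of_one_le_left (by linarith) this
        _ ≤ _ := by rw [mul_assoc]; gcongr
    calc _ ≤ (1 + 4 * s k) * (2 * m) * ((cutS a b (T.map (Embedding.subtype _)) S).card : ℝ) := by
          gcongr
      _ = (1 + 4 * s k) * 2 * (m * ((cutS a b (T.map (Embedding.subtype _)) S).card : ℝ)) := by
          ring
      _ ≤ (1 + 4 * s k) * 2 * (C * Real.exp (-960 * s m) *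
            ((1 + 11 * s k) / 2 * (cutS a b univ S).card)) := by
          exact mul_le_mul_of_nonneg_left
            (hc'.trans (mul_le_mul_of_nonneg_left (hcut S) (by positivity))) (by positivity)
      _ = C * (Real.exp (-960 * s m) * ((1 + 4 * s k) * (1 + 11 * s k))) *
            (cutS a b univ S).card := by ring
      _ ≤ _ := by gcongr
  · obtain ⟨T, -, -, hc⟩ := nwt hPC
    refine ⟨T ⟨0, hk⟩, hc _, fun S => ?_⟩
    have a1 : σ₁ ^ 32 ≤ s k ^ 32 := pow_le_pow_left₀ h1.le (not_le.1 hσ).le 32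
    have a2 : (k : ℝ) ≤ (σ₁ ^ 32)⁻¹ := by
      rw [le_inv_comm₀ (by linarith) (by positivity), ← eq_inv_of_mul_eq_one_left hs1]
      exact a1
    have a3 : s k ≤ 1 := by
      refine le_of_pow_le_pow_left₀ (n := 32) (by norm_num) zero_le_one ?_
      have : 0 < s k ^ 32 := by positivity
      rw [one_pow]
      nlinarith
    have a4 : 1 ≤ Real.exp 960 * Real.exp (-960 * s k) := by
      rw [← Real.exp_add]
      exact Real.one_le_exp (by linarith)
    refine mul_le_mul ?_ (Nat.cast_le.2 (card_le_card (cutS_mono a b (subset_univ _) S)))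
      (Nat.cast_nonneg _) (by positivity)
    rw [hC, mul_assoc]
    exact a2.trans (le_mul_of_one_le_right (by positivity) a4)

theorem main : ∃ C : ℝ, ∀ (V E : Type) [Fintype V] [DecidableEq V] [Fintype E] [DecidableEq E]
    (ends : E → Sym2 V) (k : ℕ), 1 ≤ k → 2 ≤ Fintype.card V → (∀ e, ¬ (ends e).IsDiag) →
    EdgeConnected ends k → ∃ T, IsSpanningTree ends T ∧ ∀ S : Finset V, S.Nonempty → S ≠ univ →
      ((cut ends T S).card : ℝ) ≤ C / k * (cut ends univ S).card := by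
  classical
  obtain ⟨C, hC, hthin⟩ := thin
  refine ⟨3 * C + 1, fun V E _ _ _ _ ends k hk hV _ hcon => ?_⟩
  have : Nonempty V := Fintype.card_pos_iff.1 (by omega)
  have hex : ∀ e, ∃ u v, ends e = s(u, v) := fun e => by
    induction ends e using Sym2.ind with
    | h u v => exact ⟨u, v, rfl⟩
  choose a b hab using hex
  have hcut : ∀ T S, cut ends T S = cutS a b T S := by
    intro T S
    refine filter_congr fun e _ => ?_
    rw [hab]
    constructor
    · rintro ⟨u, hu, v, hv, h⟩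
      rcases Sym2.eq_iff.1 h with ⟨h1, h2⟩ | ⟨h1, h2⟩ <;> simp [h1, h2, hu, hv]
    · intro h
      by_cases ha : a e ∈ S
      · exact ⟨a e, ha, b e, fun hb => h (iff_of_true ha hb), rfl⟩
      · exact ⟨b e, by_contra fun hb => h (iff_of_false ha hb), a e, ha, Sym2.eq_swap⟩
  obtain ⟨T₀, hT₀, hb⟩ : ∃ T, Conn a b T ∧ ∀ S, (k : ℝ) * (cutS a b T S).card ≤
      (3 * C + 1) * (cutS a b univ S).card := by
    rcases Nat.lt_or_ge k 2 with h2 | h2
    · obtain rfl : k = 1 := by omega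
      refine ⟨univ, fun S h h' => ?_, fun S => ?_⟩
      · rw [← hcut, ← card_pos]
        exact hcon S h h'
      · rw [Nat.cast_one]
        gcongr
        linarith
    · obtain ⟨T, hT, hc⟩ := hthin (k / 2) (by omega) V E a b (pc_of_cut fun S h h' => by
        rw [← hcut]
        exact le_trans (by omega) (hcon S h h'))
      refine ⟨T, hT, fun S => ?_⟩
      have a1 : (k : ℝ) ≤ 3 * (k / 2 : ℕ) := by
        have : k ≤ 3 * (k / 2) := by omega
        exact_mod_cast this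
      have a2 := hc S
      have a3 : (0 : ℝ) ≤ (cutS a b univ S).card := Nat.cast_nonneg _
      nlinarith [mul_le_mul_of_nonneg_right a1 (Nat.cast_nonneg (α := ℝ) (cutS a b T S).card)]
  have hG : (SimpleGraph.fromEdgeSet (ends '' T₀)).Connected := by
    obtain ⟨v₀⟩ := ‹Nonempty V›
    refine (SimpleGraph.connected_iff_exists_forall_reachable _).2 ⟨v₀, fun w => ?_⟩
    by_contra hw
    obtain ⟨e, he⟩ := hT₀ (univ.filter fun v =>
      (SimpleGraph.fromEdgeSet (ends '' T₀)).Reachable v₀ v) ⟨v₀, by simp⟩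
      fun h => hw (mem_filter.1 (h ▸ mem_univ w)).2
    obtain ⟨he1, he2⟩ := mem_filter.1 he
    simp only [mem_filter, mem_univ, true_and] at he2
    have hadj : (SimpleGraph.fromEdgeSet (ends '' T₀)).Adj (a e) (b e) :=
      (SimpleGraph.fromEdgeSet_adj _).2 ⟨⟨e, he1, hab e⟩, fun h => he2 (by rw [h])⟩
    exact he2 ⟨fun h => h.trans hadj.reachable, fun h => h.trans hadj.symm.reachable⟩
  obtain ⟨H, hH, hTree⟩ := hG.exists_isTree_le
  have hex : ∀ x : H.edgeFinset, ∃ e ∈ T₀, ends e = x := fun x => by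
    have := SimpleGraph.edgeSet_mono hH (SimpleGraph.mem_edgeFinset.1 x.2)
    rw [SimpleGraph.edgeSet_fromEdgeSet] at this
    exact this.1
  choose g hg1 hg2 using hex
  have hgi : Injective g := fun x y h => Subtype.ext (by rw [← hg2, ← hg2, h])
  refine ⟨univ.image g, ⟨?_, ?_, ?_⟩, fun S _ _ => ?_⟩
  · rw [card_image_of_injective _ hgi, card_univ, Fintype.card_coe]
    exact hTree.card_edgeFinset
  · intro e he e' he' h
    obtain ⟨x, -, rfl⟩ := mem_image.1 he
    obtain ⟨y, -, rfl⟩ := mem_image.1 he'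
    rw [hg2, hg2] at h
    rw [Subtype.ext h]
  · have : ends '' (univ.image g : Finset E) = H.edgeSet := by
      ext x
      constructor
      · rintro ⟨e, he, rfl⟩
        obtain ⟨y, -, rfl⟩ := mem_image.1 he
        rw [hg2]
        exact SimpleGraph.mem_edgeFinset.1 y.2
      · intro hx
        exact ⟨g ⟨x, SimpleGraph.mem_edgeFinset.2 hx⟩, mem_image_of_mem _ (mem_univ _), hg2 _⟩
    rwa [this, SimpleGraph.fromEdgeSet_edgeSet]
  · have hk0 : (0 : ℝ) < k := by exact_mod_cast hk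
    rw [hcut, hcut, div_mul_eq_mul_div, le_div_iff₀ hk0, mul_comm]
    refine le_trans ?_ (hb S)
    gcongr
    refine cutS_mono a b (fun e he => ?_) S
    obtain ⟨y, -, rfl⟩ := mem_image.1 he
    exact hg1 y

end Vale.Agent.P061
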