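import Vale.Agent.P061.Basic

/-!
Partitions and the tree packing theorem of Tutte and Nash-Williams.

Plan. `W P = {f : V → ℚ | P ≤ Setoid.ker f}` is a subspace isomorphic to `Quotient P → ℚ`, so
`finrank (W P) = nc P`; `W (P ⊔ Q) = W P ⊓ W Q` (`sup_le_iff`), `W P ⊔ W Q ≤ W (P ⊓ Q)`,
`W Q ≤ W P ↔ P ≤ Q`; use `Submodule.finrank_sup_add_finrank_inf_eq`, `finrank_lt_finrank_of_lt`.
`nwt` (argument of Rado and Welsh): for lists `L : E → Finset (Fin k)` let (H) be: for all
`P : Fin k → Setoid V`, `∑ i, nc (P i) ≤ card {e ∈ A | ∃ i ∈ L e, ¬ P i (a e) (b e)} + k`.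
(H) holds for `L = univ` (apply `PC` to the infimum of the `P i`, `nc` is antitone). If `i ≠ j` are
in `L e`, then erasing `i` or erasing `j` from `L e` keeps (H): otherwise take violating tuples
`P`, `Q`, apply (H) to `P ⊓ Q` and `P ⊔ Q`; the edge sets are contained in the union and in the
intersection of the sets `X P`, `X Q` counted with the erased lists, plus the edge `e` in the union
only; add and use `nc_submod`. Induct on `∑ e, card (L e)`. When all lists have at most one element put
`T i = {e ∈ A | i ∈ L e}`; (H) for `P i = ker (· ∈ S)`, `P j = ⊤` gives `Conn`.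
`pc_of_pack`: for `Conn T` the linear map `W P → (cross T P → ℚ)`, `f ↦ f (a e) - f (b e)` has only
constants in its kernel (use `S = {v | f v = f v₀}`), so `nc P ≤ card (cross T P) + 1`; sum.
`pc_of_cut`: if `nc P ≥ 2` each class is a nonempty proper set; each crossing edge leaves exactly
two classes (double counting over `Quotient P`).
-/

namespace Vale.Agent.P061

open Finset Function

variable {V E : Type} [Fintype V] [DecidableEq V] [Fintype E] [DecidableEq E] {a b : E → V}

/-- Functions that are constant on the classes of `P`. -/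
def partW (P : Setoid V) : Submodule ℚ (V → ℚ) :=
  LinearMap.range (LinearMap.funLeft ℚ ℚ (Quotient.mk P))

omit [Fintype V] [DecidableEq V] in
theorem mem_partW {P : Setoid V} {f : V → ℚ} : f ∈ partW P ↔ P ≤ Setoid.ker f := by
  constructor
  · rintro ⟨g, rfl⟩ x y hxy
    show g (Quotient.mk P x) = g (Quotient.mk P y)
    rw [Quotient.sound hxy]
  · intro h
    exact ⟨Quotient.lift f fun x y hxy => h hxy, rfl⟩

omit [DecidableEq V] in
theorem finrank_partW (P : Setoid V) : Module.finrank ℚ (partW P) = nc P := by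
  classical
  rw [partW, LinearMap.finrank_range_of_inj
    (LinearMap.funLeft_injective_of_surjective ℚ ℚ _ Quotient.mk_surjective),
    Module.finrank_fintype_fun_eq_card, nc, Nat.card_eq_fintype_card]

omit [Fintype V] [DecidableEq V] in
theorem partW_anti {P Q : Setoid V} (h : P ≤ Q) : partW Q ≤ partW P :=
  fun _ hf => mem_partW.2 (h.trans (mem_partW.1 hf))

omit [DecidableEq V] in
theorem nc_anti_part {P Q : Setoid V} (h : P ≤ Q) : nc Q ≤ nc P := by
  rw [← finrank_partW, ← finrank_partW]
  exact Submodule.finrank_mono (partW_anti h)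

theorem nc_submod (P Q : Setoid V) : nc P + nc Q ≤ nc (P ⊓ Q) + nc (P ⊔ Q) := by
  have h1 : partW (P ⊔ Q) = partW P ⊓ partW Q := by
    ext f
    rw [Submodule.mem_inf, mem_partW, mem_partW, mem_partW, sup_le_iff]
  have h2 : partW P ⊔ partW Q ≤ partW (P ⊓ Q) :=
    sup_le (partW_anti inf_le_left) (partW_anti inf_le_right)
  have h3 := Submodule.finrank_mono h2
  have h4 := Submodule.finrank_sup_add_finrank_inf_eq (partW P) (partW Q)
  rw [← h1, finrank_partW, finrank_partW, finrank_partW] at h4
  rw [finrank_partW] at h3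
  omega

theorem nc_lt {P Q : Setoid V} (h : P < Q) : nc Q < nc P := by
  classical
  rw [← finrank_partW, ← finrank_partW]
  refine Submodule.finrank_lt_finrank_of_lt (lt_of_le_of_ne (partW_anti h.le) fun he => ?_)
  refine h.not_ge fun x y hxy => ?_
  have h1 : (fun v => if P x v then (1 : ℚ) else 0) ∈ partW P := by
    refine mem_partW.2 fun u v huv => ?_
    have : P x u ↔ P x v := ⟨fun h => P.trans h huv, fun h => P.trans h (P.symm huv)⟩
    show (if P x u then (1 : ℚ) else 0) = if P x v then 1 else 0
    simp only [this]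
  rw [← he] at h1
  have h2 : (if P x x then (1 : ℚ) else 0) = if P x y then 1 else 0 := mem_partW.1 h1 hxy
  rw [if_pos (P.refl x)] at h2
  by_contra hn
  rw [if_neg hn] at h2
  exact one_ne_zero h2

theorem nc_top [Nonempty V] : nc (⊤ : Setoid V) = 1 := by
  rw [nc, Nat.card_eq_one_iff_unique]
  refine ⟨⟨fun x y => ?_⟩, ⟨Quotient.mk _ (Classical.arbitrary V)⟩⟩
  induction x using Quotient.inductionOn
  induction y using Quotient.inductionOn
  exact Quotient.sound trivial

open Classical in
/-- Edges that cross one of the partitions in their list. -/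
noncomputable def listX {k : ℕ} (a b : E → V) (A : Finset E) (L : E → Finset (Fin k))
    (P : Fin k → Setoid V) : Finset E :=
  A.filter fun e => ∃ i ∈ L e, ¬ P i (a e) (b e)

omit [Fintype V] [DecidableEq V] [Fintype E] [DecidableEq E] in
theorem mem_listX {k : ℕ} {A : Finset E} {L : E → Finset (Fin k)} {P : Fin k → Setoid V} {e : E} :
    e ∈ listX a b A L P ↔ e ∈ A ∧ ∃ i ∈ L e, ¬ P i (a e) (b e) := by
  classical
  simp only [listX, mem_filter]

/-- The condition of Rado and Welsh. -/
def ListH {k : ℕ} (a b : E → V) (A : Finset E) (L : E → Finset (Fin k)) : Prop :=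
  ∀ P : Fin k → Setoid V, ∑ i, nc (P i) ≤ (listX a b A L P).card + k

omit [Fintype E] in
theorem listH_step {k : ℕ} {A : Finset E} {L : E → Finset (Fin k)} (h : ListH a b A L) {e₀ : E}
    {i j : Fin k} (hij : i ≠ j) :
    ListH a b A (update L e₀ ((L e₀).erase i)) ∨ ListH a b A (update L e₀ ((L e₀).erase j)) := by
  by_contra hc
  rw [not_or] at hc
  obtain ⟨h1, h2⟩ := hc
  simp only [ListH, not_forall, not_le] at h1 h2
  obtain ⟨P, hP⟩ := h1
  obtain ⟨Q, hQ⟩ := h2
  set X := listX a b A (update L e₀ ((L e₀).erase i)) P with hX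
  set Y := listX a b A (update L e₀ ((L e₀).erase j)) Q with hY
  have k1 := h fun l => P l ⊓ Q l
  have k2 := h fun l => P l ⊔ Q l
  have k3 : ∑ l, nc (P l) + ∑ l, nc (Q l) ≤ ∑ l, nc (P l ⊓ Q l) + ∑ l, nc (P l ⊔ Q l) := by
    rw [← sum_add_distrib, ← sum_add_distrib]
    exact sum_le_sum fun l _ => nc_submod _ _
  have k4 := card_union_add_card_inter X Y
  have a1 : ∀ e ∈ listX a b A L fun l => P l ⊓ Q l, e ≠ e₀ → e ∈ X ∪ Y := by
    intro e he hne
    obtain ⟨hA, l, hl, hn⟩ := mem_listX.1 he
    rw [mem_union, hX, hY, mem_listX, mem_listX, update_of_ne hne, update_of_ne hne]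
    by_cases hp : P l (a e) (b e)
    · exact Or.inr ⟨hA, l, hl, fun hq => hn ⟨hp, hq⟩⟩
    · exact Or.inl ⟨hA, l, hl, hp⟩
  have a2 : ∀ e ∈ listX a b A L fun l => P l ⊔ Q l, e ≠ e₀ → e ∈ X ∩ Y := by
    intro e he hne
    obtain ⟨hA, l, hl, hn⟩ := mem_listX.1 he
    rw [mem_inter, hX, hY, mem_listX, mem_listX, update_of_ne hne, update_of_ne hne]
    exact ⟨⟨hA, l, hl, fun hp => hn ((le_sup_left : P l ≤ P l ⊔ Q l) hp)⟩,
      ⟨hA, l, hl, fun hq => hn ((le_sup_right : Q l ≤ P l ⊔ Q l) hq)⟩⟩
  by_cases h0 : e₀ ∈ listX a b A L fun l => P l ⊔ Q l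
  · have b0 : e₀ ∈ X ∪ Y := by
      obtain ⟨hA, l, hl, hn⟩ := mem_listX.1 h0
      rw [mem_union, hX, hY, mem_listX, mem_listX, update_self, update_self]
      by_cases hli : l = i
      · exact Or.inr ⟨hA, l, mem_erase.2 ⟨hli ▸ hij, hl⟩,
          fun hq => hn ((le_sup_right : Q l ≤ P l ⊔ Q l) hq)⟩
      · exact Or.inl ⟨hA, l, mem_erase.2 ⟨hli, hl⟩,
          fun hp => hn ((le_sup_left : P l ≤ P l ⊔ Q l) hp)⟩
    have b1 : (listX a b A L fun l => P l ⊓ Q l) ⊆ X ∪ Y := fun e he => by
      by_cases hne : e = e₀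
      · exact hne ▸ b0
      · exact a1 e he hne
    have b2 : (listX a b A L fun l => P l ⊔ Q l) ⊆ insert e₀ (X ∩ Y) := fun e he => by
      by_cases hne : e = e₀
      · exact mem_insert.2 (Or.inl hne)
      · exact mem_insert.2 (Or.inr (a2 e he hne))
    have c1 := card_le_card b1
    have c2 := (card_le_card b2).trans (card_insert_le _ _)
    omega
  · have b1 : (listX a b A L fun l => P l ⊓ Q l) ⊆ insert e₀ (X ∪ Y) := fun e he => by
      by_cases hne : e = e₀
      · exact mem_insert.2 (Or.inl hne)
      · exact mem_insert.2 (Or.inr (a1 e he hne))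
    have b2 : (listX a b A L fun l => P l ⊔ Q l) ⊆ X ∩ Y := fun e he =>
      a2 e he fun hne => h0 (hne ▸ he)
    have c1 := (card_le_card b1).trans (card_insert_le _ _)
    have c2 := card_le_card b2
    omega

theorem listH_small {k : ℕ} {A : Finset E} (n : ℕ) : ∀ L : E → Finset (Fin k),
    ∑ e, (L e).card = n → ListH a b A L → ∃ L' : E → Finset (Fin k),
      ListH a b A L' ∧ ∀ e, (L' e).card ≤ 1 := by
  induction n using Nat.strong_induction_on with
  | _ n ih =>
    intro L hn h
    by_cases hs : ∀ e, (L e).card ≤ 1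
    · exact ⟨L, h, hs⟩
    · simp only [not_forall, not_le] at hs
      obtain ⟨e₀, he⟩ := hs
      obtain ⟨i, hi, j, hj, hij⟩ := one_lt_card.1 he
      have key : ∀ l ∈ L e₀, ∑ e, (update L e₀ ((L e₀).erase l) e).card < n := by
        intro l hl
        rw [← hn]
        refine sum_lt_sum (fun e _ => ?_) ⟨e₀, mem_univ _, ?_⟩
        · by_cases hne : e = e₀
          · subst hne
            rw [update_self]
            exact card_erase_le
          · rw [update_of_ne hne]
        · rw [update_self]
          exact card_erase_lt_of_mem hl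
      rcases listH_step h (e₀ := e₀) hij with h' | h'
      · exact ih _ (key i hi) _ rfl h'
      · exact ih _ (key j hj) _ rfl h'

theorem nwt [Nonempty V] {A : Finset E} {k : ℕ} (h : PC a b A k) : ∃ T : Fin k → Finset E,
    (∀ i, T i ⊆ A) ∧ Pairwise (Disjoint on T) ∧ ∀ i, Conn a b (T i) := by
  classical
  have h0 : ListH a b A (fun _ => (univ : Finset (Fin k))) := by
    intro P
    let R : Setoid V := ⟨fun x y => ∀ i, P i x y, fun x i => (P i).refl x,
      fun h i => (P i).symm (h i), fun h h' i => (P i).trans (h i) (h' i)⟩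
    have h1 : ∑ i, nc (P i) ≤ k * nc R := by
      calc ∑ i, nc (P i) ≤ ∑ _i : Fin k, nc R :=
            sum_le_sum fun i _ => nc_anti_part fun x y hxy => hxy i
        _ = k * nc R := by simp
    have h2 : cross a b A R ⊆ listX a b A (fun _ => univ) P := by
      intro e he
      simp only [cross, mem_filter] at he
      obtain ⟨i, hi⟩ := not_forall.1 he.2
      exact mem_listX.2 ⟨he.1, i, mem_univ _, hi⟩
    have h3 := h R
    have h4 := card_le_card h2
    omega
  obtain ⟨L, hL, hs⟩ := listH_small _ _ rfl h0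
  refine ⟨fun i => A.filter fun e => i ∈ L e, fun i => filter_subset _ _, fun i j hij => ?_,
    fun i S hS hS' => ?_⟩
  · refine disjoint_left.2 fun e h1 h2 => hij ?_
    exact card_le_one.1 (hs e) i (mem_filter.1 h1).2 j (mem_filter.1 h2).2
  · let P : Fin k → Setoid V := fun l => if l = i then Setoid.ker (· ∈ S) else ⊤
    have hPi : P i = Setoid.ker (· ∈ S) := if_pos rfl
    have hPl : ∀ l, l ≠ i → P l = ⊤ := fun l hl => if_neg hl
    have h1 : ∑ _l : Fin k, 1 < ∑ l, nc (P l) := by
      refine sum_lt_sum (fun l _ => ?_) ⟨i, mem_univ _, ?_⟩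
      · rw [← nc_top (V := V)]
        exact nc_anti_part le_top
      · rw [← nc_top (V := V)]
        refine nc_lt (lt_top_iff_ne_top.2 fun ht => ?_)
        obtain ⟨x, hx⟩ := hS
        refine hS' (eq_univ_iff_forall.2 fun y => ?_)
        have h2 : P i x y := by rw [ht]; trivial
        rw [hPi] at h2
        have h3 : (x ∈ S) = (y ∈ S) := h2
        exact h3 ▸ hx
    have h2 := hL P
    have h3 : 0 < (listX a b A L P).card := by
      simp only [sum_const, card_univ, Fintype.card_fin, smul_eq_mul, mul_one] at h1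
      omega
    obtain ⟨e, he⟩ := card_pos.1 h3
    obtain ⟨hA, l, hl, hn⟩ := mem_listX.1 he
    by_cases hli : l = i
    · subst hli
      refine ⟨e, mem_filter.2 ⟨mem_filter.2 ⟨hA, hl⟩, fun hiff => hn ?_⟩⟩
      rw [hPi]
      exact propext hiff
    · exact absurd (by rw [hPl l hli]; trivial) hn

omit [Fintype E] [DecidableEq E] in
theorem nc_le_of_conn {T : Finset E} (hc : Conn a b T) (P : Setoid V) :
    nc P ≤ (cross a b T P).card + 1 := by
  classical
  rcases isEmpty_or_nonempty V with hV | ⟨⟨v₀⟩⟩
  · have : nc P = 0 := by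
      rw [nc, Nat.card_eq_zero]
      exact Or.inl ⟨fun x => Quotient.inductionOn x fun v => hV.elim v⟩
    omega
  let ψ : partW P →ₗ[ℚ] (cross a b T P → ℚ) × ℚ :=
    { toFun := fun f => (fun e => f.1 (a e) - f.1 (b e), f.1 v₀)
      map_add' := fun f g => by
        ext e
        · simp only [Submodule.coe_add, Pi.add_apply, Prod.fst_add]
          ring
        · simp
      map_smul' := fun c f => by
        ext e
        · simp only [SetLike.val_smul, Pi.smul_apply, smul_eq_mul, RingHom.id_apply,
            Prod.smul_fst]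
          ring
        · simp }
  have hinj : Injective ψ := by
    rw [injective_iff_map_eq_zero]
    intro f hf
    have h1 : ∀ e ∈ T, f.1 (a e) = f.1 (b e) := by
      intro e he
      by_cases hp : P (a e) (b e)
      · exact mem_partW.1 f.2 hp
      · have hm : e ∈ cross a b T P := by
          simp only [cross, mem_filter]
          exact ⟨he, hp⟩
        exact sub_eq_zero.1 (congrFun (congrArg Prod.fst hf) ⟨e, hm⟩)
    have h2 : f.1 v₀ = 0 := congrArg Prod.snd hf
    by_contra hne
    have h3 : univ.filter (fun v => f.1 v = 0) ≠ univ := fun hu =>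
      hne (Subtype.ext (funext fun v => (mem_filter.1 (eq_univ_iff_forall.1 hu v)).2))
    obtain ⟨e, he⟩ := hc _ ⟨v₀, mem_filter.2 ⟨mem_univ _, h2⟩⟩ h3
    simp only [cutS, mem_filter, mem_univ, true_and] at he
    exact he.2 (by rw [h1 e he.1])
  have := LinearMap.finrank_le_finrank_of_injective hinj
  rwa [finrank_partW, Module.finrank_prod, Module.finrank_fintype_fun_eq_card, Fintype.card_coe,
    Module.finrank_self] at this

theorem pc_of_pack {A : Finset E} {k : ℕ} {T : Fin k → Finset E} (hT : ∀ i, T i ⊆ A)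
    (hd : Pairwise (Disjoint on T)) (hc : ∀ i, Conn a b (T i)) : PC a b A k := by
  classical
  intro P
  have h1 : k * nc P ≤ ∑ i, (cross a b (T i) P).card + k := by
    calc k * nc P = ∑ _i : Fin k, nc P := by simp
      _ ≤ ∑ i, ((cross a b (T i) P).card + 1) := sum_le_sum fun i _ => nc_le_of_conn (hc i) P
      _ = _ := by simp [sum_add_distrib]
  have h2 : ∑ i, (cross a b (T i) P).card ≤ (cross a b A P).card := by
    rw [← card_biUnion]
    · refine card_le_card fun e he => ?_
      obtain ⟨i, _, hi⟩ := mem_biUnion.1 he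
      simp only [cross, mem_filter] at hi ⊢
      exact ⟨hT i hi.1, hi.2⟩
    · intro i _ j _ hij
      exact (hd hij).mono (filter_subset _ _) (filter_subset _ _)
  omega

theorem pc_of_cut {A : Finset E} {k : ℕ}
    (h : ∀ S : Finset V, S.Nonempty → S ≠ univ → 2 * k ≤ (cutS a b A S).card) : PC a b A k := by
  classical
  intro P
  rcases Nat.lt_or_ge (nc P) 2 with h1 | h1
  · have : k * nc P ≤ k * 1 := Nat.mul_le_mul_left _ (by omega)
    omega
  have hnt : Nontrivial (Quotient P) := Finite.one_lt_card_iff_nontrivial.1 h1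
  have key := card_mul_le_card_mul (s := (univ : Finset (Quotient P))) (t := cross a b A P)
    (m := 2 * k) (n := 2) (fun c e => ¬ (Quotient.mk P (a e) = c ↔ Quotient.mk P (b e) = c))
    (fun c _ => ?_) (fun e _ => ?_)
  · rw [card_univ, ← Nat.card_eq_fintype_card] at key
    have e1 : Nat.card (Quotient P) * (2 * k) = 2 * (k * nc P) := by rw [nc]; ring
    omega
  · refine (h (univ.filter fun v => Quotient.mk P v = c) ?_ ?_).trans (card_le_card ?_)
    · obtain ⟨v, rfl⟩ := Quotient.mk_surjective c
      exact ⟨v, mem_filter.2 ⟨mem_univ _, rfl⟩⟩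
    · intro hu
      obtain ⟨c', hc'⟩ := exists_ne c
      obtain ⟨v, rfl⟩ := Quotient.mk_surjective c'
      exact hc' (mem_filter.1 (eq_univ_iff_forall.1 hu v)).2
    · intro e he
      simp only [cutS, mem_filter, mem_univ, true_and] at he
      simp only [mem_bipartiteAbove, cross, mem_filter]
      exact ⟨⟨he.1, fun hp => he.2 (by rw [Quotient.sound hp])⟩, he.2⟩
  · refine (card_le_card (t := {Quotient.mk P (a e), Quotient.mk P (b e)}) fun c hc => ?_).trans
      card_le_two
    rw [mem_bipartiteBelow] at hc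
    rw [mem_insert, mem_singleton]
    by_contra hn
    rw [not_or] at hn
    exact hc.2 ⟨fun h => absurd h.symm hn.1, fun h => absurd h.symm hn.2⟩

end Vale.Agent.P061
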