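import Vale.Agent.P061.Barrier

/-!
The selection argument.

Plan. `select`: induct on the number of `B` with `g B ≠ 0`. If there is exactly one such `B`, then
`det (gram x b - gram 1_B a) > 0` for all `x ≥ x₀`; this matrix is `PD` for `x ≥ 2`, lower the
coordinates one at a time to `x₀` with `PD.update`. Otherwise choose `e` with `e ∈ B`, `e ∉ B'` for
two sets of the support, `gin B = if e ∈ B then g B else 0`, `gout = g - gin`; both are stable
(`gen gout = gen g` at `w e = 0`, `gen gin = w e * slr e (gen g)`). Let `p = Psi (univ.erase e) g`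
(stable), `α = p` at `w e = z e = 0` (`= Psi univ gout`), `β = slr (w e) p` at `z e = 0`,
`γ = slr (w e) p` at `z e = -1` (`= Psi univ gin`). For a move `y' = update y (x j) (y (x j) + t)`,
`t ≥ 0`, `rayleigh` for `p` (pair `w e`, `x j`) and for `slr (w e) p` (pair `z e`, `x j`) gives
`α y * β y' ≤ α y' * β y` and `γ y * β y' ≤ γ y' * β y`. `β` is a sum of `g B * det`, `e ∈ B`, positive
if all `x j ≥ 2`; going down one coordinate at a time `β > 0` on the region `x ≥ x₀` (because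
`α + γ > 0` there). At the corner `x = x₀` one of `α`, `γ` is positive, and it stays positive when going up
one coordinate at a time (none of these functions depends on the other variables).
`sel`: `f w = det (gram 1 o + gram w u)`, `SR.det`, `exists_coeff` (`det_nonneg_of_psd`); for
`w ≥ 1 - s` the form is at least `1 - s` times the form for `w = 1`, `PD.lev_le`, `PD.det_update`; if
`0 < g B` then `f 1_B ≥ g B > 0`, so the matrix is invertible.
-/

namespace Vale.Agent.P061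

open Finset Function Matrix Sum

variable {E J m : Type} [Fintype E] [DecidableEq E] [Fintype J] [DecidableEq J] [Fintype m]
  [DecidableEq m]

theorem coord_ind_sel {J : Type} [Fintype J] [DecidableEq J] {Q : (J → ℝ) → Prop} {x x' : J → ℝ}
    (h0 : Q x) (hs : ∀ z j, (∀ i, z i = x i ∨ z i = x' i) → z j = x j → Q z →
      Q (update z j (x' j))) : Q x' := by
  have key : ∀ U : Finset J, Q (U.piecewise x' x) := by
    intro U
    induction U using Finset.induction_on with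
    | empty => simpa using h0
    | insert j U hj ih =>
      rw [piecewise_insert]
      refine hs _ j (fun i => ?_) (piecewise_eq_of_notMem _ _ _ hj) ih
      by_cases hi : i ∈ U
      · exact Or.inr (piecewise_eq_of_mem _ _ _ hi)
      · exact Or.inl (piecewise_eq_of_notMem _ _ _ hi)
  simpa using key univ

theorem SR.move_sel {ι : Type} [Fintype ι] [DecidableEq ι] {f : (ι → ℝ) → ℝ} (hf : SR f)
    (y : ι → ℝ) {i j : ι} (h : i ≠ j) {s : ℝ} (hs : y j ≤ s) :
    f y * slr i f (update y j s) ≤ f (update y j s) * slr i f y := by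
  have h1 := hf.aff y j s
  have h2 := hf.aff y j (y j)
  have h3 := (hf.slope i).aff y j s
  have h4 := (hf.slope i).aff y j (y j)
  rw [update_eq_self] at h2 h4
  have h5 := hf.rayleigh y h
  have h6 : slr j (slr i f) y = slr i (slr j f) y := by
    simp only [slr, update_comm h]
    ring
  rw [h6] at h3 h4
  have h7 : f (update y j s) = f y + (s - y j) * slr j f y := by linarith
  have h8 : slr i f (update y j s) = slr i f y + (s - y j) * slr i (slr j f) y := by linarith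
  rw [h7, h8]
  nlinarith [mul_le_mul_of_nonneg_left h5 (sub_nonneg.2 hs)]

/-- The matrix attached to a coefficient vector. -/
def matS (b : J → m → ℝ) (a : E → m → ℝ) (c : E → ℝ) (x : J → ℝ) : Matrix m m ℝ :=
  gram x b + gram c a

omit [DecidableEq E] [DecidableEq J] in
theorem matS_pd {b : J → m → ℝ} {a : E → m → ℝ} (hb : ∀ y, (∀ j, b j ⬝ᵥ y = 0) → y = 0)
    (ha : ∀ y, ∑ e, (a e ⬝ᵥ y) ^ 2 ≤ ∑ j, (b j ⬝ᵥ y) ^ 2) {c : E → ℝ} (hc : ∀ e, -1 ≤ c e)
    {x : J → ℝ} (hx : ∀ j, 2 ≤ x j) : PD (matS b a c x) := by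
  classical
  refine ⟨(gram_symm _ _).add (gram_symm _ _), fun y hy => ?_⟩
  rw [matS, add_mulVec, dotProduct_add, gram_quad, gram_quad]
  have h1 : ∑ j, 2 * (b j ⬝ᵥ y) ^ 2 ≤ ∑ j, x j * (b j ⬝ᵥ y) ^ 2 :=
    sum_le_sum fun j _ => mul_le_mul_of_nonneg_right (hx j) (sq_nonneg _)
  have h2 : ∑ e, -1 * (a e ⬝ᵥ y) ^ 2 ≤ ∑ e, c e * (a e ⬝ᵥ y) ^ 2 :=
    sum_le_sum fun e _ => mul_le_mul_of_nonneg_right (hc e) (sq_nonneg _)
  rw [← mul_sum] at h1 h2
  have h3 : 0 < ∑ j, (b j ⬝ᵥ y) ^ 2 := by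
    by_contra hn
    have h4 := (sum_eq_zero_iff_of_nonneg fun j _ => sq_nonneg (b j ⬝ᵥ y)).1
      (le_antisymm (not_lt.1 hn) (sum_nonneg fun j _ => sq_nonneg _))
    exact hy (hb y fun j => pow_eq_zero_iff two_ne_zero |>.1 (h4 j (mem_univ _)))
  linarith [ha y]

/-- The fully contracted polynomial. -/
noncomputable def sumS (b : J → m → ℝ) (a : E → m → ℝ) (g : Finset E → ℝ) (x : J → ℝ) : ℝ :=
  ∑ B, g B * (matS b a (fun e => if e ∈ B then -1 else 0) x).det

omit [DecidableEq J] in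
theorem psi_univ_sel (b : J → m → ℝ) (a : E → m → ℝ) (g : Finset E → ℝ) (y : E ⊕ E ⊕ J → ℝ) :
    Psi b a univ g y = sumS b a g fun j => y (inr (inr j)) := by
  have : ∀ B : Finset E, B \ univ = ∅ := fun B => sdiff_eq_empty_iff_subset.2 (subset_univ _)
  simp [Psi, sumS, matS, this]

/-- The polynomial contracted at all elements but one. -/
noncomputable def parS (b : J → m → ℝ) (a : E → m → ℝ) (g : Finset E → ℝ) (e : E) (w z : ℝ)
    (x : J → ℝ) : ℝ :=
  ∑ B, g B * (if e ∈ B then w else 1) *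
    (matS b a (fun f => if f = e then z else if f ∈ B then -1 else 0) x).det

omit [DecidableEq J] in
theorem psi_erase_sel (b : J → m → ℝ) (a : E → m → ℝ) (g : Finset E → ℝ) (e : E)
    (y : E ⊕ E ⊕ J → ℝ) : Psi b a (univ.erase e) g y =
      parS b a g e (y (inl e)) (y (inr (inl e))) fun j => y (inr (inr j)) := by
  refine sum_congr rfl fun B _ => ?_
  congr 2
  · by_cases h : e ∈ B
    · have : B \ univ.erase e = {e} := by
        ext f; simp only [mem_sdiff, mem_erase, mem_univ, and_true, not_not, mem_singleton]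
        exact ⟨fun h => h.2, fun h' => ⟨h' ▸ h, h'⟩⟩
      simp [this, h]
    · have : B \ univ.erase e = ∅ := by
        ext f; simp only [mem_sdiff, mem_erase, mem_univ, and_true, not_not, notMem_empty, iff_false]
        rintro ⟨h1, rfl⟩
        exact h h1
      simp [this, h]
  · unfold matS
    congr 2
    ext f
    by_cases h : f = e <;> simp [h]

theorem select_base (b : J → m → ℝ) (a : E → m → ℝ)
    (hb : ∀ y, (∀ j, b j ⬝ᵥ y = 0) → y = 0)
    (ha : ∀ y, ∑ e, (a e ⬝ᵥ y) ^ 2 ≤ ∑ j, (b j ⬝ᵥ y) ^ 2) {x₀ : ℝ} (B : Finset E)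
    (h : ∀ x : J → ℝ, (∀ j, x₀ ≤ x j) → 0 < (matS b a (fun e => if e ∈ B then -1 else 0) x).det)
    (y : m → ℝ) : ∑ e ∈ B, (a e ⬝ᵥ y) ^ 2 ≤ x₀ * ∑ j, (b j ⬝ᵥ y) ^ 2 := by
  have h1 : PD (matS b a (fun e => if e ∈ B then -1 else 0) fun _ => x₀) := by
    refine coord_ind_sel (Q := fun x => PD (matS b a (fun e => if e ∈ B then -1 else 0) x))
      (x := fun _ => max x₀ 2) (matS_pd hb ha (fun e => by split_ifs <;> norm_num)
        fun _ => le_max_right _ _) fun z j hz _ hq => ?_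
    have h2 := h (update z j x₀) fun i => by
      by_cases hi : i = j
      · subst hi; simp
      · rw [update_of_ne hi]
        rcases hz i with h3 | h3 <;> rw [h3]
        exact le_max_left _ _
    have e : matS b a (fun e => if e ∈ B then -1 else 0) (update z j x₀) =
        matS b a (fun e => if e ∈ B then -1 else 0) z + (x₀ - z j) • vecMulVec (b j) (b j) := by
      rw [matS, matS, gram_update]
      abel
    rw [e] at h2 ⊢
    exact hq.update h2
  by_cases hy : y = 0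
  · simp [hy]
  · have h2 := h1.2 y hy
    rw [matS, add_mulVec, dotProduct_add, gram_quad, gram_quad, ← mul_sum] at h2
    simp only [ite_mul, zero_mul, sum_ite_mem, univ_inter, ← mul_sum] at h2
    linarith

theorem select_step (b : J → m → ℝ) (a : E → m → ℝ) {g : Finset E → ℝ} (hg : SR (gen g))
    (hg0 : ∀ B, 0 ≤ g B) (hb : ∀ y, (∀ j, b j ⬝ᵥ y = 0) → y = 0)
    (ha : ∀ y, ∑ e, (a e ⬝ᵥ y) ^ 2 ≤ ∑ j, (b j ⬝ᵥ y) ^ 2) {x₀ : ℝ}
    (h : ∀ x : J → ℝ, (∀ j, x₀ ≤ x j) → 0 < sumS b a g x) {e : E} {B₀ : Finset E} (he : e ∈ B₀)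
    (h0 : g B₀ ≠ 0) :
    (∀ x : J → ℝ, (∀ j, x₀ ≤ x j) → 0 < sumS b a (fun B => if e ∈ B then g B else 0) x) ∨
    ∀ x : J → ℝ, (∀ j, x₀ ≤ x j) → 0 < sumS b a (fun B => if e ∈ B then 0 else g B) x := by
  have hp := psi_sr b a hg (univ.erase e)
  set α := sumS b a (fun B => if e ∈ B then 0 else g B) with hα
  set γ := sumS b a (fun B => if e ∈ B then g B else 0) with hγ
  let q : ℝ → (J → ℝ) → ℝ := fun z x => ∑ B, (if e ∈ B then g B else 0) *
    (matS b a (fun f => if f = e then z else if f ∈ B then -1 else 0) x).det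
  have e1 : ∀ x, parS b a g e 0 0 x = α x := by
    intro x
    refine sum_congr rfl fun B _ => ?_
    by_cases hB : e ∈ B
    · simp [hB]
    · simp only [hB, if_false, mul_one]
      congr 3
      ext f
      by_cases hf : f = e <;> simp [hf, hB]
  have e2 : ∀ z x, parS b a g e 1 z x - parS b a g e 0 z x = q z x := by
    intro z x
    rw [parS, parS, ← sum_sub_distrib]
    refine sum_congr rfl fun B _ => ?_
    by_cases hB : e ∈ B <;> simp [hB]
  have e3 : ∀ x, q (-1) x = γ x := by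
    intro x
    refine sum_congr rfl fun B _ => ?_
    by_cases hB : e ∈ B
    · congr 3
      ext f
      by_cases hf : f = e <;> simp [hf, hB]
    · simp [hB]
  have e4 : ∀ x, sumS b a g x = α x + γ x := by
    intro x
    rw [hα, hγ, sumS, sumS, sumS, ← sum_add_distrib]
    refine sum_congr rfl fun B _ => ?_
    by_cases hB : e ∈ B <;> simp [hB]
  have e5 : ∀ y : E ⊕ E ⊕ J → ℝ, slr (inl e) (Psi b a (univ.erase e) g) y =
      q (y (inr (inl e))) fun j => y (inr (inr j)) := by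
    intro y
    rw [← e2]
    simp [slr, psi_erase_sel]
  have eu : ∀ (x : J → ℝ) (j : J) (s : ℝ),
      update (Sum.elim (fun _ : E => (0 : ℝ)) (Sum.elim (fun _ : E => (0 : ℝ)) x)) (inr (inr j)) s =
        Sum.elim (fun _ => 0) (Sum.elim (fun _ => 0) (update x j s)) := by
    intro x j s
    funext k
    rcases k with k | k | k
    · rw [update_of_ne (by simp)]; rfl
    · rw [update_of_ne (by simp)]; rfl
    · by_cases hk : k = j
      · subst hk; rw [update_self, elim_inr, elim_inr, update_self]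
      · rw [update_of_ne (by simpa using hk), elim_inr, elim_inr, elim_inr, elim_inr,
          update_of_ne hk]
  have ez : ∀ (x : J → ℝ) (s : ℝ), slr (inl e) (Psi b a (univ.erase e) g)
      (update (Sum.elim (fun _ : E => (0 : ℝ)) (Sum.elim (fun _ : E => (0 : ℝ)) x))
        (inr (inl e)) s) = q s x := by
    intro x s
    rw [e5, update_self]
    congr 1
  have e6 : ∀ x, q (-1) x = q 0 x - (q 1 x - q 0 x) := by
    intro x
    have := (hp.slope (inl e)).aff
      (Sum.elim (fun _ : E => (0 : ℝ)) (Sum.elim (fun _ : E => (0 : ℝ)) x)) (inr (inl e)) (-1)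
    rw [slr.eq_1 (inr (inl e)), ez, ez, ez] at this
    linarith
  have m1 : ∀ (x : J → ℝ) (j : J) (s : ℝ), x j ≤ s →
      α x * q 0 (update x j s) ≤ α (update x j s) * q 0 x := by
    intro x j s hs
    have := hp.move_sel (Sum.elim (fun _ : E => (0 : ℝ)) (Sum.elim (fun _ : E => (0 : ℝ)) x))
      (i := inl e) (j := inr (inr j)) (by simp) (s := s) hs
    rw [eu, e5, e5, psi_erase_sel, psi_erase_sel] at this
    rw [← e1, ← e1]
    exact this
  have m2 : ∀ (x : J → ℝ) (j : J) (s : ℝ), x j ≤ s →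
      γ x * q 0 (update x j s) ≤ γ (update x j s) * q 0 x := by
    intro x j s hs
    have := (hp.slope (inl e)).move_sel
      (Sum.elim (fun _ : E => (0 : ℝ)) (Sum.elim (fun _ : E => (0 : ℝ)) x))
      (i := inr (inl e)) (j := inr (inr j)) (by simp) (s := s) hs
    rw [eu, slr.eq_1 (inr (inl e)), slr.eq_1 (inr (inl e)), ez, ez, ez, ez, e5, e5] at this
    change q 0 x * _ ≤ q 0 (update x j s) * _ at this
    rw [← e3, ← e3, e6, e6]
    linarith
  have up : ∀ {z : J → ℝ} {j : J} {s : ℝ}, (∀ i, x₀ ≤ z i) → x₀ ≤ s →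
      ∀ i, x₀ ≤ update z j s i := by
    intro z j s hz hs i
    by_cases hi : i = j
    · subst hi; simpa using hs
    · rw [update_of_ne hi]; exact hz i
  have hβ : ∀ x : J → ℝ, (∀ j, x₀ ≤ x j) → 0 < q 0 x := by
    intro x hx
    refine coord_ind_sel (Q := fun x => 0 < q 0 x) (x := fun j => max (x j) 2) ?_
      fun z j hz hj hq => ?_
    · have hd : ∀ B : Finset E, 0 < (matS b a (fun f => if f = e then 0 else if f ∈ B then -1 else 0)
          fun j => max (x j) 2).det := fun B =>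
        (matS_pd hb ha (fun f => by split_ifs <;> norm_num) fun _ => le_max_right _ _).det_pos
      refine sum_pos' (fun B _ => mul_nonneg ?_ (hd B).le) ⟨B₀, mem_univ _, mul_pos ?_ (hd _)⟩
      · split_ifs
        · exact hg0 B
        · exact le_rfl
      · rw [if_pos he]
        exact lt_of_le_of_ne (hg0 _) h0.symm
    · have hz' : ∀ i, x₀ ≤ z i := fun i => by
        rcases hz i with h3 | h3 <;> rw [h3]
        · exact (hx i).trans (le_max_left _ _)
        · exact hx i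
      have hle : update z j (x j) j ≤ z j := by
        rw [update_self, hj]; exact le_max_left _ _
      have a1 := m1 _ j _ hle
      have a2 := m2 _ j _ hle
      rw [update_idem, update_eq_self] at a1 a2
      have a3 := h _ (up (j := j) hz' (hx j))
      have a4 := h _ hz'
      rw [e4] at a3 a4
      by_contra hn
      have a5 := mul_pos a3 hq
      have a6 := mul_nonneg a4.le (neg_nonneg.2 (not_lt.1 hn))
      nlinarith
  have goup : ∀ F : (J → ℝ) → ℝ, (∀ (x : J → ℝ) (j : J) (s : ℝ), x j ≤ s →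
      F x * q 0 (update x j s) ≤ F (update x j s) * q 0 x) → (0 < F fun _ => x₀) →
      ∀ x : J → ℝ, (∀ j, x₀ ≤ x j) → 0 < F x := by
    intro F hF hF0 x hx
    refine coord_ind_sel (Q := fun x => 0 < F x) hF0 fun z j hz hj hq => ?_
    have hz' : ∀ i, x₀ ≤ z i := fun i => by
      rcases hz i with h3 | h3 <;> rw [h3]
      exact hx i
    have a1 := hF z j (x j) (hj.trans_le (hx j))
    have a2 := mul_pos hq (hβ _ (up (j := j) hz' (hx j)))
    exact (pos_iff_pos_of_mul_pos (a2.trans_le a1)).2 (hβ _ hz')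
  have hc := h (fun _ => x₀) fun _ => le_rfl
  rw [e4] at hc
  by_cases h1 : 0 < γ fun _ => x₀
  · exact Or.inl (goup γ m2 h1)
  · exact Or.inr (goup α m1 (by linarith))

theorem sr_out_sel {g : Finset E → ℝ} (hg : SR (gen g)) (e : E) :
    SR (gen fun B => if e ∈ B then 0 else g B) := by
  have h := hg.spec e 0
  convert h using 1
  ext w
  refine sum_congr rfl fun B _ => ?_
  by_cases hB : e ∈ B
  · rw [prod_eq_zero (f := fun i => update w e 0 i) hB (update_self _ _ _)]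
    simp [hB]
  · rw [prod_update_of_notMem hB]
    simp [hB]

theorem sr_in_sel {g : Finset E → ℝ} (hg : SR (gen g)) (e : E) :
    SR (gen fun B => if e ∈ B then g B else 0) := by
  have h := (SR.coord e).mul (hg.slope e) fun i => by
    by_cases hi : i = e
    · subst hi
      exact Or.inr fun x => by simp [slr]
    · exact Or.inl fun x => by simp [slr, update_of_ne (Ne.symm hi)]
  convert h using 1
  ext w
  rw [slr, gen, gen, gen, ← sum_sub_distrib, mul_sum]
  refine sum_congr rfl fun B _ => ?_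
  by_cases hB : e ∈ B
  · rw [prod_update_of_mem hB, prod_update_of_mem hB, ← mul_prod_erase B w hB, sdiff_singleton_eq_erase]
    simp only [hB, if_true]
    ring
  · rw [prod_update_of_notMem hB, prod_update_of_notMem hB]
    simp [hB]

theorem select (b : J → m → ℝ) (a : E → m → ℝ) {g : Finset E → ℝ} (hg : SR (gen g))
    (hg0 : ∀ B, 0 ≤ g B) (hb : ∀ y, (∀ j, b j ⬝ᵥ y = 0) → y = 0)
    (ha : ∀ y, ∑ e, (a e ⬝ᵥ y) ^ 2 ≤ ∑ j, (b j ⬝ᵥ y) ^ 2) {x₀ : ℝ}
    (h : ∀ y : E ⊕ E ⊕ J → ℝ, (∀ j, x₀ ≤ y (inr (inr j))) → 0 < Psi b a univ g y) :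
    ∃ B, 0 < g B ∧ ∀ y, ∑ e ∈ B, (a e ⬝ᵥ y) ^ 2 ≤ x₀ * ∑ j, (b j ⬝ᵥ y) ^ 2 := by
  have h' : ∀ x : J → ℝ, (∀ j, x₀ ≤ x j) → 0 < sumS b a g x := fun x hx => by
    have := h (Sum.elim (fun _ => 0) (Sum.elim (fun _ => 0) x)) hx
    rwa [psi_univ_sel] at this
  clear h
  induction hn : (univ.filter fun B => g B ≠ 0).card using Nat.strong_induction_on generalizing g with
  | h n ih =>
  have hex : ∃ B, g B ≠ 0 := by
    by_contra hc
    push Not at hc
    have := h' (fun _ => x₀) fun _ => le_rfl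
    simp [sumS, hc] at this
  obtain ⟨B₁, hB₁⟩ := hex
  by_cases hu : ∀ B, g B ≠ 0 → B = B₁
  · have hpos : 0 < g B₁ := lt_of_le_of_ne (hg0 _) hB₁.symm
    refine ⟨B₁, hpos, select_base b a hb ha B₁ fun x hx => ?_⟩
    have := h' x hx
    rw [sumS, sum_eq_single B₁ (fun B _ hB => by
      rw [show g B = 0 from by_contra fun hc => hB (hu B hc), zero_mul]) (by simp)] at this
    exact (pos_iff_pos_of_mul_pos this).1 hpos
  · push Not at hu
    obtain ⟨B₂, hB₂, hne⟩ := hu
    have hex : ∃ e B B', e ∈ B ∧ e ∉ B' ∧ g B ≠ 0 ∧ g B' ≠ 0 := by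
      by_contra hc
      push Not at hc
      apply hne
      ext e
      exact ⟨fun h => by_contra fun h2 => hB₁ (hc e _ _ h h2 hB₂),
        fun h => by_contra fun h2 => hB₂ (hc e _ _ h h2 hB₁)⟩
    obtain ⟨e, B, B', heB, heB', hB, hB'⟩ := hex
    have fin : ∀ g' : Finset E → ℝ, (∀ C, g' C = g C ∨ g' C = 0) → (∃ C, g C ≠ 0 ∧ g' C = 0) →
        SR (gen g') → (∀ x : J → ℝ, (∀ j, x₀ ≤ x j) → 0 < sumS b a g' x) →
        ∃ B, 0 < g B ∧ ∀ y, ∑ e ∈ B, (a e ⬝ᵥ y) ^ 2 ≤ x₀ * ∑ j, (b j ⬝ᵥ y) ^ 2 := by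
      rintro g' h1 ⟨C, h2, h3⟩ h4 h5
      have hlt : (univ.filter fun B => g' B ≠ 0).card < n := by
        rw [← hn]
        refine card_lt_card ⟨fun D hD => ?_, fun hs => ?_⟩
        · simp only [mem_filter, mem_univ, true_and] at hD ⊢
          rcases h1 D with h6 | h6
          · rwa [h6] at hD
          · exact absurd h6 hD
        · have := hs (mem_filter.2 ⟨mem_univ C, h2⟩)
          exact (mem_filter.1 this).2 h3
      obtain ⟨D, hD, hD'⟩ := ih _ hlt h4 (fun D => by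
        rcases h1 D with h6 | h6 <;> rw [h6]
        exact hg0 D) h5 rfl
      refine ⟨D, ?_, hD'⟩
      rcases h1 D with h6 | h6
      · rwa [h6] at hD
      · exact absurd h6 hD.ne'
    rcases select_step b a hg hg0 hb ha h' heB hB with h1 | h1
    · exact fin _ (fun C => by by_cases hC : e ∈ C <;> simp [hC]) ⟨B', hB', by simp [heB']⟩
        (sr_in_sel hg e) h1
    · exact fin _ (fun C => by by_cases hC : e ∈ C <;> simp [hC]) ⟨B, hB, by simp [heB]⟩
        (sr_out_sel hg e) h1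

theorem sel {O n : Type} [Fintype O] [Fintype n] [DecidableEq n] (o : O → n → ℝ) (u : E → n → ℝ)
    (b : J → m → ℝ) (a : E → m → ℝ) {p ε s r x₀ : ℝ}
    (ho : ∀ y, (∀ i, o i ⬝ᵥ y = 0) → (∀ e, u e ⬝ᵥ y = 0) → y = 0)
    (hu : ∀ e y, (u e ⬝ᵥ y) ^ 2 ≤ p * (∑ i, (o i ⬝ᵥ y) ^ 2 + ∑ f, (u f ⬝ᵥ y) ^ 2))
    (hb : ∀ y, (∀ j, b j ⬝ᵥ y = 0) → y = 0)
    (ha : ∀ y, ∑ e, (a e ⬝ᵥ y) ^ 2 ≤ ∑ j, (b j ⬝ᵥ y) ^ 2)
    (hε : ∀ e y, (a e ⬝ᵥ y) ^ 2 ≤ ε * ∑ j, (b j ⬝ᵥ y) ^ 2)
    (hs : 0 < s) (hs1 : s < 1) (hr : 0 < r) (hr1 : r ≤ 1) (hx : r < x₀) (hp : 0 ≤ p) (hε0 : 0 ≤ ε)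
    (h : s * (p / (1 - s)) + r * (ε / (x₀ - r)) ≤ s * r) :
    ∃ B : Finset E, (∀ y, (∀ i, o i ⬝ᵥ y = 0) → (∀ e ∈ B, u e ⬝ᵥ y = 0) → y = 0) ∧
      ∀ y, ∑ e ∈ B, (a e ⬝ᵥ y) ^ 2 ≤ x₀ * ∑ j, (b j ⬝ᵥ y) ^ 2 := by
  classical
  have hf := SR.det (gram_symm (fun _ : O => (1 : ℝ)) o) u
  have hq : ∀ (w : E → ℝ) (y : n → ℝ), y ⬝ᵥ (gram (fun _ : O => (1 : ℝ)) o + gram w u) *ᵥ y =
      ∑ i, (o i ⬝ᵥ y) ^ 2 + ∑ f, w f * (u f ⬝ᵥ y) ^ 2 := by
    intro w y
    rw [add_mulVec, dotProduct_add, gram_quad, gram_quad]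
    simp
  have hsy : ∀ w : E → ℝ, (gram (fun _ : O => (1 : ℝ)) o + gram w u).IsSymm := fun w =>
    (gram_symm _ _).add (gram_symm _ _)
  obtain ⟨g, hg0, hg⟩ := exists_coeff hf.aff fun w hw => det_nonneg_of_psd (hsy w) fun y => by
    rw [hq]
    exact add_nonneg (sum_nonneg fun _ _ => sq_nonneg _)
      (sum_nonneg fun f _ => mul_nonneg (hw f) (sq_nonneg _))
  have hs' : 0 < 1 - s := by linarith
  have hgs : SR (gen g) := hg ▸ hf
  have hbar := barrier b a hgs (φ := p / (1 - s)) (fun w hw => ?_) hb ha hε hs hs1 hr hr1 hx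
    (div_nonneg hp hs'.le) hε0 h
  · obtain ⟨B, hB, hB'⟩ := select b a hgs hg0 hb ha hbar
    refine ⟨B, fun y h1 h2 => ?_, hB'⟩
    have h3 : 0 < gen g fun e => if e ∈ B then 1 else 0 := by
      refine sum_pos' (fun C _ => mul_nonneg (hg0 C) (prod_nonneg fun e _ => by
        split_ifs <;> norm_num)) ⟨B, mem_univ _, ?_⟩
      rw [prod_eq_one fun e he => if_pos he, mul_one]
      exact hB
    rw [← hg] at h3
    refine eq_zero_of_mulVec_eq_zero h3.ne' ?_
    rw [add_mulVec, gram, gram, sum_mulVec, sum_mulVec, sum_eq_zero, sum_eq_zero, add_zero]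
    · intro e _
      by_cases he : e ∈ B
      · rw [smul_mulVec, vecMulVec_mulVec, h2 e he]; simp
      · simp [he]
    · intro i _
      rw [smul_mulVec, vecMulVec_mulVec, h1 i]; simp
  · have hle : ∀ y : n → ℝ, (1 - s) * (∑ i, (o i ⬝ᵥ y) ^ 2 + ∑ f, (u f ⬝ᵥ y) ^ 2) ≤
        y ⬝ᵥ (gram (fun _ : O => (1 : ℝ)) o + gram w u) *ᵥ y := by
      intro y
      rw [hq, mul_add, mul_sum univ fun f => (u f ⬝ᵥ y) ^ 2]
      have h1 : 0 ≤ ∑ i, (o i ⬝ᵥ y) ^ 2 := sum_nonneg fun _ _ => sq_nonneg _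
      have h2 : ∑ f, (1 - s) * (u f ⬝ᵥ y) ^ 2 ≤ ∑ f, w f * (u f ⬝ᵥ y) ^ 2 :=
        sum_le_sum fun f _ => mul_le_mul_of_nonneg_right (hw f) (sq_nonneg _)
      nlinarith
    have hpd : PD (gram (fun _ : O => (1 : ℝ)) o + gram w u) := by
      refine ⟨hsy w, fun y hy => lt_of_lt_of_le (mul_pos hs' ?_) (hle y)⟩
      have h1 : 0 ≤ ∑ i, (o i ⬝ᵥ y) ^ 2 := sum_nonneg fun _ _ => sq_nonneg _
      have h2 : 0 ≤ ∑ f, (u f ⬝ᵥ y) ^ 2 := sum_nonneg fun _ _ => sq_nonneg _
      by_contra hn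
      have h3 := (sum_eq_zero_iff_of_nonneg fun i _ => sq_nonneg (o i ⬝ᵥ y)).1
        (le_antisymm (by linarith) h1)
      have h4 := (sum_eq_zero_iff_of_nonneg fun f _ => sq_nonneg (u f ⬝ᵥ y)).1
        (le_antisymm (by linarith) h2)
      exact hy (ho y (fun i => pow_eq_zero_iff two_ne_zero |>.1 (h3 i (mem_univ _)))
        fun f => pow_eq_zero_iff two_ne_zero |>.1 (h4 f (mem_univ _)))
    rw [← hg]
    refine ⟨hpd.det_pos, fun e => ?_⟩
    have h1 := hpd.lev_le (v := u e) (div_nonneg hp hs'.le) fun y => by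
      refine (hu e y).trans ?_
      have := mul_le_mul_of_nonneg_left (hle y) (div_nonneg hp hs'.le)
      rwa [← mul_assoc, div_mul_cancel₀ _ hs'.ne'] at this
    simp only [slr, gram_update, ← add_assoc, hpd.det_update]
    nlinarith [mul_le_mul_of_nonneg_left h1 hpd.det_pos.le]

end Vale.Agent.P061
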