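import Vale.Agent.P061.TreeCut
import Vale.Agent.P061.Part

/-!
One coarsening step for skeletons.

Plan. If `nc P = 1` then `P = ⊤` (`nc_lt`, `nc_top`), `Z = ∅`, keep `Y`, `Γ`. Otherwise `m = nc P ≤ 2 (m - 1)`.
(A) ROOTED FOREST: choose a root in `Y` for each class; `ht y` = least number of (unoriented) `Γ`-steps
from `y ∈ Y` to the root of its class; `par y` = a neighbour with smaller `ht`, `par root = root`.
`y ↦` the pair `(y, par y)` or `(par y, y)` in `Γ` is injective on non-roots, so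
`∑ y ∈ Y, d y (par y) ≤ ∑ p ∈ Γ, d p.1 p.2`; there are at most `m` roots.
(B) COLOURING: a colouring `L : Quotient P → Bool` such that at least `card Z / 4` of the `z ∈ Z` have
`L ⟦z⟧ = true`, `L ⟦z'⟧ = false` (average over all colourings, or take a colouring maximising the number of
bichromatic pairs, then swap the colours if necessary). `π v ∈ Y` is the point given by `dense`.
(C) Apply `tree_cut` with `ρ = 4 l` on the subtype `T` of the points of `Y` coloured `true`, `W = π` of the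
good `z` (`4 r`-separated). New vertex set `Y' = K ∪ {y ∈ Y coloured false}`, edges `(y, par y)` with both
ends in `Y'`, and for `x ∈ X` a rung `(x, π z')` of length at most `l + 3 r ≤ ρ / 2 - β`. Every point of `Y'` is
connected to a root; `Y'` is `r + 2 ρ + 2 β ≤ 10 l` dense.
(D) CONNECTING: induct on the set `Ro` of roots (every point of `Y'` is connected to a point of
`Ro`): if two `P'`-related points of `Y'` are not connected, then by `hc` and density there are
`P'`-related non-connected points at distance at most `R + 2 r'`; add this edge, erase one root.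
-/

namespace Vale.Agent.P061

open Finset Function

variable {V : Type} [Fintype V] [DecidableEq V]

open Relation

theorem skel_forest {d : V → V → ℝ} (hd : IsPm d) {P : Setoid V} {r β : ℝ} {Y : Finset V}
    {Γ : Finset (V × V)} (h : Skel d P r β Y Γ) (hβ : 0 ≤ β) :
    ∃ (par : V → V) (ht : V → ℕ), (∀ y ∈ Y, par y ∈ Y ∧ P y (par y) ∧ d y (par y) ≤ β ∧
      (par y = y ∨ ht (par y) < ht y)) ∧ (Y.filter fun y => par y = y).card ≤ nc P ∧
      ∑ y ∈ Y, d y (par y) ≤ ∑ p ∈ Γ, d p.1 p.2 := by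
  classical
  choose rt hrt hrt' _ using fun q : Quotient P => h.dense q.out
  have hP : ∀ y, P y (rt (Quotient.mk P y)) := fun y => P.trans (P.symm (Quotient.mk_out y)) (hrt' _)
  let G : SimpleGraph V := SimpleGraph.fromRel fun u v => (u, v) ∈ Γ
  have hG : ∀ x y, EqvGen (fun u v => (u, v) ∈ Γ) x y → G.Reachable x y := by
    intro x y hxy
    induction hxy with
    | rel u v h =>
      by_cases e : u = v
      · rw [e]
      · exact SimpleGraph.Adj.reachable ((SimpleGraph.fromRel_adj _ _ _).2 ⟨e, Or.inl h⟩)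
    | refl => rfl
    | symm _ _ _ ih => exact ih.symm
    | trans _ _ _ _ _ ih ih' => exact ih.trans ih'
  have key : ∀ y, ∃ z, y ∈ Y → (y = rt (Quotient.mk P y) ∧ z = y) ∨ (((y, z) ∈ Γ ∨ (z, y) ∈ Γ) ∧
      G.dist z (rt (Quotient.mk P y)) < G.dist y (rt (Quotient.mk P y))) := by
    intro y
    by_cases hy : y ∈ Y
    · obtain ⟨p, hp⟩ := (hG _ _ (h.conn y hy _ (hrt _) (hP y))).exists_walk_length_eq_dist
      generalize rt (Quotient.mk P y) = x at p hp
      cases p with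
      | nil => exact ⟨y, fun _ => Or.inl ⟨rfl, rfl⟩⟩
      | cons hadj q =>
        refine ⟨_, fun _ => Or.inr ⟨((SimpleGraph.fromRel_adj _ _ _).1 hadj).2, ?_⟩⟩
        rw [← hp, SimpleGraph.Walk.length_cons]
        exact Nat.lt_succ_of_le (SimpleGraph.dist_le q)
    · exact ⟨y, fun h => (hy h).elim⟩
  choose par hpar using key
  have h1 : ∀ y ∈ Y, par y ∈ Y ∧ P y (par y) ∧ d y (par y) ≤ β := by
    intro y hy
    rcases hpar y hy with ⟨-, e⟩ | ⟨e | e, -⟩
    · rw [e, hd.refl]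
      exact ⟨hy, P.refl y, hβ⟩
    · exact (h.mem _ e).2
    · obtain ⟨a, -, b, c⟩ := h.mem _ e
      exact ⟨a, P.symm b, hd.symm _ _ ▸ c⟩
  have h2 : ∀ y ∈ Y, par y ≠ y → ((y, par y) ∈ Γ ∨ (par y, y) ∈ Γ) ∧
      G.dist (par y) (rt (Quotient.mk P (par y))) < G.dist y (rt (Quotient.mk P y)) := by
    intro y hy hne
    rw [← Quotient.sound (h1 y hy).2.1]
    exact (hpar y hy).resolve_left fun e => hne e.2
  refine ⟨par, fun y => G.dist y (rt (Quotient.mk P y)), fun y hy => ⟨(h1 y hy).1, (h1 y hy).2.1, (h1 y hy).2.2,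
    (em _).imp_right fun hne => (h2 y hy hne).2⟩, ?_, ?_⟩
  · rw [nc, Nat.card_eq_fintype_card]
    refine card_le_card_of_injOn (Quotient.mk P) (fun _ _ => mem_univ _) fun x hx y hy e => ?_
    have k : ∀ x ∈ Y.filter fun y => par y = y, x = rt (Quotient.mk P x) := fun x hx => by
      obtain ⟨a, b⟩ := mem_filter.1 hx
      rcases hpar x a with e | ⟨-, e⟩
      · exact e.1
      · rw [b] at e
        exact (lt_irrefl _ e).elim
    rw [k x hx, k y hy, e]
  · let ed : V → V × V := fun y => if (y, par y) ∈ Γ then (y, par y) else (par y, y)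
    have e1 : ∀ y, d y (par y) = d (ed y).1 (ed y).2 := fun y => by
      simp only [ed]
      split_ifs
      exacts [rfl, hd.symm _ _]
    have e2 : Set.InjOn ed (Y.filter fun y => par y ≠ y) := by
      intro x hx y hy e
      obtain ⟨a, b⟩ := mem_filter.1 hx
      obtain ⟨a', b'⟩ := mem_filter.1 hy
      have k := (h2 x a b).2
      have k' := (h2 y a' b').2
      simp only [ed] at e
      split_ifs at e <;> obtain ⟨e1, e2⟩ := Prod.mk.inj e
      · exact e1
      · rw [e2] at k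
        rw [← e1] at k'
        omega
      · rw [e1] at k
        rw [← e2] at k'
        omega
      · exact e2
    rw [← sum_filter_of_ne (p := fun y => par y ≠ y) fun y _ h e => h (by rw [e, hd.refl])]
    simp only [e1]
    rw [← sum_image (f := fun p : V × V => d p.1 p.2) e2]
    refine sum_le_sum_of_subset_of_nonneg (fun p hp => ?_) fun _ _ _ => hd.nonneg _ _
    obtain ⟨y, hy, rfl⟩ := mem_image.1 hp
    obtain ⟨a, b⟩ := mem_filter.1 hy
    simp only [ed]
    split_ifs with k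
    exacts [k, (h2 y a b).1.resolve_left k]

omit [Fintype V] [DecidableEq V] in
theorem skel_colour {Q : Type} [Fintype Q] [DecidableEq Q] (Z : Finset V) (f g : V → Q)
    (h : ∀ z ∈ Z, f z ≠ g z) : ∃ L : Q → Bool,
      Z.card ≤ 4 * (Z.filter fun z => L (f z) = true ∧ L (g z) = false).card := by
  have h1 : ∀ z ∈ Z, Fintype.card (Q → Bool) ≤
      4 * (univ.filter fun L : Q → Bool => L (f z) = true ∧ L (g z) = false).card := by
    intro z hz
    have := card_le_card_of_injOn (s := univ) (t := (univ : Finset (Bool × Bool)) ×ˢ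
      univ.filter fun L : Q → Bool => L (f z) = true ∧ L (g z) = false)
      (fun L => ((L (f z), L (g z)), update (update L (f z) true) (g z) false))
      (fun L _ => by simp [h z hz]) fun L _ L' _ e => by
        obtain ⟨e1, e2⟩ := Prod.mk.inj e
        obtain ⟨e3, e4⟩ := Prod.mk.inj e1
        ext q
        by_cases k : q = g z
        · rw [k, e4]
        by_cases k' : q = f z
        · rw [k', e3]
        simpa [k, k'] using congrFun e2 q
    simpa using this
  obtain ⟨L, -, hL⟩ := exists_le_of_sum_le (s := univ) univ_nonempty (f := fun _ => Z.card)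
    (g := fun L : Q → Bool => 4 * (Z.filter fun z => L (f z) = true ∧ L (g z) = false).card) (by
      simp only [card_filter] at h1 ⊢
      rw [← mul_sum, sum_comm, mul_sum, sum_const, smul_eq_mul, mul_comm, ← smul_eq_mul]
      exact card_nsmul_le_sum _ _ _ h1)
  exact ⟨L, hL⟩

omit [Fintype V] in
theorem skel_connect {d : V → V → ℝ} (hd : IsPm d) {P : Setoid V} {r β R : ℝ} {Y : Finset V}
    (hR : 0 ≤ R) (hr : 0 ≤ r) (hβ : R + 2 * r ≤ β)
    (hc : ∀ x y, P x y → EqvGen (fun u v => P u v ∧ d u v ≤ R) x y)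
    (hden : ∀ v, ∃ y ∈ Y, P v y ∧ d v y ≤ r) (k : ℕ) : ∀ (Ro : Finset V) (Γ : Finset (V × V)),
    Ro.card = k → (∀ p ∈ Γ, p.1 ∈ Y ∧ p.2 ∈ Y ∧ P p.1 p.2 ∧ d p.1 p.2 ≤ β) →
    (∀ y ∈ Y, ∃ x ∈ Ro, EqvGen (fun u v => (u, v) ∈ Γ) y x) →
    ∃ Γ', Skel d P r β Y Γ' ∧ ∑ p ∈ Γ', d p.1 p.2 ≤ ∑ p ∈ Γ, d p.1 p.2 + k * β := by
  induction k using Nat.strong_induction_on with
  | _ k ih =>
  intro Ro Γ hk hm hRo
  by_cases hcl : ∀ u ∈ Y, ∀ v ∈ Y, P u v → d u v ≤ β → EqvGen (fun u v => (u, v) ∈ Γ) u v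
  · refine ⟨Γ, ⟨hm, fun x hx y hy hxy => ?_, hden⟩,
      le_add_of_nonneg_right (mul_nonneg k.cast_nonneg (by linarith))⟩
    choose π h1 h2 h3 using hden
    have key : ∀ x y, EqvGen (fun u v => P u v ∧ d u v ≤ R) x y →
        EqvGen (fun u v => (u, v) ∈ Γ) (π x) (π y) := by
      intro x y hxy
      induction hxy with
      | rel u v h =>
        refine hcl _ (h1 u) _ (h1 v) (P.trans (P.symm (h2 u)) (P.trans h.1 (h2 v))) ?_
        linarith [hd.tri (π u) u (π v), hd.tri u v (π v), hd.symm (π u) u, h3 u, h3 v, h.2]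
      | refl => exact .refl _
      | symm _ _ _ ih => exact .symm _ _ ih
      | trans _ _ _ _ _ ih ih' => exact .trans _ _ _ ih ih'
    exact .trans _ _ _ (hcl x hx _ (h1 x) (h2 x) (by linarith [h3 x])) (.trans _ _ _
      (key x y (hc x y hxy)) (.symm _ _ (hcl y hy _ (h1 y) (h2 y) (by linarith [h3 y]))))
  · push Not at hcl
    obtain ⟨u, hu, v, hv, huv, hduv, hn⟩ := hcl
    obtain ⟨x, hx, hux⟩ := hRo u hu
    obtain ⟨y, hy, hvy⟩ := hRo v hv
    have hxy : y ≠ x := by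
      rintro rfl
      exact hn (.trans _ _ _ hux (.symm _ _ hvy))
    have mono : ∀ {s t}, EqvGen (fun u v => (u, v) ∈ Γ) s t →
        EqvGen (fun a b => (a, b) ∈ insert (u, v) Γ) s t :=
      fun h => EqvGen.mono (fun _ _ => mem_insert_of_mem) _ _ h
    have hk' := card_erase_add_one hx
    obtain ⟨Γ', h1, h2⟩ := ih _ (by omega) (Ro.erase x) (insert (u, v) Γ) rfl
      (forall_mem_insert _ _ _ |>.2 ⟨⟨hu, hv, huv, hduv⟩, hm⟩) fun z hz => by
        obtain ⟨t, ht, hzt⟩ := hRo z hz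
        by_cases e : t = x
        · subst e
          exact ⟨y, mem_erase.2 ⟨hxy, hy⟩, .trans _ _ _ (mono hzt) (.trans _ _ _ (.symm _ _ (mono hux))
            (.trans _ _ _ (.rel _ _ (mem_insert_self _ _)) (mono hvy)))⟩
        · exact ⟨t, mem_erase.2 ⟨e, ht⟩, mono hzt⟩
    refine ⟨Γ', h1, h2.trans ?_⟩
    rw [sum_insert fun h => hn (.rel _ _ h), ← hk, ← hk']
    push_cast
    linarith

theorem skel_step [Nonempty V] {d : V → V → ℝ} (hd : IsPm d) {P P' : Setoid V} (hP : P ≤ P')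
    {r β l R r' β' : ℝ} {Y : Finset V} {Γ : Finset (V × V)} (h : Skel d P r β Y Γ) (hr : 0 < r)
    (hβ : 0 ≤ β) (hl : β + 3 * r ≤ l) (hr' : 10 * l ≤ r') (hR : 0 ≤ R) (hβ' : R + 2 * r' ≤ β')
    (hc : ∀ x y, P' x y → Relation.EqvGen (fun u v => P' u v ∧ d u v ≤ R) x y) {Z : Finset V}
    (hZ : ∀ z ∈ Z, ∀ z' ∈ Z, z ≠ z' → 6 * r ≤ d z z')
    (hZ' : ∀ z ∈ Z, ∃ z', ¬ P z z' ∧ P' z z' ∧ d z z' ≤ l) :
    ∃ Y' Γ', Skel d P' r' β' Y' Γ' ∧ ∑ p ∈ Γ', d p.1 p.2 + r * Z.card / 32 ≤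
      ∑ p ∈ Γ, d p.1 p.2 + 2 * (nc P - 1) * (β' + l) := by
  classical
  rcases eq_or_ne P ⊤ with rfl | hP1
  · obtain rfl : P' = ⊤ := top_le_iff.1 hP
    obtain rfl : Z = ∅ := eq_empty_of_forall_notMem fun z hz => by
      obtain ⟨z', h1, -⟩ := hZ' z hz
      exact h1 trivial
    refine ⟨Y, Γ, ⟨fun p hp => ?_, h.conn, fun v => ?_⟩, by simp [nc_top]⟩
    · obtain ⟨a, b, c, e⟩ := h.mem p hp
      exact ⟨a, b, c, by linarith⟩
    · obtain ⟨y, a, b, c⟩ := h.dense v
      exact ⟨y, a, b, by linarith⟩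
  have hm : (2 : ℝ) ≤ nc P := by
    have := nc_lt hP1.lt_top
    rw [nc_top] at this
    exact_mod_cast this
  obtain ⟨par, ht, hpar, hroot, hsum⟩ := skel_forest hd h hβ
  choose π hπ1 hπ2 hπ3 using h.dense
  choose! nb hnb1 hnb2 hnb3 using hZ'
  obtain ⟨L, hL⟩ := skel_colour Z (Quotient.mk P) (fun z => (Quotient.mk P (nb z)))
    fun z hz e => hnb1 z hz (Quotient.exact e)
  set Zg := Z.filter fun z => L (Quotient.mk P z) = true ∧ L (Quotient.mk P (nb z)) = false
  have hLP : ∀ {x y}, P x y → L (Quotient.mk P x) = L (Quotient.mk P y) := fun e => congrArg L (Quotient.sound e)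
  let T := {y // y ∈ Y ∧ L (Quotient.mk P y) = true}
  let pT : T → T := fun y => ⟨par y, (hpar y y.2.1).1, hLP (hpar y y.2.1).2.1 ▸ y.2.2⟩
  have hit : ∀ n (y : T), P y.1 (pT^[n] y).1 ∧ (ht y ≤ n → pT (pT^[n] y) = pT^[n] y) := by
    intro n
    induction n with
    | zero =>
      exact fun y => ⟨P.refl _, fun h0 =>
        Subtype.ext ((hpar y y.2.1).2.2.2.resolve_right (by omega))⟩
    | succ n ih =>
      refine fun y => ⟨P.trans (hpar y y.2.1).2.1 (ih (pT y)).1, fun h0 => ?_⟩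
      rcases (hpar y y.2.1).2.2.2 with e | e
      · have e' : pT y = y := Subtype.ext e
        rw [iterate_fixed e', e']
      · exact (ih (pT y)).2 (by simp only [pT]; omega)
  let W : Finset T := univ.filter fun w => ∃ z ∈ Zg, π z = w.1
  have hsep : ∀ z ∈ Zg, ∀ z' ∈ Zg, z ≠ z' → 4 * r ≤ d (π z) (π z') := fun z hz z' hz' e => by
    linarith [hZ z (mem_filter.1 hz).1 z' (mem_filter.1 hz').1 e, hd.tri z (π z) z',
      hd.tri (π z) (π z') z', hd.symm (π z') z', hπ3 z, hπ3 z']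
  have hW : Zg.card ≤ W.card := by
    rw [← card_map (Embedding.subtype _) (s := W)]
    refine card_le_card_of_injOn π (fun z hz => ?_) fun z hz z' hz' e => ?_
    · exact mem_coe.2 (mem_map.2 ⟨⟨π z, hπ1 z, hLP (hπ2 z) ▸ (mem_filter.1 hz).2.1⟩,
        mem_filter.2 ⟨mem_univ _, z, hz, rfl⟩, rfl⟩)
    · by_contra k
      have := hsep z hz z' hz' k
      rw [e, hd.refl] at this
      linarith
  obtain ⟨K, X, hXK, hrK, hX, hden, hcon, hcost⟩ := tree_cut (T := T) (d := fun x y => d x y)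
    ⟨fun _ => hd.refl _, fun _ _ => hd.symm _ _, fun _ _ _ => hd.tri _ _ _⟩ (par := pT)
    (N := univ.sup ht) (fun y => (hit _ y).2 (le_sup (mem_univ _))) hr hβ
    (fun y => (hpar y y.2.1).2.2.1) (ρ := 4 * l) (by linarith) (W := W) fun w hw w' hw' e => by
      obtain ⟨z, hz, e1⟩ := (mem_filter.1 hw).2
      obtain ⟨z', hz', e2⟩ := (mem_filter.1 hw').2
      rw [← e1, ← e2]
      exact hsep z hz z' hz' fun k => e (Subtype.ext (by rw [← e1, ← e2, k]))
  have hrung : ∀ x : T, ∃ y, x ∈ X →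
      y ∈ Y ∧ L (Quotient.mk P y) = false ∧ P' x y ∧ d x y ≤ 2 * l - β := by
    intro x
    by_cases hx : x ∈ X
    · obtain ⟨w, hw, ⟨n, rfl⟩, h2⟩ := hX x hx
      obtain ⟨z, hz, e⟩ := (mem_filter.1 hw).2
      obtain ⟨hz1, -, hz2⟩ := mem_filter.1 hz
      refine ⟨π (nb z), fun _ => ⟨hπ1 _, hLP (hπ2 _) ▸ hz2, P'.trans (hP (P.symm (hit n w).1))
        (P'.trans (hP (P.symm (e ▸ hπ2 z))) (P'.trans (hnb2 z hz1) (hP (hπ2 _)))), ?_⟩⟩
      have := hπ3 z
      rw [e] at this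
      linarith [hd.tri (pT^[n] w) w (π (nb z)), hd.tri w z (π (nb z)), hd.tri z (nb z) (π (nb z)),
        hd.symm (pT^[n] w) w, hd.symm w z, hπ3 (nb z), hnb3 z hz1]
    · exact ⟨x, fun h => (hx h).elim⟩
  choose rg hrg using hrung
  let Y₁ := Y \ Kᶜ.map (Embedding.subtype _)
  have hY1 : ∀ y : T, y.1 ∈ Y₁ ↔ y ∈ K := fun y => by
    simp [Y₁, y.2.1, y.2.2]
  have hY2 : ∀ y ∈ Y, L (Quotient.mk P y) = false → y ∈ Y₁ := fun y hy e => mem_sdiff.2 ⟨hy, fun k => by
    obtain ⟨t, -, rfl⟩ := mem_map.1 k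
    simp [t.2.2] at e⟩
  let Γ₁ := (Y₁.filter fun y => par y ∈ Y₁).image (fun y => (y, par y)) ∪
    X.image fun x => (x.1, rg x)
  have hΓ1 : ∀ y ∈ Y₁, par y ∈ Y₁ → (y, par y) ∈ Γ₁ := fun y a b =>
    mem_union_left _ (mem_image_of_mem _ (mem_filter.2 ⟨a, b⟩))
  have hf : ∀ n y, ht y < n → y ∈ Y → L (Quotient.mk P y) = false →
      ∃ x ∈ Y.filter fun y => par y = y, EqvGen (fun u v => (u, v) ∈ Γ₁) y x := by
    intro n
    induction n with
    | zero => exact fun y h0 => (Nat.not_lt_zero _ h0).elim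
    | succ n ih =>
      intro y h0 hy e
      obtain ⟨a, b, -, c | c⟩ := hpar y hy
      · exact ⟨y, mem_filter.2 ⟨hy, c⟩, .refl _⟩
      · obtain ⟨x, hx, k⟩ := ih (par y) (by omega) a (hLP b ▸ e)
        exact ⟨x, hx, .trans _ _ _ (.rel _ _ (hΓ1 y (hY2 y hy e) (hY2 _ a (hLP b ▸ e)))) k⟩
  have hfin := skel_connect hd (Y := Y₁) hR (by linarith) hβ' hc (fun v => ?_) _
    (Y.filter fun y => par y = y) Γ₁ rfl (fun p hp => ?_) fun y hy => ?_
  · obtain ⟨Γ', h1, h2⟩ := hfin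
    refine ⟨Y₁, Γ', h1, ?_⟩
    have k1 : ∑ p ∈ Γ₁, d p.1 p.2 ≤ ∑ y ∈ Y₁, d y (par y) + X.card * (2 * l - β) := by
      refine (le_add_of_nonneg_right (sum_nonneg fun p _ => hd.nonneg p.1 p.2)).trans
        (sum_union_inter.trans_le (add_le_add ?_ ?_))
      · rw [sum_image fun x _ y _ e => (Prod.mk.inj e).1]
        exact sum_le_sum_of_subset_of_nonneg (filter_subset _ _) fun _ _ _ => hd.nonneg _ _
      · rw [sum_image fun x _ y _ e => Subtype.ext (Prod.mk.inj e).1, ← nsmul_eq_mul]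
        exact sum_le_card_nsmul _ _ _ fun x hx => (hrg x hx).2.2.2
    have k2 : ∑ y ∈ Y₁, d y (par y) + ∑ y ∈ Kᶜ, d y.1 (pT y).1 = ∑ y ∈ Y, d y (par y) := by
      rw [← sum_sdiff (s₁ := Kᶜ.map (Embedding.subtype _)) (s₂ := Y) fun y hy => by
        obtain ⟨t, -, rfl⟩ := mem_map.1 hy
        exact t.2.1, sum_map]
      rfl
    have k3 : ((univ.filter fun y => pT y = y).card : ℝ) ≤ nc P := by
      refine Nat.cast_le.2 (le_trans (card_le_card_of_injOn Subtype.val (fun y hy => ?_)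
        Subtype.val_injective.injOn) hroot)
      exact mem_coe.2 (mem_filter.2 ⟨y.2.1, congrArg Subtype.val (mem_filter.1 hy).2⟩)
    have k4 : (Z.card : ℝ) ≤ 4 * W.card := by exact_mod_cast hL.trans (by omega)
    have k5 : ((Y.filter fun y => par y = y).card : ℝ) ≤ nc P := by exact_mod_cast hroot
    have hl0 : 0 ≤ l := by linarith
    have hb0 : 0 ≤ β' := by linarith
    nlinarith [mul_le_mul_of_nonneg_left k3 hl0, mul_le_mul_of_nonneg_left k5 hb0,
      mul_le_mul_of_nonneg_left k4 hr.le, mul_le_mul_of_nonneg_left hm (add_nonneg hl0 hb0)]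
  · by_cases e : L (Quotient.mk P (π v)) = true
    · obtain ⟨n, a, b⟩ := hden ⟨π v, hπ1 v, e⟩
      refine ⟨_, (hY1 _).2 a, hP (P.trans (hπ2 v) (hit n ⟨π v, hπ1 v, e⟩).1), ?_⟩
      linarith [hd.tri v (π v) (pT^[n] ⟨π v, hπ1 v, e⟩).1, hπ3 v]
    · exact ⟨_, hY2 _ (hπ1 v) (by simpa using e), hP (hπ2 v), by linarith [hπ3 v]⟩
  · rcases mem_union.1 hp with hp | hp
    · obtain ⟨y, hy, rfl⟩ := mem_image.1 hp
      obtain ⟨a, b⟩ := mem_filter.1 hy
      obtain ⟨-, c, e, -⟩ := hpar y (mem_sdiff.1 a).1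
      exact ⟨a, b, hP c, by linarith⟩
    · obtain ⟨x, hx, rfl⟩ := mem_image.1 hp
      obtain ⟨a, b, c, e⟩ := hrg x hx
      exact ⟨(hY1 x).2 (hXK hx), hY2 _ a b, c, by linarith⟩
  · have hyY := (mem_sdiff.1 hy).1
    by_cases e : L (Quotient.mk P y) = true
    · obtain ⟨x, hx, k⟩ := hcon ⟨y, hyY, e⟩ ((hY1 ⟨y, hyY, e⟩).1 hy)
      have key : ∀ s t : T, EqvGen (fun u v => u ∈ K ∧ v ∈ K ∧ pT u = v) s t →
          EqvGen (fun u v => (u, v) ∈ Γ₁) s.1 t.1 := by
        intro s t hst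
        induction hst with
        | rel u v h =>
          obtain ⟨a, b, rfl⟩ := h
          exact .rel _ _ (hΓ1 _ ((hY1 u).2 a) ((hY1 _).2 b))
        | refl => exact .refl _
        | symm _ _ _ ih => exact .symm _ _ ih
        | trans _ _ _ _ _ ih ih' => exact .trans _ _ _ ih ih'
      rcases hx with hx | hx
      · exact ⟨x, mem_filter.2 ⟨x.2.1, congrArg Subtype.val hx⟩, key _ _ k⟩
      · obtain ⟨a, b, -⟩ := hrg x hx
        obtain ⟨t, ht', k'⟩ := hf _ _ (Nat.lt_succ_self _) a b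
        exact ⟨t, ht', .trans _ _ _ (key _ _ k) (.trans _ _ _
          (.rel _ _ (mem_union_right _ (mem_image_of_mem _ hx))) k')⟩
    · exact hf _ _ (Nat.lt_succ_self _) hyY (by simpa using e)

end Vale.Agent.P061
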