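import Vale.Agent.P061.Basic

/-!
Multiaffine real stable polynomials, as functions.

Plan. Prove everything for `St` first. (1) `St p` implies: `p = 0` on `H = {z | ∀ j, 0 < im (z j)}`
or `p` has no zero in `H` (if `A + s B = 0` with `0 < im s` and `0 ≤ im (A conj B) = -im s |B|²`
then `A = B = 0`; change the coordinates one at a time, `Finset.induction`). (2) Conversely `aff`,
`cont`, `real` and this dichotomy give `St` (`pos` on `H`: if `im (A conj B) < 0` then `s = -A / B` is
a zero; if `p = 0` on `H` the slope `p (update z i (z i + 1)) - p z` vanishes; pass to the closed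
half-planes with `z + ε I`, continuity). `spec`: restrict `pos`. `slope`: for `i ≠ j` put `z i = T I` in
`pos` and look at the `T²` coefficient. `contr`: write `p = A + B w + C z + D w z`; if
`p - D = 0` at a point of `H` and `D ≠ 0` then `Z = z + B / D` has positive imaginary part (`pos`
of the slope in `w`) and `p` vanishes at `(w - 1 / Z, z)`, which lies in `H`. `mul`: dichotomy; a
function with `aff` which vanishes at all real points vanishes everywhere. `det`: if
`(A₀ + ∑ z i • v i v iᵀ) ξ = 0` then `0 = im (ξ* M ξ) = ∑ im (z i) |v i ⬝ ξ|²`, so `ξ` is in the kernel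
for all `z`; `aff`: determinant of a rank one update (`Matrix.det_add_replicateCol_mul_replicateRow`
needs a unit; alternatively `det (M + s • v vᵀ)` is multilinear in the rows, or use
`Matrix.det_fromBlocks`/adjugate, or a polynomial identity argument). `rayleigh`: real point except
`z j = x j + I`. `exists_coeff`: induction over a finset `U` of active variables,
`f = f|₀ + w e * slr e f`, an affine function which is nonnegative on `[0, ∞)` has nonnegative slope.
-/

namespace Vale.Agent.P061

open Finset Function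
open scoped ComplexConjugate

variable {ι : Type} [Fintype ι] [DecidableEq ι]

/-- The slope of a complex function in the variable `i`. -/
def sl (i : ι) (p : (ι → ℂ) → ℂ) (z : ι → ℂ) : ℂ := p (update z i 1) - p (update z i 0)

/-- Multiaffine real stable (or zero) polynomial functions. -/
structure St (p : (ι → ℂ) → ℂ) : Prop where
  aff : ∀ z i s, p (update z i s) = p (update z i 0) + s * sl i p z
  cont : Continuous p
  real : ∀ x : ι → ℝ, (p fun i => x i).im = 0
  pos : ∀ z, (∀ j, 0 ≤ (z j).im) → ∀ i, 0 ≤ (p (update z i 0) * conj (sl i p z)).im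

/-- Restrictions to real points. -/
def SR (f : (ι → ℝ) → ℝ) : Prop := ∃ p, St p ∧ ∀ x : ι → ℝ, p (fun i => x i) = f x

section Aff

variable {R : Type} [CommRing R] {p q : (ι → R) → R}

/-- Affine in each variable. -/
def MAff (p : (ι → R) → R) : Prop :=
  ∀ z i s, p (update z i s) = p (update z i 0) + s * (p (update z i 1) - p (update z i 0))

omit [Fintype ι] in
theorem MAff.spec (hp : MAff p) (i : ι) (r : R) : MAff fun z => p (update z i r) := fun z j s => by
  by_cases h : j = i
  · subst h
    simp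
  · simp only [update_comm h]
    exact hp _ j s

omit [Fintype ι] in
theorem MAff.sub (hp : MAff p) (hq : MAff q) : MAff fun z => p z - q z := fun z j s => by
  beta_reduce
  rw [hp z j s, hq z j s]
  ring

omit [Fintype ι] in
theorem MAff.two (hp : MAff p) (z : ι → R) {i j : ι} (h : i ≠ j) : ∃ A B C D : R,
    ∀ s t, p (update (update z i s) j t) = A + B * s + C * t + D * s * t := by
  obtain ⟨q, hq⟩ : ∃ q : R → R → R, ∀ s t, q s t = p (update (update z i s) j t) :=
    ⟨_, fun _ _ => rfl⟩
  have h1 : ∀ s t, q s t = q s 0 + t * (q s 1 - q s 0) := fun s t => by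
    simp only [hq]; exact hp _ j t
  have h2 : ∀ s t, q s t = q 0 t + s * (q 1 t - q 0 t) := fun s t => by
    simp only [hq, update_comm h]; exact hp _ i s
  refine ⟨q 0 0, q 1 0 - q 0 0, q 0 1 - q 0 0, q 1 1 - q 0 1 - q 1 0 + q 0 0, fun s t => ?_⟩
  rw [← hq, h1 s t, h2 s 0, h2 s 1]
  ring

theorem det_rank_one {n : Type} [Fintype n] [DecidableEq n] (M : Matrix n n R) (u w : n → R) :
    ∃ α β : R, ∀ s : R, (M + s • Matrix.vecMulVec u w).det = α + s * β := by
  obtain ⟨N, hN⟩ : ∃ N : Matrix (n ⊕ Unit) (n ⊕ Unit) R,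
    N = Matrix.fromBlocks M (Matrix.replicateCol Unit (-u)) 0 1 := ⟨_, rfl⟩
  refine ⟨(N.updateRow (.inr ()) (Sum.elim 0 1)).det, (N.updateRow (.inr ()) (Sum.elim w 0)).det,
    fun s => ?_⟩
  rw [← Matrix.det_updateRow_smul, ← Matrix.det_updateRow_add,
    show N.updateRow (.inr ()) (Sum.elim (0 : n → R) 1 + s • Sum.elim w 0) = Matrix.fromBlocks M
      (Matrix.replicateCol Unit (-u)) (Matrix.replicateRow Unit (s • w)) 1 by
      ext (a | a) (b | b) <;> simp [hN, Matrix.updateRow_apply], Matrix.det_fromBlocks_one₂₂]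
  congr 1
  ext a b
  simp [Matrix.mul_apply, Matrix.vecMulVec_apply, mul_left_comm]

end Aff

variable {p q : (ι → ℂ) → ℂ}

omit [Fintype ι] in
theorem ofReal_update (x : ι → ℝ) (i : ι) (s : ℝ) :
    (fun j => ((update x i s j : ℝ) : ℂ)) = update (fun j => (x j : ℂ)) i s :=
  funext fun j => apply_update (fun _ => Complex.ofReal) x i s j

omit [Fintype ι] in
theorem im_update_pos {z : ι → ℂ} (hz : ∀ j, 0 < (z j).im) (i : ι) {s : ℂ} (hs : 0 < s.im) (j : ι) :
    0 < (update z i s j).im := by
  rw [update_apply]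
  split_ifs
  exacts [hs, hz j]

omit [Fintype ι] in
theorem im_update_nonneg {z : ι → ℂ} (hz : ∀ j, 0 ≤ (z j).im) (i : ι) {s : ℂ} (hs : 0 ≤ s.im)
    (j : ι) : 0 ≤ (update z i s j).im := by
  rw [update_apply]
  split_ifs
  exacts [hs, hz j]

theorem MAff.eq_zero (hp : MAff p) (h : ∀ x : ι → ℝ, p (fun i => x i) = 0) (z : ι → ℂ) :
    p z = 0 := by
  have key : ∀ (U : Finset ι) (x : ι → ℝ), p (U.piecewise z fun i => x i) = 0 := fun U => by
    induction U using Finset.induction_on with
    | empty => simpa using h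
    | insert i U hi ih =>
      intro x
      have h1 : ∀ r : ℝ, p (update (U.piecewise z fun i => x i) i r) = 0 := fun r => by
        rw [Finset.update_piecewise_of_notMem _ _ _ hi, ← ofReal_update, ih]
      have h2 := h1 0
      have h3 := h1 1
      rw [Complex.ofReal_zero] at h2
      rw [Complex.ofReal_one] at h3
      rw [Finset.piecewise_insert, hp, h2, h3, sub_zero, mul_zero, add_zero]
  simpa using key univ 0

omit [Fintype ι] in
theorem sl_eq_zero (hp : MAff p) (h : ∀ z, (∀ j, 0 < (z j).im) → p z = 0) (i : ι) (z : ι → ℂ)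
    (hz : ∀ j, 0 < (z j).im) : sl i p z = 0 := by
  have h1 := hp z i Complex.I
  have h2 := hp z i (Complex.I + 1)
  rw [h _ (im_update_pos hz i (by simp))] at h1 h2
  unfold sl
  linear_combination h1 - h2

theorem St.dich (hp : St p) :
    (∀ z, (∀ j, 0 < (z j).im) → p z = 0) ∨ ∀ z, (∀ j, 0 < (z j).im) → p z ≠ 0 := by
  refine or_iff_not_imp_right.2 fun h w hw => ?_
  push Not at h
  obtain ⟨z, hz, h0⟩ := h
  have key : ∀ U : Finset ι, p (U.piecewise w z) = 0 := fun U => by
    induction U using Finset.induction_on with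
    | empty => simpa using h0
    | insert i U hi ih =>
      have hy : ∀ j, 0 < (U.piecewise w z j).im := fun j => by
        unfold Finset.piecewise
        split_ifs
        exacts [hw j, hz j]
      rw [Finset.piecewise_insert]
      generalize U.piecewise w z = y at *
      have h1 := hp.aff y i (y i)
      have h2 := hp.pos y (fun j => (hy j).le) i
      rw [update_eq_self, ih] at h1
      rw [eq_neg_of_add_eq_zero_left h1.symm, neg_mul, mul_assoc, Complex.mul_conj] at h2
      have h3 : sl i p y = 0 := Complex.normSq_eq_zero.1 (le_antisymm (by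
        simp only [Complex.neg_im, Complex.mul_im, Complex.ofReal_im, Complex.ofReal_re] at h2
        nlinarith [hy i]) (Complex.normSq_nonneg _))
      rw [h3, mul_zero, add_zero] at h1
      rw [hp.aff, h3, ← h1, mul_zero, add_zero]
  simpa using key univ

omit [Fintype ι] in
theorem St.of_dich (h1 : MAff p) (h2 : Continuous p) (h3 : ∀ x : ι → ℝ, (p fun i => x i).im = 0)
    (h4 : (∀ z, (∀ j, 0 < (z j).im) → p z = 0) ∨ ∀ z, (∀ j, 0 < (z j).im) → p z ≠ 0) : St p := by
  refine ⟨h1, h2, h3, fun z hz i => ?_⟩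
  have key : ∀ z, (∀ j, 0 < (z j).im) → 0 ≤ (p (update z i 0) * conj (sl i p z)).im := by
    intro z hz
    by_contra hn
    have hB : sl i p z ≠ 0 := fun e => hn (by simp [e])
    rcases h4 with h | h
    · exact hB (sl_eq_zero h1 h i z hz)
    · refine h _ (im_update_pos hz i (s := -p (update z i 0) / sl i p z) ?_) ?_
      · rw [div_eq_mul_inv, Complex.inv_def, ← mul_assoc, Complex.im_mul_ofReal, neg_mul,
          Complex.neg_im]
        exact mul_pos (by linarith [not_le.1 hn]) (inv_pos.2 (Complex.normSq_pos.2 hB))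
      · exact (h1 z i _).trans ((congrArg _ (div_mul_cancel₀ _ hB)).trans (add_neg_cancel _))
  have hc : Continuous fun ε : ℝ => (p (update (fun j => z j + ε * Complex.I) i 0) *
      conj (sl i p fun j => z j + ε * Complex.I)).im := by
    unfold sl
    fun_prop
  have h5 := ge_of_tendsto ((hc.tendsto 0).mono_left (nhdsWithin_le_nhds (s := Set.Ioi 0)))
    (eventually_nhdsWithin_of_forall fun ε hε => key _ fun j => by
      simpa using add_pos_of_nonneg_of_pos (hz j) hε)
  simpa using h5

omit [Fintype ι] in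
theorem St.spec (hp : St p) (i : ι) (r : ℝ) : St fun z => p (update z i r) := by
  refine ⟨MAff.spec hp.aff i r, hp.cont.comp (by fun_prop), fun x => ?_, fun z hz j => ?_⟩
  · rw [← ofReal_update, hp.real]
  by_cases h : j = i
  · subst h
    simp [sl]
  · simp only [sl, update_comm h]
    exact hp.pos _ (im_update_nonneg hz i (by simp)) j

theorem quad_coeff_nonneg {a b c : ℝ} (h : ∀ T, 0 ≤ T → 0 ≤ a + b * T + c * T ^ 2) : 0 ≤ c := by
  by_contra hc
  have hc := not_le.1 hc
  obtain ⟨T, h1, h2⟩ : ∃ T, 1 ≤ T ∧ |a| + |b| + 1 ≤ -c * T :=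
    ⟨max 1 ((|a| + |b| + 1) / -c), le_max_left _ _,
      (div_le_iff₀' (by linarith)).1 (le_max_right _ _)⟩
  have h3 := h T (by linarith)
  nlinarith [le_abs_self a, le_abs_self b, abs_nonneg a, mul_le_mul_of_nonneg_left h2 (by linarith : 0 ≤ T),
    mul_le_mul_of_nonneg_left h1 (abs_nonneg a),
    mul_le_mul_of_nonneg_right (le_abs_self b) (by linarith : 0 ≤ T)]

omit [Fintype ι] in
theorem St.slope (hp : St p) (i : ι) : St (sl i p) := by
  have h0 := hp.spec i 0
  have h1 := hp.spec i 1
  rw [Complex.ofReal_zero] at h0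
  rw [Complex.ofReal_one] at h1
  refine ⟨(MAff.spec hp.aff i 1).sub (MAff.spec hp.aff i 0), h1.cont.sub h0.cont,
    fun x => by rw [sl, Complex.sub_im, h0.real, h1.real, sub_zero], fun z hz j => ?_⟩
  by_cases h : i = j
  · subst h
    simp [sl]
  obtain ⟨A, B, C, D, e⟩ := MAff.two hp.aff z h
  simp only [sl, ← update_comm h, e]
  refine le_of_le_of_eq (quad_coeff_nonneg (a := (A * conj C).im) (c := (B * conj D).im)
    (b := (B * conj C).re - (A * conj D).re) fun T hT => ?_) (by congr 3 <;> ring)
  have := hp.pos _ (im_update_nonneg hz i (s := T * Complex.I) (by simpa using hT)) j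
  simp only [sl, e] at this
  refine this.trans_eq ?_
  simp
  ring

theorem St.contr (hp : St p) {i j : ι} (h : i ≠ j) : St fun z => p z - sl i (sl j p) z := by
  have hD := (hp.slope j).slope i
  refine St.of_dich (MAff.sub hp.aff hD.aff) (hp.cont.sub hD.cont)
    (fun x => by rw [Complex.sub_im, hp.real, hD.real, sub_zero]) (hp.dich.imp
      (fun h0 z hz => ?_) fun h0 z hz e0 => ?_)
  · rw [h0 z hz, sl_eq_zero (hp.slope j).aff (sl_eq_zero hp.aff h0 j) i z hz, sub_zero]
  obtain ⟨A, B, C, D, e⟩ := MAff.two hp.aff z h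
  have h1 := (hp.slope i).pos z (fun k => (hz k).le) j
  simp only [sl, ← update_comm h, e] at h1
  simp only [sl, e] at e0
  have h2 := e (z i) (z j)
  rw [update_eq_self, update_eq_self] at h2
  have h3 : p z = D := by linear_combination e0
  have hD0 : D ≠ 0 := h3 ▸ h0 z hz
  have h4 : 0 < (z j + B / D).im := by
    rw [Complex.add_im, div_eq_mul_inv, Complex.inv_def, ← mul_assoc, Complex.im_mul_ofReal]
    exact add_pos_of_pos_of_nonneg (hz j) (mul_nonneg (h1.trans_eq (by congr 3 <;> ring))
      (inv_nonneg.2 (Complex.normSq_nonneg _)))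
  have h5 : z j + B / D ≠ 0 := fun e => by simp [e] at h4
  refine h0 _ (im_update_pos (im_update_pos hz i (s := z i - (z j + B / D)⁻¹) ?_) j (hz j)) ?_
  · rw [Complex.sub_im, Complex.inv_im, neg_div, sub_neg_eq_add]
    exact add_pos (hz i) (div_pos h4 (Complex.normSq_pos.2 h5))
  · have h6 := mul_inv_cancel₀ h5
    have h7 := div_mul_cancel₀ B hD0
    rw [e]
    linear_combination h3 - h2 - D * h6 + (z j + B / D)⁻¹ * h7

omit [Fintype ι] in
theorem sl_ofReal {f : (ι → ℝ) → ℝ} (h : ∀ x : ι → ℝ, p (fun i => x i) = f x) (i : ι)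
    (x : ι → ℝ) : sl i p (fun i => x i) = slr i f x := by
  rw [sl, slr, Complex.ofReal_sub, ← h, ← h, ofReal_update, ofReal_update, Complex.ofReal_one,
    Complex.ofReal_zero]

variable {f g : (ι → ℝ) → ℝ}

theorem SR.aff (hf : SR f) (x : ι → ℝ) (i : ι) (s : ℝ) :
    f (update x i s) = f (update x i 0) + s * slr i f x := by
  obtain ⟨p, hp, e⟩ := hf
  have := hp.aff (fun j => x j) i s
  rw [sl_ofReal e, ← Complex.ofReal_zero, ← ofReal_update, ← ofReal_update, e, e] at this
  exact_mod_cast this

theorem SR.rayleigh (hf : SR f) (x : ι → ℝ) {i j : ι} (h : i ≠ j) :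
    f x * slr i (slr j f) x ≤ slr i f x * slr j f x := by
  obtain ⟨A, B, C, D, e⟩ := MAff.two hf.aff x h
  obtain ⟨p, hp, e'⟩ := hf
  have h1 := hp.pos _ (im_update_nonneg (z := fun k => x k) (fun k => by simp) j
    (s := Complex.I) (by simp)) i
  have h2 : ∀ s : ℝ, p (update (update (fun k => (x k : ℂ)) j Complex.I) i s) =
      (A + B * s : ℝ) + Complex.I * (C + D * s : ℝ) := fun s => by
    rw [← update_comm h, hp.aff, ← ofReal_update, sl_ofReal e', ← Complex.ofReal_zero,
      ← ofReal_update, e', slr, e, e]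
    push_cast
    ring
  rw [sl, ← Complex.ofReal_zero, ← Complex.ofReal_one, h2, h2] at h1
  have h3 := e (x i) (x j)
  have h4 := fun s => e s (x j)
  have h5 := e (x i)
  have h6 : ∀ s, update (update x i s) j (x j) = update x i s := fun s => by
    rw [update_comm h, update_eq_self]
  simp only [update_eq_self, h6] at h3 h4 h5
  simp only [slr, e]
  rw [h3, h4, h4, h5, h5]
  simp at h1
  nlinarith

theorem SR.spec (hf : SR f) (i : ι) (r : ℝ) : SR fun x => f (update x i r) := by
  obtain ⟨p, hp, e⟩ := hf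
  exact ⟨_, hp.spec i r, fun x => by rw [← ofReal_update, e]⟩

theorem SR.slope (hf : SR f) (i : ι) : SR (slr i f) := by
  obtain ⟨p, hp, e⟩ := hf
  exact ⟨_, hp.slope i, sl_ofReal e i⟩

theorem SR.contr (hf : SR f) {i j : ι} (h : i ≠ j) : SR fun x => f x - slr i (slr j f) x := by
  obtain ⟨p, hp, e⟩ := hf
  exact ⟨_, hp.contr h, fun x => by rw [e, sl_ofReal (sl_ofReal e j), Complex.ofReal_sub]⟩

theorem SR.mul (hf : SR f) (hg : SR g) (h : ∀ i, (∀ x, slr i f x = 0) ∨ ∀ x, slr i g x = 0) :
    SR fun x => f x * g x := by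
  obtain ⟨p, hp, e⟩ := hf
  obtain ⟨q, hq, e'⟩ := hg
  refine ⟨fun z => p z * q z, St.of_dich (fun z i s => ?_) (hp.cont.mul hq.cont)
    (fun x => by rw [e, e', ← Complex.ofReal_mul, Complex.ofReal_im]) ?_,
    fun x => by simp only [e, e', Complex.ofReal_mul]⟩
  · have h0 : sl i p z * sl i q z = 0 := mul_eq_zero.2 ((h i).imp
      (fun h => MAff.eq_zero (hp.slope i).aff (fun x => by rw [sl_ofReal e, h]; rfl) z)
      fun h => MAff.eq_zero (hq.slope i).aff (fun x => by rw [sl_ofReal e', h]; rfl) z)
    beta_reduce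
    rw [hp.aff z i s, hq.aff z i s, hp.aff z i 1, hq.aff z i 1]
    linear_combination (s ^ 2 - s) * h0
  · rcases hp.dich with h1 | h1
    · exact .inl fun z hz => by rw [h1 z hz, zero_mul]
    · exact hq.dich.imp (fun h2 z hz => by rw [h2 z hz, mul_zero])
        fun h2 z hz => mul_ne_zero (h1 z hz) (h2 z hz)

theorem SR.coord (i : ι) : SR fun x : ι → ℝ => x i := by
  refine ⟨fun z => z i, St.of_dich (fun z j s => ?_) (continuous_apply i) (fun x => by simp)
    (.inr fun z hz e => by simpa [e] using hz i), fun _ => rfl⟩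
  by_cases h : i = j <;> simp [h]

theorem SR.comp {κ : Type} [Fintype κ] [DecidableEq κ] (hf : SR f) {φ : ι → κ}
    (hφ : Injective φ) : SR fun x : κ → ℝ => f fun i => x (φ i) := by
  obtain ⟨p, hp, e⟩ := hf
  refine ⟨fun z => p (z ∘ φ), St.of_dich (fun z k s => ?_) (hp.cont.comp (by fun_prop))
    (fun x => hp.real fun i => x (φ i)) (hp.dich.imp (fun h z hz => h _ fun j => hz _)
      fun h z hz => h _ fun j => hz _), fun x => e fun i => x (φ i)⟩
  by_cases h : ∃ i, φ i = k
  · obtain ⟨i, rfl⟩ := h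
    simp only [update_comp_eq_of_injective _ hφ]
    exact hp.aff _ i s
  · simp only [update_comp_eq_of_forall_ne _ _ (not_exists.1 h)]
    ring

theorem SR.det {n : Type} [Fintype n] [DecidableEq n] {A : Matrix n n ℝ} (hA : A.IsSymm)
    (v : ι → n → ℝ) : SR fun x => (A + gram x v).det := by
  obtain ⟨u, hu⟩ : ∃ u : ι → n → ℂ, ∀ i a, u i a = v i a := ⟨_, fun _ _ => rfl⟩
  obtain ⟨M, hM⟩ : ∃ M : (ι → ℂ) → Matrix n n ℂ, M = fun z =>
    A.map Complex.ofReal + ∑ i, z i • Matrix.vecMulVec (u i) (u i) := ⟨_, rfl⟩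
  have e : ∀ x : ι → ℝ, (M fun i => x i).det = (A + gram x v).det := fun x => by
    refine Eq.trans (congrArg _ ?_) (Complex.ofRealHom.map_det _).symm
    ext a b
    simp [hM, hu, gram, Matrix.sum_apply, Matrix.vecMulVec_apply]
  have hv : ∀ z ξ, (M z).mulVec ξ = (A.map Complex.ofReal).mulVec ξ +
      ∑ i, (z i * (u i ⬝ᵥ ξ)) • u i := fun z ξ => by
    simp [hM, Matrix.add_mulVec, Matrix.sum_mulVec, Matrix.smul_mulVec, Matrix.vecMulVec_mulVec,
      mul_smul]
  refine ⟨fun z => (M z).det, St.of_dich (fun z i s => ?_) (by rw [hM]; fun_prop)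
    (fun x => by rw [e, Complex.ofReal_im]) (or_iff_not_imp_right.2 fun h w _ => ?_), e⟩
  · obtain ⟨α, β, h⟩ := det_rank_one (M (update z i 0)) (u i) (u i)
    have h1 : ∀ s, (M (update z i s)).det = α + s * β := fun s => by
      rw [← h]
      simp only [hM, add_assoc, apply_update (fun j (c : ℂ) => c • Matrix.vecMulVec (u j) (u j)),
        Finset.sum_update_of_mem (mem_univ i), zero_smul, zero_add, add_comm (s • _)]
    simp only [h1]
    ring
  · push Not at h
    obtain ⟨z, hz, h⟩ := h
    obtain ⟨ξ, h0, h1⟩ := Matrix.exists_mulVec_eq_zero_iff.2 h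
    have hH : (A.map Complex.ofReal).IsHermitian := by
      ext a b
      simp [hA.apply]
    have h2 : ∀ i, star ξ ⬝ᵥ u i = conj (u i ⬝ᵥ ξ) := fun i => by
      simp [dotProduct, hu, mul_comm]
    have h3 := congrArg (fun y => (star ξ ⬝ᵥ y).im) ((hv z ξ).symm.trans h1)
    simp only [dotProduct_add, dotProduct_sum, dotProduct_smul, h2, smul_eq_mul, mul_assoc,
      Complex.mul_conj, Complex.add_im, Complex.im_sum, Complex.im_mul_ofReal, dotProduct_zero,
      Complex.zero_im] at h3
    rw [show (star ξ ⬝ᵥ (A.map Complex.ofReal).mulVec ξ).im = 0 from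
      hH.im_star_dotProduct_mulVec_self ξ, zero_add, Finset.sum_eq_zero_iff_of_nonneg
        fun i _ => mul_nonneg (hz i).le (Complex.normSq_nonneg _)] at h3
    have h4 : ∀ i, u i ⬝ᵥ ξ = 0 := fun i => Complex.normSq_eq_zero.1
      ((mul_eq_zero.1 (h3 i (mem_univ i))).resolve_left (hz i).ne')
    refine Matrix.exists_mulVec_eq_zero_iff.1 ⟨ξ, h0, h1 ▸ ?_⟩
    simp only [hv, h4, mul_zero]

theorem exists_coeff (h : ∀ x i s, f (update x i s) = f (update x i 0) + s * slr i f x)
    (h0 : ∀ x, (∀ i, 0 ≤ x i) → 0 ≤ f x) : ∃ c : Finset ι → ℝ, (∀ B, 0 ≤ c B) ∧ f = gen c := by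
  have key : ∀ (U : Finset ι) (f : (ι → ℝ) → ℝ), MAff f → (∀ x, (∀ i, 0 ≤ x i) → 0 ≤ f x) →
      ∃ c : Finset ι → ℝ, (∀ B, 0 ≤ c B) ∧
        ∀ x, f (U.piecewise x 0) = ∑ B ∈ U.powerset, c B * ∏ e ∈ B, x e := fun U => by
    induction U using Finset.induction_on with
    | empty => exact fun f _ h0 => ⟨fun _ => f 0, fun _ => h0 0 fun _ => le_rfl, by simp⟩
    | insert e U he ih =>
      intro f h h0
      obtain ⟨c₁, a1, b1⟩ := ih f h h0
      obtain ⟨c₂, a2, b2⟩ := ih (slr e f) ((h.spec e 1).sub (h.spec e 0)) fun x hx =>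
        quad_coeff_nonneg (a := f (update x e 0)) (b := 0) fun T _ => by
          refine (h0 (update x e (T ^ 2)) fun i => ?_).trans_eq ?_
          · rw [update_apply]
            split_ifs
            exacts [sq_nonneg T, hx i]
          · rw [h, slr]
            ring
      refine ⟨fun B => if e ∈ B then c₂ (B.erase e) else c₁ B,
        fun B => by beta_reduce; split_ifs; exacts [a2 _, a1 _], fun x => ?_⟩
      beta_reduce
      rw [Finset.piecewise_insert, h, Finset.sum_powerset_insert he]
      refine congrArg₂ _ ?_ ((congrArg _ (b2 x)).trans ?_)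
      · rw [Finset.update_piecewise_of_notMem _ _ _ he, update_eq_self_iff.2 (Pi.zero_apply e).symm, b1]
        exact sum_congr rfl fun B hB => by rw [if_neg fun h => he (mem_powerset.1 hB h)]
      · rw [mul_sum]
        refine sum_congr rfl fun B hB => ?_
        have hB' : e ∉ B := fun h => he (mem_powerset.1 hB h)
        rw [if_pos (mem_insert_self e B), erase_insert hB', prod_insert hB', mul_left_comm]
  obtain ⟨c, h1, h2⟩ := key univ f h h0
  exact ⟨c, h1, funext fun x => by simpa [gen] using h2 x⟩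

end Vale.Agent.P061
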