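import Vale.Agent.P061.Basic

/-!
Rooted metric forests: depth, core, slabs.
-/

namespace Vale.Agent.P061

open Finset Function

variable {T : Type} {d : T → T → ℝ} {par : T → T} {N : ℕ} {D : T → ℝ} {β ρ r : ℝ}

/-- A rooted forest with depth function `D`. -/
structure Fo (d : T → T → ℝ) (par : T → T) (N : ℕ) (D : T → ℝ) (β : ℝ) : Prop where
  pm : IsPm d
  fix : ∀ y, par (par^[N] y) = par^[N] y
  step : ∀ y, D y = D (par y) + d y (par y)
  nonneg : ∀ y, 0 ≤ D y
  short : ∀ y, d y (par y) ≤ β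

theorem exists_fo (hd : IsPm d) (hN : ∀ y, par (par^[N] y) = par^[N] y)
    (hβ : ∀ y, d y (par y) ≤ β) : ∃ D, Fo d par N D β := by
  refine ⟨fun y => ∑ n ∈ range N, d (par^[n] y) (par (par^[n] y)), hd, hN, fun y => ?_,
    fun y => sum_nonneg fun _ _ => hd.nonneg _ _, hβ⟩
  have h1 := sum_range_succ (fun n => d (par^[n] y) (par (par^[n] y))) N
  have h2 := sum_range_succ' (fun n => d (par^[n] y) (par (par^[n] y))) N
  rw [hN, hd.refl] at h1
  simp only [iterate_succ_apply, iterate_zero_apply] at h2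
  linarith

/-- The vertices which survive trimming. -/
def core (par : T → T) (D : T → ℝ) (ρ : ℝ) (y : T) : Prop :=
  par y = y ∨ ∃ x n, par^[n] x = y ∧ D y + ρ ≤ D x

/-- Non-roots without siblings in the core. -/
def sole (par : T → T) (D : T → ℝ) (ρ : ℝ) (y : T) : Prop :=
  par y ≠ y ∧ ∀ y', core par D ρ y' → par y' ≠ y' → par y' = par y → y' = y

/-- The slab index. -/
noncomputable def slab (D : T → ℝ) (ρ : ℝ) (y : T) : ℕ := ⌊D y / ρ⌋₊

namespace Fo

theorem dist_le (h : Fo d par N D β) (y : T) (n : ℕ) : d y (par^[n] y) ≤ D y - D (par^[n] y) := by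
  induction n with
  | zero => simp [h.pm.refl]
  | succ n ih =>
    rw [iterate_succ_apply']
    linarith [h.pm.tri y (par^[n] y) (par (par^[n] y)), h.step (par^[n] y)]

theorem anti (h : Fo d par N D β) (y : T) (n : ℕ) : D (par^[n] y) ≤ D y := by
  linarith [h.dist_le y n, h.pm.nonneg y (par^[n] y)]

theorem le_par (h : Fo d par N D β) (y : T) : D y ≤ D (par y) + β := by
  linarith [h.step y, h.short y]

theorem acyc (h : Fo d par N D β) {y : T} {n : ℕ} (hy : par^[n] (par y) = y) : par y = y := by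
  have h1 : IsPeriodicPt par (n + 1) y := hy
  have h2 : par^[(n + 1) * N] y = y := h1.mul_const N
  have h3 : par^[n * N] (par^[N] y) = par^[N] y := iterate_fixed (h.fix y) _
  rw [← iterate_add_apply, show n * N + N = (n + 1) * N by ring, h2] at h3
  rw [h3]
  exact h.fix y

theorem tel [DecidableEq T] (h : Fo d par N D β) (n : ℕ) : ∀ (w : T) (S : Finset T),
    (∀ i < n, par^[i] w ∈ S) → D w - D (par^[n] w) ≤ ∑ y ∈ S, d y (par y) := by
  induction n with
  | zero => exact fun w S _ => by simpa using sum_nonneg fun _ _ => h.pm.nonneg _ _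
  | succ n ih =>
    intro w S hS
    by_cases hw : par w = w
    · rw [iterate_fixed hw, sub_self]
      exact sum_nonneg fun _ _ => h.pm.nonneg _ _
    have h1 := ih (par w) (S.erase w) fun i hi =>
      mem_erase.2 ⟨fun e => hw (h.acyc e), hS (i + 1) (by omega)⟩
    rw [← add_sum_erase S _ (show w ∈ S from hS 0 (by omega)), iterate_succ_apply]
    linarith [h.step w]

theorem pack [DecidableEq T] (h : Fo d par N D β) {X U : Finset T} {S : T → Finset T} {c : ℝ}
    (hd : ∀ x ∈ X, ∀ x' ∈ X, ∀ u ∈ S x, u ∈ S x' → x = x') (hU : ∀ x ∈ X, S x ⊆ U)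
    (hc : ∀ x ∈ X, c ≤ ∑ y ∈ S x, d y (par y)) : c * X.card ≤ ∑ y ∈ U, d y (par y) := by
  have h1 : (X : Set T).PairwiseDisjoint S := fun x hx x' hx' hne =>
    disjoint_left.2 fun u hu hu' => hne (hd x hx x' hx' u hu hu')
  calc c * X.card = ∑ _x ∈ X, c := by simp [mul_comm]
    _ ≤ ∑ x ∈ X, ∑ y ∈ S x, d y (par y) := sum_le_sum hc
    _ = ∑ y ∈ X.biUnion S, d y (par y) := (sum_biUnion h1).symm
    _ ≤ _ := sum_le_sum_of_subset_of_nonneg (biUnion_subset.2 hU) fun _ _ _ => h.pm.nonneg _ _

theorem core_par (h : Fo d par N D β) {y : T} (hy : core par D ρ y) : core par D ρ (par y) := by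
  rcases hy with hy | ⟨x, n, rfl, hx⟩
  · exact .inl (by rw [hy, hy])
  · exact .inr ⟨x, n + 1, iterate_succ_apply' _ _ _, by
      linarith [h.anti (par^[n] x) 1, show par^[1] (par^[n] x) = par (par^[n] x) from rfl,
        h.step (par^[n] x), h.pm.nonneg (par^[n] x) (par (par^[n] x))]⟩

theorem core_iter (h : Fo d par N D β) {y : T} (hy : core par D ρ y) (n : ℕ) :
    core par D ρ (par^[n] y) := by
  induction n with
  | zero => exact hy
  | succ n ih => rw [iterate_succ_apply']; exact h.core_par ih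

theorem slab_anti (h : Fo d par N D β) (hρ : 0 < ρ) (y : T) (n : ℕ) :
    slab D ρ (par^[n] y) ≤ slab D ρ y :=
  Nat.floor_le_floor (div_le_div_of_nonneg_right (h.anti y n) hρ.le)

theorem slab_anti' (h : Fo d par N D β) (hρ : 0 < ρ) (y : T) {i j : ℕ} (hij : i ≤ j) :
    slab D ρ (par^[j] y) ≤ slab D ρ (par^[i] y) := by
  obtain ⟨k, rfl⟩ := Nat.exists_eq_add_of_le' hij
  rw [iterate_add_apply]
  exact h.slab_anti hρ _ _

theorem slab_le (h : Fo d par N D β) (hρ : 0 < ρ) (y : T) : slab D ρ y * ρ ≤ D y :=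
  (le_div_iff₀ hρ).1 (Nat.floor_le (div_nonneg (h.nonneg y) hρ.le))

theorem lt_slab (hρ : 0 < ρ) (y : T) : D y < (slab D ρ y + 1) * ρ :=
  (div_lt_iff₀ hρ).1 (Nat.lt_floor_add_one _)

theorem slab_par (h : Fo d par N D β) (hρ : 0 < ρ) (hβ : β ≤ ρ) (y : T) :
    slab D ρ y ≤ slab D ρ (par y) + 1 := by
  have h1 := h.slab_le hρ y
  have h2 := lt_slab (D := D) hρ (par y)
  have h3 := h.le_par y
  have h4 : (slab D ρ y : ℝ) < slab D ρ (par y) + 2 := by
    refine lt_of_mul_lt_mul_right ?_ hρ.le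
    linarith
  have h5 : slab D ρ y < slab D ρ (par y) + 2 := by exact_mod_cast h4
  omega

theorem comparable (h : Fo d par N D β) {c c' : T} (hc' : core par D ρ c') (n : ℕ) : ∀ n',
    par^[n] c = par^[n'] c' → (∀ i < n, sole par D ρ (par^[i] c)) →
    (∀ i < n', sole par D ρ (par^[i] c')) → (∃ k, par^[k] c = c') ∨ ∃ k, par^[k] c' = c := by
  induction n with
  | zero => exact fun n' e _ _ => .inr ⟨n', e.symm⟩
  | succ n ih =>
    intro n' e h1 h2
    rcases n' with _ | n'
    · exact .inl ⟨_, e⟩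
    rw [iterate_succ_apply', iterate_succ_apply'] at e
    exact ih n' ((h1 n (by omega)).2 _ (h.core_iter hc' n') (h2 n' (by omega)).1 e.symm).symm
      (fun i hi => h1 i (by omega)) fun i hi => h2 i (by omega)

theorem fibre (h : Fo d par N D β) (hr : 0 < r) {F : Finset T} {q : T} {L : ℝ} (hL : 0 ≤ L)
    (hF : ∀ c ∈ F, ∀ c' ∈ F, c ≠ c' → 2 * r ≤ d c c')
    (hq : ∀ c ∈ F, core par D ρ c ∧ D c ≤ D q + L ∧
      ∃ n, par^[n] c = q ∧ ∀ i < n, sole par D ρ (par^[i] c)) : r * F.card ≤ L / 2 + r := by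
  have key : ∀ c ∈ F, ∀ c' ∈ F, c ≠ c' → (∃ k, par^[k] c = c') →
      ⌊(D c' - D q) / (2 * r)⌋₊ < ⌊(D c - D q) / (2 * r)⌋₊ := by
    rintro c hc c' hc' hne ⟨k, hk⟩
    obtain ⟨-, -, n, rfl, -⟩ := hq c' hc'
    have h1 := h.dist_le c k
    rw [hk] at h1
    have h2 := hF c hc c' hc' hne
    have h3 : 0 ≤ (D c' - D (par^[n] c')) / (2 * r) :=
      div_nonneg (sub_nonneg.2 (h.anti c' n)) (by positivity)
    rw [Nat.lt_iff_add_one_le, ← Nat.floor_add_one h3]
    refine Nat.floor_le_floor ?_
    rw [div_add_one (by positivity)]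
    exact div_le_div_of_nonneg_right (by linarith) (by positivity)
  have h1 : F.card ≤ (range (⌊L / (2 * r)⌋₊ + 1)).card := by
    refine card_le_card_of_injOn (fun c => ⌊(D c - D q) / (2 * r)⌋₊) (fun c hc => ?_)
      fun c hc c' hc' e => ?_
    · refine mem_coe.2 (mem_range.2 (Nat.lt_succ_of_le (Nat.floor_le_floor ?_)))
      exact div_le_div_of_nonneg_right (by linarith [(hq c hc).2.1]) (by positivity)
    · by_contra hne
      obtain ⟨-, -, n, e1, s1⟩ := hq c hc
      obtain ⟨c2, -, n', e2, s2⟩ := hq c' hc'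
      rcases h.comparable c2 n n' (e1.trans e2.symm) s1 s2 with h3 | h3
      · exact (key c hc c' hc' hne h3).ne' e
      · exact (key c' hc' c hc (Ne.symm hne) h3).ne e
  rw [card_range] at h1
  have h2 : (F.card : ℝ) ≤ L / (2 * r) + 1 := by
    have h3 : (F.card : ℝ) ≤ ⌊L / (2 * r)⌋₊ + 1 := by exact_mod_cast h1
    linarith [Nat.floor_le (show 0 ≤ L / (2 * r) by positivity)]
  calc r * F.card ≤ r * (L / (2 * r) + 1) := by gcongr
    _ = _ := by field_simp

variable [Fintype T] [DecidableEq T]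

open Classical in
theorem bad_le (h : Fo d par N D β) (h0 : 0 ≤ ρ) :
    ρ * (univ.filter fun y => core par D ρ y ∧ ¬ sole par D ρ y).card ≤
      ρ * (univ.filter fun y => par y = y).card +
        2 * ∑ y ∈ univ.filter fun y => ¬ core par D ρ y, d y (par y) := by
  set Co := univ.filter fun y => core par D ρ y with hCo
  set Cn := univ.filter fun y => core par D ρ y ∧ par y ≠ y with hCn
  set Ro := univ.filter fun y => par y = y with hRo
  set NS := Cn.filter fun y => ¬ sole par D ρ y with hNS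
  set Lf := Cn.filter fun y => ∀ y' ∈ Cn, par y' ≠ y with hLf
  have hL : ρ * Lf.card ≤ ∑ y ∈ univ.filter fun y => ¬ core par D ρ y, d y (par y) := by
    have aux : ∀ y ∈ Lf, ∀ x n, core par D ρ x → par^[n + 1] x ≠ y := by
      intro y hy x n hx e
      simp only [hLf, hCn, mem_filter, mem_univ, true_and] at hy
      rw [iterate_succ_apply'] at e
      exact hy.2 _ ⟨h.core_iter hx n, fun e' => hy.1.2 (by rw [← e, e', e'])⟩ e
    refine h.pack (S := fun y => univ.filter fun u => ¬ core par D ρ u ∧ ∃ n, par^[n] u = y)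
      (fun y hy y' hy' u hu hu' => ?_) (fun y _ u hu => ?_) fun y hy => ?_
    · simp only [mem_filter, mem_univ, true_and] at hu hu'
      obtain ⟨-, n, rfl⟩ := hu
      obtain ⟨-, n', rfl⟩ := hu'
      have c1 := (mem_filter.1 (mem_filter.1 hy).1).2.1
      have c2 := (mem_filter.1 (mem_filter.1 hy').1).2.1
      rcases lt_trichotomy n n' with hn | hn | hn
      · obtain ⟨k, rfl⟩ := Nat.exists_eq_add_of_lt hn
        exact absurd (by rw [← iterate_add_apply]; congr 1; omega) (aux _ hy' _ k c1)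
      · rw [hn]
      · obtain ⟨k, rfl⟩ := Nat.exists_eq_add_of_lt hn
        exact absurd (by rw [← iterate_add_apply]; congr 1; omega) (aux _ hy _ k c2)
    · simp only [mem_filter, mem_univ, true_and] at hu ⊢
      exact hu.1
    · obtain ⟨c1, c2⟩ := (mem_filter.1 (mem_filter.1 hy).1).2
      obtain ⟨x, n, e, hx⟩ := c1.resolve_left c2
      have := h.tel n x (univ.filter fun u => ¬ core par D ρ u ∧ ∃ n, par^[n] u = y) fun i hi => by
        obtain ⟨k, rfl⟩ := Nat.exists_eq_add_of_lt hi
        have e' : par^[k + 1] (par^[i] x) = y := by rw [← iterate_add_apply, ← e]; congr 1; omega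
        exact mem_filter.2 ⟨mem_univ _, fun hc => aux y hy _ k hc e', _, e'⟩
      rw [e] at this
      linarith
  have hmap : ∀ y ∈ Cn, par y ∈ Co := fun y hy =>
    mem_filter.2 ⟨mem_univ _, h.core_par (mem_filter.1 hy).2.1⟩
  have e1 : Cn.card = ∑ v ∈ Co, (Cn.filter fun y => par y = v).card :=
    card_eq_sum_card_fiberwise hmap
  have e2 : NS.card = ∑ v ∈ Co, (NS.filter fun y => par y = v).card :=
    card_eq_sum_card_fiberwise fun y hy => hmap y (mem_filter.1 hy).1
  have e3 : Co.card = Cn.card + Ro.card := by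
    rw [← card_union_of_disjoint (disjoint_left.2 fun y hy hy' =>
      (mem_filter.1 hy).2.2 (mem_filter.1 hy').2)]
    congr 1
    ext y
    simp only [hCo, hCn, hRo, mem_filter, mem_univ, true_and, mem_union]
    exact ⟨fun hy => by tauto, fun hy => hy.elim (·.1) .inl⟩
  have e4 : ∀ v ∈ Co, (NS.filter fun y => par y = v).card + 2 ≤
      2 * (Cn.filter fun y => par y = v).card + 2 * if v ∈ Lf ∪ Ro then 1 else 0 := by
    intro v hv
    have l1 : (NS.filter fun y => par y = v).card ≤ (Cn.filter fun y => par y = v).card :=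
      card_le_card (filter_subset_filter _ (filter_subset _ _))
    rcases (NS.filter fun y => par y = v).eq_empty_or_nonempty with h0 | ⟨y, hy⟩
    · rw [h0, card_empty]
      split_ifs with hv'
      · omega
      · have : 0 < (Cn.filter fun y => par y = v).card := by
          by_contra h3
          rw [card_pos, not_nonempty_iff_eq_empty, filter_eq_empty_iff] at h3
          simp only [mem_union, hLf, hCn, hRo, hCo, mem_filter, mem_univ, true_and] at hv hv' h3
          tauto
        omega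
    · obtain ⟨hy1, hy2⟩ := mem_filter.1 hy
      obtain ⟨hy3, hy4⟩ := mem_filter.1 hy1
      have : 1 < (Cn.filter fun y => par y = v).card := by
        simp only [sole, not_and, not_forall] at hy4
        obtain ⟨y', a1, a2, a3, a4⟩ := hy4 (mem_filter.1 hy3).2.2
        exact one_lt_card.2 ⟨y', mem_filter.2 ⟨mem_filter.2 ⟨mem_univ _, a1, a2⟩, a3.trans hy2⟩, y,
          mem_filter.2 ⟨hy3, hy2⟩, a4⟩
      omega
  have e5 := sum_le_sum e4
  rw [sum_add_distrib, sum_add_distrib, ← mul_sum, ← mul_sum, ← e1, ← e2, ← card_filter] at e5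
  have e6 : (Co.filter fun v => v ∈ Lf ∪ Ro).card ≤ Lf.card + Ro.card :=
    (card_le_card fun v hv => (mem_filter.1 hv).2).trans (card_union_le _ _)
  simp only [sum_const, smul_eq_mul] at e5
  have e7 : (univ.filter fun y => core par D ρ y ∧ ¬ sole par D ρ y).card ≤ NS.card + Ro.card := by
    refine (card_le_card fun y hy => ?_).trans (card_union_le _ _)
    simp only [hNS, hCn, hRo, mem_filter, mem_univ, true_and, mem_union] at hy ⊢
    tauto
  have e8 : ((univ.filter fun y => core par D ρ y ∧ ¬ sole par D ρ y).card : ℝ) ≤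
      2 * Lf.card + Ro.card := by exact_mod_cast (by omega)
  nlinarith

end Fo

end Vale.Agent.P061
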