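import Vale.Agent.P061.TreeAux

/-!
Cutting a rooted metric forest (taken by helper10).
-/

namespace Vale.Agent.P061

open Finset Function

section Aux

variable {T : Type} {d : T → T → ℝ} {par : T → T} {N : ℕ} {D : T → ℝ} {β ρ r : ℝ}

/-- `n` is the first time the chain from `c` branches or climbs two slabs. -/
def Stop (par : T → T) (D : T → ℝ) (ρ : ℝ) (c : T) (n : ℕ) : Prop :=
  (¬ sole par D ρ (par^[n] c) ∨ slab D ρ (par^[n] c) + 1 < slab D ρ c) ∧
    ∀ i < n, sole par D ρ (par^[i] c) ∧ slab D ρ c ≤ slab D ρ (par^[i] c) + 1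

/-- The gap above `c`. -/
def Gap (par : T → T) (D : T → ℝ) (ρ : ℝ) (c y : T) : Prop :=
  (∃ i, par^[i] c = y) ∧ slab D ρ y + 1 = slab D ρ c

namespace Fo

theorem exists_stop (h : Fo d par N D β) (c : T) : ∃ n, Stop par D ρ c n := by
  classical
  have hex : ∃ n, ¬ sole par D ρ (par^[n] c) ∨ slab D ρ (par^[n] c) + 1 < slab D ρ c :=
    ⟨N, .inl fun hs => hs.1 (h.fix c)⟩
  refine ⟨Nat.find hex, Nat.find_spec hex, fun i hi => ?_⟩
  have := Nat.find_min hex hi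
  push Not at this
  exact this

theorem stop_depth (h : Fo d par N D β) (hρ : 0 < ρ) (hβ : 0 ≤ β) {c : T} {n : ℕ}
    (hn : Stop par D ρ c n) : D c ≤ D (par^[n] c) + (2 * ρ + β) := by
  rcases n with _ | n
  · simp only [iterate_zero_apply]; linarith
  have h1 : (slab D ρ c : ℝ) ≤ slab D ρ (par^[n] c) + 1 := by exact_mod_cast (hn.2 n (by omega)).2
  have h2 := lt_slab (D := D) hρ c
  have h3 := h.slab_le hρ (par^[n] c)
  have h4 := h.le_par (par^[n] c)
  rw [iterate_succ_apply']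
  nlinarith

theorem gap_lt (h : Fo d par N D β) (hρ : 0 < ρ) {c : T} {n i : ℕ}
    (hg : slab D ρ (par^[n] c) + 1 < slab D ρ c) (hi : slab D ρ (par^[i] c) + 1 = slab D ρ c) :
    i < n := by
  by_contra hh
  have := h.slab_anti' hρ c (not_lt.1 hh)
  omega

theorem gap_inj (h : Fo d par N D β) (hρ : 0 < ρ) {c c' y : T} {n n' : ℕ} (hn : Stop par D ρ c n)
    (hn' : Stop par D ρ c' n') (hg : slab D ρ (par^[n] c) + 1 < slab D ρ c)
    (hg' : slab D ρ (par^[n'] c') + 1 < slab D ρ c') (hy : Gap par D ρ c y)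
    (hy' : Gap par D ρ c' y) : par^[n] c = par^[n'] c' := by
  obtain ⟨⟨i, e⟩, s⟩ := hy
  obtain ⟨⟨i', e'⟩, s'⟩ := hy'
  obtain ⟨k, rfl⟩ := Nat.exists_eq_add_of_le' (h.gap_lt hρ hg (e ▸ s)).le
  obtain ⟨k', rfl⟩ := Nat.exists_eq_add_of_le' (h.gap_lt hρ hg' (e' ▸ s')).le
  rw [iterate_add_apply, e] at hg
  rw [iterate_add_apply, e'] at hg'
  rw [iterate_add_apply, iterate_add_apply, e, e']
  rcases lt_trichotomy k k' with hk | hk | hk
  · have := (hn'.2 (k + i') (by omega)).2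
    rw [iterate_add_apply, e'] at this
    omega
  · rw [hk]
  · have := (hn.2 (k' + i) (by omega)).2
    rw [iterate_add_apply, e] at this
    omega

theorem gap_sum [DecidableEq T] (h : Fo d par N D β) (hρ : 0 < ρ) {c : T} {n : ℕ}
    (hn : Stop par D ρ c n) (hg : slab D ρ (par^[n] c) + 1 < slab D ρ c) {S : Finset T}
    (hS : ∀ y, Gap par D ρ c y → y ∈ S) : ρ - β ≤ ∑ y ∈ S, d y (par y) := by
  have hex : ∃ i, slab D ρ (par^[i] c) < slab D ρ c := ⟨n, by omega⟩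
  have h1 := Nat.find_spec hex
  have h2 : Nat.find hex ≤ n := Nat.find_min' hex (by omega)
  obtain ⟨i, hi⟩ := Nat.exists_eq_succ_of_ne_zero (n := Nat.find hex) fun e => by simp [e] at h1
  have h3 : (slab D ρ c : ℝ) ≤ slab D ρ (par^[i] c) := by
    exact_mod_cast not_lt.1 (Nat.find_min hex (by omega))
  rw [hi] at h1 h2
  obtain ⟨k, rfl⟩ := Nat.exists_eq_add_of_le' h2
  have h4 := h.tel k (par^[i + 1] c) S fun j hj => by
    rw [← iterate_add_apply]
    have a1 := (hn.2 (j + (i + 1)) (by omega)).2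
    have a2 := h.slab_anti' hρ c (show i + 1 ≤ j + (i + 1) by omega)
    exact hS _ ⟨⟨_, rfl⟩, by simp only [Nat.succ_eq_add_one] at h1; omega⟩
  rw [← iterate_add_apply] at h4
  have h5 := lt_slab (D := D) hρ (par^[k + (i + 1)] c)
  have h6 : (slab D ρ (par^[k + (i + 1)] c) : ℝ) + 2 ≤ slab D ρ c := by exact_mod_cast hg
  have h7 := h.slab_le hρ (par^[i] c)
  have h8 := h.le_par (par^[i] c)
  rw [← iterate_succ_apply' par i c] at h8
  simp only [Nat.succ_eq_add_one] at h8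
  nlinarith

theorem to_core (h : Fo d par N D β) (hρ : 0 ≤ ρ) (hβ : 0 ≤ β) (y : T) :
    ∃ n, core par D ρ (par^[n] y) ∧ D y ≤ D (par^[n] y) + (ρ + β) := by
  classical
  have hex : ∃ n, core par D ρ (par^[n] y) := ⟨N, .inl (h.fix y)⟩
  refine ⟨Nat.find hex, Nat.find_spec hex, ?_⟩
  rcases hn : Nat.find hex with _ | n
  · simp only [iterate_zero_apply]; linarith
  have h1 : ¬ D (par^[n] y) + ρ ≤ D y := fun hh =>
    Nat.find_min hex (show n < Nat.find hex by omega) (.inr ⟨y, n, rfl, hh⟩)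
  rw [iterate_succ_apply']
  linarith [h.le_par (par^[n] y)]

theorem low_le [Fintype T] [DecidableEq T] (h : Fo d par N D β) (hr : 0 < r) {W U : Finset T}
    (hW : ∀ w ∈ W, ∀ w' ∈ W, w ≠ w' → 4 * r ≤ d w w') (hU : ∀ y, ¬ core par D ρ y → y ∈ U)
    (hl : ∀ w ∈ W, ∀ n, D w < D (par^[n] w) + r → ¬ core par D ρ (par^[n] w)) :
    r * W.card ≤ ∑ y ∈ U, d y (par y) := by
  classical
  refine h.pack (S := fun w => univ.filter fun u => (∃ n, par^[n] w = u) ∧ D w < D u + r)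
    (fun w hw w' hw' u hu hu' => ?_) (fun w hw u hu => ?_) fun w hw => ?_
  · obtain ⟨-, ⟨n, e⟩, a1⟩ := mem_filter.1 hu
    obtain ⟨-, ⟨n', e'⟩, a2⟩ := mem_filter.1 hu'
    by_contra hne
    have b1 := h.dist_le w n
    have b2 := h.dist_le w' n'
    rw [e] at b1
    rw [e', h.pm.symm] at b2
    linarith [hW w hw w' hw' hne, h.pm.tri w u w']
  · obtain ⟨-, ⟨n, rfl⟩, a1⟩ := mem_filter.1 hu
    exact hU _ (hl w hw n a1)
  · have hex : ∃ n, D (par^[n] w) + r ≤ D w := ⟨N, not_lt.1 fun hh => hl w hw N hh (.inl (h.fix w))⟩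
    have := h.tel (Nat.find hex) w (univ.filter fun u => (∃ n, par^[n] w = u) ∧ D w < D u + r)
      fun i hi => mem_filter.2 ⟨mem_univ _, ⟨i, rfl⟩, not_le.1 (Nat.find_min hex hi)⟩
    linarith [Nat.find_spec hex]

theorem kept_near (h : Fo d par N D β) (hρ : 0 < ρ) (hβ : 0 ≤ β) (hβρ : β ≤ ρ) {X K : Finset T}
    {a : ℕ} (hX : ∀ c ∈ X, slab D ρ c % 2 = a ∧
      ∃ n, Stop par D ρ c n ∧ slab D ρ (par^[n] c) + 1 < slab D ρ c)
    (hK : ∀ y, y ∈ K ↔ core par D ρ y ∧ ∀ c ∈ X, ¬ Gap par D ρ c y) {y : T}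
    (hy : core par D ρ y) : ∃ n, par^[n] y ∈ K ∧ D y ≤ D (par^[n] y) + (ρ + β) := by
  by_cases hyK : y ∈ K
  · exact ⟨0, hyK, by simp only [iterate_zero_apply]; linarith⟩
  simp only [hK, hy, true_and, not_forall, not_not] at hyK
  obtain ⟨c, hc, ⟨i, rfl⟩, s⟩ := hyK
  obtain ⟨pa, n, hn, hg⟩ := hX c hc
  obtain ⟨k, rfl⟩ := Nat.exists_eq_add_of_lt (h.gap_lt hρ hg s)
  have e : par^[k + 1] (par^[i] c) = par (par^[i + k] c) := by
    rw [← iterate_add_apply, ← iterate_succ_apply' par]; congr 1; omega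
  rw [iterate_succ_apply'] at hg
  have a1 := (hn.2 (i + k) (by omega)).2
  have a2 := h.slab_par hρ hβρ (par^[i + k] c)
  refine ⟨k + 1, (hK _).2 ⟨h.core_iter hy _, fun c' hc' hg' => ?_⟩, ?_⟩
  · have := hg'.2
    have := (hX c' hc').1
    rw [e] at *
    omega
  · have b1 := lt_slab (D := D) hρ (par^[i] c)
    have b2 := h.slab_le hρ (par^[i + k] c)
    have b3 := h.le_par (par^[i + k] c)
    have b4 : (slab D ρ (par^[i] c) : ℝ) ≤ slab D ρ (par^[i + k] c) := by exact_mod_cast (by omega)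
    rw [e]
    nlinarith

theorem kept_conn (h : Fo d par N D β) (hρ : 0 < ρ) {X K : Finset T}
    {a : ℕ} (hX : ∀ c ∈ X, core par D ρ c ∧ slab D ρ c % 2 = a ∧
      ∃ n, Stop par D ρ c n ∧ slab D ρ (par^[n] c) + 1 < slab D ρ c)
    (hK : ∀ y, y ∈ K ↔ core par D ρ y ∧ ∀ c ∈ X, ¬ Gap par D ρ c y) (n : ℕ) : ∀ y ∈ K,
    par (par^[n] y) = par^[n] y → ∃ x, (par x = x ∨ x ∈ X) ∧
      Relation.EqvGen (fun u v => u ∈ K ∧ v ∈ K ∧ par u = v) y x := by
  induction n with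
  | zero => exact fun y _ hy => ⟨y, .inl hy, .refl _⟩
  | succ n ih =>
    intro y hy hn
    by_cases h0 : par y = y
    · exact ⟨y, .inl h0, .refl _⟩
    by_cases h1 : par y ∈ K
    · obtain ⟨x, h2, h3⟩ := ih _ h1 hn
      exact ⟨x, h2, .trans _ _ _ (.rel _ _ ⟨hy, h1, rfl⟩) h3⟩
    obtain ⟨cy, gy⟩ := (hK y).1 hy
    simp only [hK, h.core_par cy, true_and, not_forall, not_not] at h1
    obtain ⟨c, hc, ⟨i, e⟩, s⟩ := h1
    obtain ⟨cc, pa, m, hm, hg⟩ := hX c hc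
    have him := h.gap_lt hρ hg (e ▸ s)
    rcases i with _ | i
    · rw [← e] at s; simp at s
    rw [iterate_succ_apply'] at e
    obtain rfl := (hm.2 i (by omega)).1.2 y cy h0 e.symm
    have a1 : slab D ρ (par^[i] c) + 1 ≠ slab D ρ c := fun e' => gy c hc ⟨⟨i, rfl⟩, e'⟩
    have a2 := (hm.2 i (by omega)).2
    have mem : ∀ j ≤ i, par^[j] c ∈ K := fun j hj => (hK _).2 ⟨h.core_iter cc j, fun c' hc' hg' => by
      have := hg'.2
      have := (hX c' hc').2.1
      have := h.slab_anti' hρ c hj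
      have := h.slab_anti hρ c j
      omega⟩
    have chain : ∀ j ≤ i, Relation.EqvGen (fun u v => u ∈ K ∧ v ∈ K ∧ par u = v) c (par^[j] c) := by
      intro j hj
      induction j with
      | zero => exact .refl _
      | succ j ihj =>
        exact .trans _ _ _ (ihj (by omega))
          (.rel _ _ ⟨mem j (by omega), mem _ hj, (iterate_succ_apply' _ _ _).symm⟩)
    exact ⟨c, .inr hc, .symm _ _ (chain i le_rfl)⟩

end Fo

end Aux

theorem tree_cut {T : Type} [Fintype T] [DecidableEq T] {d : T → T → ℝ} (hd : IsPm d)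
    {par : T → T} {N : ℕ} (hN : ∀ y, par (par^[N] y) = par^[N] y) {r β ρ : ℝ} (hr : 0 < r)
    (hβ0 : 0 ≤ β) (hβ : ∀ y, d y (par y) ≤ β) (hρ : β + 2 * r ≤ ρ) {W : Finset T}
    (hW : ∀ w ∈ W, ∀ w' ∈ W, w ≠ w' → 4 * r ≤ d w w') :
    ∃ K X : Finset T, X ⊆ K ∧ (∀ y, par y = y → y ∈ K) ∧
      (∀ x ∈ X, ∃ w ∈ W, (∃ n, par^[n] w = x) ∧ d w x ≤ r) ∧
      (∀ y, ∃ n, par^[n] y ∈ K ∧ d y (par^[n] y) ≤ 2 * ρ + 2 * β) ∧
      (∀ y ∈ K, ∃ x, (par x = x ∨ x ∈ X) ∧
        Relation.EqvGen (fun u v => u ∈ K ∧ v ∈ K ∧ par u = v) y x) ∧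
      r * W.card ≤ 8 * (∑ y ∈ Kᶜ, d y (par y) - (ρ / 2 - β) * X.card) +
        2 * ρ * (univ.filter fun y => par y = y).card := by
  classical
  obtain ⟨D, h⟩ := exists_fo hd hN hβ
  have hρ0 : 0 < ρ := by linarith
  set s₁ := ∑ y ∈ univ.filter fun y => ¬ core par D ρ y, d y (par y) with hs₁
  set W₁ := W.filter fun w => ∀ n, D w < D (par^[n] w) + r → ¬ core par D ρ (par^[n] w) with hW₁
  have l1 : r * W₁.card ≤ s₁ := h.low_le hr
    (fun w hw w' hw' => hW w (mem_filter.1 hw).1 w' (mem_filter.1 hw').1)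
    (fun y hy => mem_filter.2 ⟨mem_univ _, hy⟩) fun w hw => (mem_filter.1 hw).2
  have hcw : ∀ w, ∃ c, w ∈ W \ W₁ → (∃ n, par^[n] w = c) ∧ d w c ≤ r ∧ core par D ρ c := by
    intro w
    by_cases hw : w ∈ W \ W₁
    · have h1 := (mem_sdiff.1 hw).2
      simp only [hW₁, mem_filter, (mem_sdiff.1 hw).1, true_and, not_forall, not_not] at h1
      obtain ⟨n, h2, h3⟩ := h1
      exact ⟨_, fun _ => ⟨⟨n, rfl⟩, by linarith [h.dist_le w n], h3⟩⟩
    · exact ⟨w, fun h => absurd h hw⟩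
  choose cw hcw using hcw
  have sep : ∀ w ∈ W \ W₁, ∀ w' ∈ W \ W₁, w ≠ w' → 2 * r ≤ d (cw w) (cw w') := by
    intro w hw w' hw' hne
    have := hW w (mem_sdiff.1 hw).1 w' (mem_sdiff.1 hw').1 hne
    linarith [hd.tri w (cw w) w', hd.tri (cw w) (cw w') w', hd.symm (cw w') w', (hcw w hw).2.1,
      (hcw w' hw').2.1]
  set C := (W \ W₁).image cw with hC
  have l2 : C.card + W₁.card = W.card := by
    rw [hC, card_image_of_injOn, card_sdiff_add_card_eq_card (filter_subset _ _)]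
    intro w hw w' hw' e
    by_contra hne
    have := sep w hw w' hw' hne
    rw [e, hd.refl] at this
    linarith
  have hCc : ∀ c ∈ C, core par D ρ c := fun c hc => by
    obtain ⟨w, hw, rfl⟩ := mem_image.1 hc
    exact (hcw w hw).2.2
  choose nn hnn using h.exists_stop (ρ := ρ)
  set q : T → T := fun c => par^[nn c] c with hq
  have l3 : r * C.card ≤ 2 * ρ * (C.image q).card := by
    rw [card_eq_sum_card_image q C]
    push_cast
    rw [mul_sum, mul_comm (2 * ρ), ← nsmul_eq_mul]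
    refine sum_le_card_nsmul _ _ _ fun v _ => (h.fibre (ρ := ρ) (q := v) (L := 2 * ρ + β) hr
      (by positivity) (fun c hc c' hc' hne => ?_) fun c hc => ?_).trans (by linarith)
    · obtain ⟨w, hw, rfl⟩ := mem_image.1 (mem_filter.1 hc).1
      obtain ⟨w', hw', rfl⟩ := mem_image.1 (mem_filter.1 hc').1
      exact sep w hw w' hw' fun e => hne (by rw [e])
    · obtain ⟨h1, rfl⟩ := mem_filter.1 hc
      exact ⟨hCc c h1, h.stop_depth hρ0 hβ0 (hnn c), _, rfl, fun i hi => ((hnn c).2 i hi).1⟩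
  set Cg := C.filter fun c => slab D ρ (q c) + 1 < slab D ρ c with hCg
  obtain ⟨X₀, hX₀, hinj, himg⟩ := exists_subset_injOn_image_eq_of_surjOn (f := q) (Cg : Set T)
    (Cg.image q) (by simp [Set.surjOn_image])
  have l4 : (C.image q).card ≤
      (univ.filter fun y => core par D ρ y ∧ ¬ sole par D ρ y).card + X₀.card := by
    rw [← card_image_of_injOn hinj, himg]
    refine (card_le_card fun v hv => ?_).trans (card_union_le _ _)
    obtain ⟨c, hc, rfl⟩ := mem_image.1 hv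
    rcases (hnn c).1 with h1 | h1
    · exact mem_union_left _ (mem_filter.2 ⟨mem_univ _, h.core_iter (hCc c hc) _, h1⟩)
    · exact mem_union_right _ (mem_image_of_mem _ (mem_filter.2 ⟨hc, h1⟩))
  obtain ⟨a, ha⟩ : ∃ a, X₀.card ≤ 2 * (X₀.filter fun c => slab D ρ c % 2 = a).card := by
    have := card_filter_add_card_filter_not (s := X₀) fun c => slab D ρ c % 2 = 0
    simp only [Nat.mod_two_not_eq_zero] at this
    rcases le_total (X₀.filter fun c => slab D ρ c % 2 = 0).card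
      (X₀.filter fun c => slab D ρ c % 2 = 1).card with h1 | h1
    · exact ⟨1, by omega⟩
    · exact ⟨0, by omega⟩
  set X := X₀.filter fun c => slab D ρ c % 2 = a with hXd
  have hX : ∀ c ∈ X, c ∈ C ∧ slab D ρ c % 2 = a ∧ slab D ρ (par^[nn c] c) + 1 < slab D ρ c :=
    fun c hc => ⟨(mem_filter.1 (hX₀ (mem_filter.1 hc).1)).1, (mem_filter.1 hc).2,
      (mem_filter.1 (hX₀ (mem_filter.1 hc).1)).2⟩
  set K := univ.filter fun y => core par D ρ y ∧ ∀ c ∈ X, ¬ Gap par D ρ c y with hKd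
  have hK : ∀ y, y ∈ K ↔ core par D ρ y ∧ ∀ c ∈ X, ¬ Gap par D ρ c y := fun y => by simp [hKd]
  have l5 : (ρ - β) * X.card ≤ ∑ y ∈ Kᶜ.filter fun y => core par D ρ y, d y (par y) := by
    refine h.pack (S := fun c => univ.filter fun y => Gap par D ρ c y)
      (fun c hc c' hc' u hu hu' => hinj (mem_filter.1 hc).1 (mem_filter.1 hc').1
        (h.gap_inj hρ0 (hnn c) (hnn c') (hX c hc).2.2 (hX c' hc').2.2 (mem_filter.1 hu).2
          (mem_filter.1 hu').2)) (fun c hc u hu => ?_)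
      fun c hc => h.gap_sum hρ0 (hnn c) (hX c hc).2.2 fun y hy => mem_filter.2 ⟨mem_univ _, hy⟩
    have hg := (mem_filter.1 hu).2
    refine mem_filter.2 ⟨mem_compl.2 fun hk => ((hK u).1 hk).2 c hc hg, ?_⟩
    obtain ⟨⟨i, rfl⟩, -⟩ := hg
    exact h.core_iter (hCc c (hX c hc).1) i
  have l6 : ∑ y ∈ Kᶜ, d y (par y) = ∑ y ∈ Kᶜ.filter fun y => core par D ρ y, d y (par y) + s₁ := by
    rw [← sum_filter_add_sum_filter_not Kᶜ fun y => core par D ρ y]
    congr 2
    ext y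
    simp only [mem_filter, mem_compl, hK, mem_univ, true_and]
    tauto
  refine ⟨K, X, fun c hc => (hK c).2 ⟨hCc c (hX c hc).1, fun c' hc' hg => ?_⟩,
    fun y hy => (hK y).2 ⟨.inl hy, fun c hc hg => ?_⟩, fun c hc => ?_, fun y => ?_, fun y hy =>
      h.kept_conn hρ0 (fun c hc => ⟨hCc c (hX c hc).1, (hX c hc).2.1, _, hnn c, (hX c hc).2.2⟩) hK
        N y hy (hN y), ?_⟩
  · have := hg.2
    have := (hX c hc).2.1
    have := (hX c' hc').2.1
    omega
  · obtain ⟨⟨i, rfl⟩, s⟩ := hg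
    exact ((hnn c).2 i (h.gap_lt hρ0 (hX c hc).2.2 s)).1.1 hy
  · obtain ⟨w, hw, rfl⟩ := mem_image.1 (hX c hc).1
    exact ⟨w, (mem_sdiff.1 hw).1, (hcw w hw).1, (hcw w hw).2.1⟩
  · obtain ⟨n, h1, h2⟩ := h.to_core hρ0.le hβ0 y
    obtain ⟨n', h3, h4⟩ := h.kept_near hρ0 hβ0 (by linarith)
      (fun c hc => ⟨(hX c hc).2.1, _, hnn c, (hX c hc).2.2⟩) hK h1
    rw [← iterate_add_apply] at h3 h4
    exact ⟨_, h3, by linarith [h.dist_le y (n' + n)]⟩
  · have l7 := h.bad_le hρ0.le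
    have m2 : (C.card : ℝ) + W₁.card = W.card := by exact_mod_cast l2
    have m4 : ((C.image q).card : ℝ) ≤
        (univ.filter fun y => core par D ρ y ∧ ¬ sole par D ρ y).card + 2 * X.card := by
      exact_mod_cast (by omega)
    have m5 := mul_le_mul_of_nonneg_left m4 hρ0.le
    have m6 : 0 ≤ s₁ := sum_nonneg fun _ _ => hd.nonneg _ _
    rw [l6, ← m2]
    linarith

end Vale.Agent.P061
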